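import Crest.Agent.Tal.Scale

/-! Fractional covers give integral covers. -/

set_option autoImplicit false
set_option linter.unnecessarySeqFocus false
set_option linter.unusedSectionVars false

namespace Crest.Agent.Tal
open Finset

variable {α : Type*} [Fintype α] [DecidableEq α]

/-- weight of a point -/
noncomputable def lamW (g : Finset α → ℝ) (A : Finset α) (x : α) : ℝ :=
  ∑ S ∈ A.powerset.erase ∅, if x ∈ S then g S / S.card else 0

lemma sum_lamW (g : Finset α → ℝ) (A : Finset α) (f : α → ℝ) :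
    ∑ x ∈ A, lamW g A x * f x = ∑ S ∈ A.powerset.erase ∅, g S / S.card * ∑ x ∈ S, f x := by
  unfold lamW
  simp only [Finset.sum_mul]
  rw [Finset.sum_comm]
  refine Finset.sum_congr rfl fun S hS => ?_
  have hS' : S ⊆ A := Finset.mem_powerset.mp (Finset.mem_of_mem_erase hS)
  simp only [ite_mul, zero_mul]
  rw [Finset.sum_ite_mem, Finset.inter_eq_right.mpr hS', Finset.mul_sum]

lemma perfect_bound (g : Finset α → ℝ) (hg : ∀ S, 0 ≤ g S) (rk : Finset α → α → ℕ) (A : Finset α)
    (hrk : ∀ x ∈ A, A.filter (fun y => lamW g A x ≤ lamW g A y) =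
      A.filter (fun y => rk A y < (A.filter (fun y => lamW g A x ≤ lamW g A y)).card))
    (τ : α → ℕ) (R : ℕ) (hτ : ∀ x, τ x ≤ R) (hU : ¬ (UU rk τ A).Nonempty) :
    2 / 3 * ∑ S ∈ A.powerset.erase ∅, g S ≤
      ∑ S ∈ A.powerset.erase ∅, g S * ind (∑ x ∈ S, τ x ≤ S.card) := by
  set G := ∑ S ∈ A.powerset.erase ∅, g S with hG
  have hG0 : 0 ≤ G := Finset.sum_nonneg fun S _ => hg S
  have hlam : ∀ x, 0 ≤ lamW g A x := fun x => Finset.sum_nonneg fun S _ => by
    split_ifs
    · exact div_nonneg (hg S) (by positivity)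
    · exact le_rfl
  have htot : ∑ x ∈ A, lamW g A x * 1 = G := by
    rw [sum_lamW]
    refine Finset.sum_congr rfl fun S hS => ?_
    have : (0 : ℝ) < S.card := by
      exact_mod_cast (Finset.nonempty_iff_ne_empty.mpr (Finset.ne_of_mem_erase hS)).card_pos
    simp; field_simp
  have hJ : ∀ i, JJ rk τ A i = 0 := by
    intro i
    have := JJ_le (rk := rk) τ A i
    rw [Finset.not_nonempty_iff_eq_empty.mp hU] at this
    simpa using this
  have hlev : ∀ i, ∑ x ∈ A, lamW g A x * ind (i < τ x) ≤ (1 / 4) ^ (i + 1) * G := by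
    intro i
    have h := layer_cake (fun y => (1 / 4) ^ (i + 1) - ind (i < τ y)) A (lamW g A)
      (fun x _ => hlam x) (by
        intro x hx
        set j := (A.filter (fun y => lamW g A x ≤ lamW g A y)).card with hj
        have hj0 : 0 < j := Finset.card_pos.mpr ⟨x, Finset.mem_filter.mpr ⟨hx, le_rfl⟩⟩
        have h1 := JJ_lt (rk := rk) (τ := τ) (A := A) (i := i) (j := j) (by rw [hJ]; exact hj0)
          (Finset.card_le_univ _)
        rw [Finset.sum_sub_distrib, Finset.sum_const, ← hj, hrk x hx, sum_ind_eq_card,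
          Finset.filter_filter]
        have h2 : ((4 : ℝ) ^ (i + 1)) * (miss rk τ A j i : ℝ) ≤ j := by exact_mod_cast h1.le
        unfold miss at h2
        rw [nsmul_eq_mul, one_div_pow, sub_nonneg, mul_one_div, le_div_iff₀ (by positivity)]
        linarith)
    simp only [mul_sub, Finset.sum_sub_distrib] at h
    rw [← Finset.sum_mul] at h
    simp only [mul_one] at htot
    rw [htot] at h
    linarith
  have hsum : ∑ x ∈ A, lamW g A x * (τ x : ℝ) ≤ G / 3 := by
    have h1 : ∀ x, (τ x : ℝ) = ∑ i ∈ range R, ind (i < τ x) := by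
      intro x
      rw [sum_ind_eq_card]
      have : (range R).filter (fun i => i < τ x) = range (τ x) := by
        ext i; simp only [Finset.mem_filter, Finset.mem_range]
        have := hτ x; omega
      rw [this, Finset.card_range]
    simp only [h1, Finset.mul_sum]
    rw [Finset.sum_comm]
    refine (Finset.sum_le_sum fun i _ => hlev i).trans ?_
    simp only [pow_succ]
    rw [← Finset.sum_mul, ← Finset.sum_mul]
    have := geom_le (1 / 4) (by norm_num) (by norm_num) R
    nlinarith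
  rw [sum_lamW] at hsum
  have h3 : G ≤ ∑ S ∈ A.powerset.erase ∅, g S * ind (∑ x ∈ S, τ x ≤ S.card) +
      ∑ S ∈ A.powerset.erase ∅, g S / S.card * ∑ x ∈ S, (τ x : ℝ) := by
    rw [← Finset.sum_add_distrib]
    refine Finset.sum_le_sum fun S hS => ?_
    have hc : (0 : ℝ) < S.card := by
      exact_mod_cast (Finset.nonempty_iff_ne_empty.mpr (Finset.ne_of_mem_erase hS)).card_pos
    have h0 : 0 ≤ g S / S.card * ∑ x ∈ S, (τ x : ℝ) :=
      mul_nonneg (div_nonneg (hg S) hc.le) (Finset.sum_nonneg fun _ _ => by positivity)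
    by_cases h : ∑ x ∈ S, τ x ≤ S.card
    · rw [ind_pos h]; linarith
    · rw [ind_neg h]
      have h4 : (S.card : ℝ) ≤ ∑ x ∈ S, (τ x : ℝ) := by exact_mod_cast (not_le.mp h).le
      have h5 : g S / S.card * S.card ≤ g S / S.card * ∑ x ∈ S, (τ x : ℝ) :=
        mul_le_mul_of_nonneg_left h4 (div_nonneg (hg S) hc.le)
      rw [div_mul_cancel₀ _ hc.ne'] at h5
      linarith
  linarith

theorem frac_to_int (F : Finset (Finset α)) (hempty : ∅ ∉ F) (r : ℝ) (hr0 : 0 ≤ r)
    (g : Finset α → ℝ) (hg : ∀ S : Finset α, 0 ≤ g S)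
    (hcov : ∀ H ∈ F, 1 ≤ ∑ S ∈ H.powerset, g S)
    (hcost : ∑ S : Finset α, g S * r ^ S.card ≤ 1 / 2) (hr1 : r ≤ 1) :
    ∃ G : Finset (Finset α), (∀ H ∈ F, ∃ S ∈ G, S ⊆ H) ∧
      ∑ S ∈ G, (r / (25 * 512 ^ 4)) ^ S.card ≤ 1 / 2 := by
  classical
  rcases eq_or_lt_of_le hr0 with h0 | h0
  · refine ⟨F, fun H hH => ⟨H, hH, Finset.Subset.refl _⟩, ?_⟩
    rw [Finset.sum_eq_zero]
    · norm_num
    · intro S hS
      have : S.card ≠ 0 := fun h => hempty (Finset.card_eq_zero.mp h ▸ hS)
      rw [← h0, zero_div, zero_pow this]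
  by_contra hcon
  push Not at hcon
  set p := r / (25 * 512 ^ 4) with hp
  have hp0 : 0 < p := by positivity
  have hex : ∃ R : ℕ, 1 / 2 < 256 * 8 ^ R * p := by
    obtain ⟨R, hR⟩ := pow_unbounded_of_one_lt (1 / p) (by norm_num : (1 : ℝ) < 8)
    refine ⟨R, ?_⟩
    rw [div_lt_iff₀ hp0] at hR
    linarith
  set R := Nat.find hex with hR
  have hR1 : 1 / 2 < 256 * 8 ^ R * p := Nat.find_spec hex
  have hR2 : ∑ a ∈ range R, 256 * 8 ^ a * p ≤ 1 := by
    rcases Nat.eq_zero_or_pos R with h | h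
    · rw [h]; simp
    · have h1 : ¬ 1 / 2 < 256 * 8 ^ (R - 1) * p := Nat.find_min hex (by omega)
      have h2 := geom_sum_mul (8 : ℝ) R
      have h3 : (8 : ℝ) ^ R = 8 * 8 ^ (R - 1) := by
        rw [← pow_succ']; congr 1; omega
      rw [← Finset.sum_mul, ← Finset.mul_sum]
      have h4 : ∑ a ∈ range R, (8 : ℝ) ^ a ≤ 2 * 8 ^ (R - 1) := by
        have : (0 : ℝ) < 8 ^ (R - 1) := by positivity
        linarith
      nlinarith
  set P : ℕ → ℝ := fun a => if a < R then 256 * 8 ^ a * p else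
    1 - ∑ a ∈ range R, 256 * 8 ^ a * p with hPdef
  have hPa : ∀ a < R, P a = 256 * 8 ^ a * p := fun a ha => if_pos ha
  have hPR : P R = 1 - ∑ a ∈ range R, 256 * 8 ^ a * p := if_neg (lt_irrefl _)
  have hP0 : ∀ a, 0 ≤ P a := by
    intro a; simp only [hPdef]; split_ifs
    · positivity
    · linarith
  have hP : ∑ a ∈ range (R + 1), P a = 1 := by
    rw [Finset.sum_range_succ, hPR,
      Finset.sum_congr rfl (fun a ha => hPa a (Finset.mem_range.mp ha))]; ring
  choose rk hrk1 hrk2 using fun A : Finset α => exists_rank A (lamW g A)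
  have hms := multiscale rk F (fun A _ => hrk1 A) p hp0 R P hP0 hP hPa hcon
  set Ω := Fintype.piFinset (fun _ : α => range (R + 1)) with hΩ
  have hW : ∑ τ ∈ Ω, ∏ x, P (τ x) = 1 := by
    rw [hΩ, ← Finset.prod_univ_sum (fun _ : α => range (R + 1)) (fun _ a => P a)]
    simp [hP]
  have hg0 : g ∅ ≤ 1 / 2 := by
    refine le_trans ?_ hcost
    have := Finset.single_le_sum (f := fun S : Finset α => g S * r ^ S.card)
      (fun S _ => mul_nonneg (hg S) (by positivity)) (Finset.mem_univ ∅)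
    simpa using this
  have hgood : ∀ τ ∈ Ω, 1 - ind (∀ A ∈ F, (UU rk τ A).Nonempty) ≤
      3 * ∑ S ∈ univ.erase ∅, g S * ind (∑ x ∈ S, τ x ≤ S.card) := by
    intro τ hτ
    have hnn : ∀ S : Finset α, 0 ≤ g S * ind (∑ x ∈ S, τ x ≤ S.card) :=
      fun S => mul_nonneg (hg S) (ind_nonneg _)
    by_cases h : ∀ A ∈ F, (UU rk τ A).Nonempty
    · rw [ind_pos h]
      have := Finset.sum_nonneg (s := univ.erase ∅) fun S _ => hnn S
      linarith
    · rw [ind_neg h]
      push Not at h
      obtain ⟨A, hA, hU⟩ := h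
      have h1 := perfect_bound g hg rk A (hrk2 A) τ R (fun x => by
        have := Fintype.mem_piFinset.mp hτ x
        rw [Finset.mem_range] at this; omega) (by rw [hU]; simp)
      have h2 := hcov A hA
      rw [← Finset.add_sum_erase _ _ (Finset.empty_mem_powerset A)] at h2
      have h3 : ∑ S ∈ A.powerset.erase ∅, g S * ind (∑ x ∈ S, τ x ≤ S.card) ≤
          ∑ S ∈ univ.erase ∅, g S * ind (∑ x ∈ S, τ x ≤ S.card) :=
        Finset.sum_le_sum_of_subset_of_nonneg (Finset.erase_subset_erase _ (Finset.subset_univ _))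
          fun S _ _ => hnn S
      linarith
  have hq : ∑ a ∈ range (R + 1), P a * (16 * (1 / 16) ^ a) ≤ r / 8 := by
    rw [Finset.sum_range_succ]
    have h1 : ∀ a ∈ range R, P a * (16 * (1 / 16) ^ a) = 4096 * p * (1 / 2) ^ a := by
      intro a ha
      rw [hPa a (Finset.mem_range.mp ha)]
      have : (1 / 2 : ℝ) ^ a = 8 ^ a * (1 / 16) ^ a := by rw [← mul_pow]; norm_num
      rw [this]; ring
    rw [Finset.sum_congr rfl h1, ← Finset.mul_sum]
    have h2 := geom_le (1 / 2) (by norm_num) (by norm_num) R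
    have h3 : P R ≤ 1 := by
      rw [hPR]
      have : 0 ≤ ∑ a ∈ range R, 256 * 8 ^ a * p := Finset.sum_nonneg fun _ _ => by positivity
      linarith
    have h4 : (1 / 16 : ℝ) ^ R ≤ 512 * p := by
      have h5 : (1 / 16 : ℝ) ^ R * 8 ^ R ≤ 1 := by
        rw [← mul_pow]; exact pow_le_one₀ (by norm_num) (by norm_num)
      have h6 : (0 : ℝ) < (1 / 16) ^ R := by positivity
      nlinarith
    have h5 : P R * (16 * (1 / 16) ^ R) ≤ 1 * (16 * (512 * p)) :=
      mul_le_mul h3 (by linarith) (by positivity) (by norm_num)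
    have h6 : r = 25 * 512 ^ 4 * p := by rw [hp]; field_simp
    nlinarith
  have hwell : ∀ S ∈ (univ : Finset (Finset α)).erase ∅,
      ∑ τ ∈ Ω, (∏ x, P (τ x)) * ind (∑ x ∈ S, τ x ≤ S.card) ≤ r ^ S.card / 8 := by
    intro S hS
    have hc : 0 < S.card := (Finset.nonempty_iff_ne_empty.mpr (Finset.ne_of_mem_erase hS)).card_pos
    have h1 : ∀ τ ∈ Ω, (∏ x, P (τ x)) * ind (∑ x ∈ S, τ x ≤ S.card) ≤
        ∏ x, (P (τ x) * if x ∈ S then 16 * (1 / 16) ^ (τ x) else 1) := by
      intro τ _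
      rw [Finset.prod_mul_distrib]
      refine mul_le_mul_of_nonneg_left ?_ (Finset.prod_nonneg fun _ _ => hP0 _)
      rw [Finset.prod_ite_mem, Finset.univ_inter, Finset.prod_mul_distrib, Finset.prod_const,
        Finset.prod_pow_eq_pow_sum]
      by_cases h : ∑ x ∈ S, τ x ≤ S.card
      · rw [ind_pos h, one_div_pow, mul_one_div, le_div_iff₀ (by positivity), one_mul]
        exact pow_le_pow_right₀ (by norm_num) h
      · rw [ind_neg h]; positivity
    refine (Finset.sum_le_sum h1).trans ?_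
    rw [hΩ, ← Finset.prod_univ_sum (fun _ : α => range (R + 1))
      (fun x a => P a * if x ∈ S then 16 * (1 / 16) ^ a else 1)]
    have h2 : ∀ x : α, ∑ a ∈ range (R + 1), P a * (if x ∈ S then 16 * (1 / 16) ^ a else 1) ≤
        if x ∈ S then r / 8 else 1 := by
      intro x; split_ifs
      · exact hq
      · simp [hP]
    refine (Finset.prod_le_prod (fun x _ => Finset.sum_nonneg fun a _ =>
      mul_nonneg (hP0 a) (by split_ifs <;> positivity)) fun x _ => h2 x).trans ?_
    rw [Finset.prod_ite_mem, Finset.univ_inter, Finset.prod_const, div_pow]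
    exact div_le_div_of_nonneg_left (by positivity) (by norm_num)
      (le_self_pow₀ (by norm_num) hc.ne')
  have hfin : ∑ τ ∈ Ω, (∏ x, P (τ x)) * (1 - ind (∀ A ∈ F, (UU rk τ A).Nonempty)) ≤ 3 / 16 := by
    refine (Finset.sum_le_sum fun τ hτ => mul_le_mul_of_nonneg_left (hgood τ hτ)
      (Finset.prod_nonneg fun _ _ => hP0 _)).trans ?_
    simp only [Finset.mul_sum]
    rw [Finset.sum_comm]
    have h1 : ∀ S ∈ (univ : Finset (Finset α)).erase ∅,
        ∑ τ ∈ Ω, (∏ x, P (τ x)) * (3 * (g S * ind (∑ x ∈ S, τ x ≤ S.card))) ≤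
          3 / 8 * (g S * r ^ S.card) := by
      intro S hS
      have h2 : ∑ τ ∈ Ω, (∏ x, P (τ x)) * (3 * (g S * ind (∑ x ∈ S, τ x ≤ S.card))) =
          3 * g S * ∑ τ ∈ Ω, (∏ x, P (τ x)) * ind (∑ x ∈ S, τ x ≤ S.card) := by
        rw [Finset.mul_sum]; exact Finset.sum_congr rfl fun _ _ => by ring
      rw [h2]
      have := mul_le_mul_of_nonneg_left (hwell S hS) (by have := hg S; positivity : 0 ≤ 3 * g S)
      linarith
    refine (Finset.sum_le_sum h1).trans ?_
    rw [← Finset.mul_sum]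
    have h3 : ∑ S ∈ (univ : Finset (Finset α)).erase ∅, g S * r ^ S.card ≤
        ∑ S : Finset α, g S * r ^ S.card :=
      Finset.sum_le_sum_of_subset_of_nonneg (Finset.erase_subset _ _)
        fun S _ _ => mul_nonneg (hg S) (by positivity)
    linarith
  simp only [mul_sub, mul_one, Finset.sum_sub_distrib, hW] at hfin
  linarith

end Crest.Agent.Tal
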