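import Crest.Agent.Tal.Prob

/-! Biased characters: a Hoffman-type fractional cover and the thinning inequality. -/

set_option autoImplicit false
set_option linter.unnecessarySeqFocus false

namespace Crest.Agent.Tal
open Finset

variable {ι : Type*} [Fintype ι] [DecidableEq ι]

/-- character attached to a set -/
def chi (f : Bool → ℝ) (I : Finset ι) (ω : ι → Bool) : ℝ := ∏ i ∈ I, f (ω i)

lemma E_orth {p v : ℝ} {f : Bool → ℝ} (hm : ∑ b, bw p b * f b = 0)
    (hv : ∑ b, bw p b * (f b * f b) = v) (I J : Finset ι) :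
    E p (fun ω => chi f I ω * chi f J ω) = if I = J then v ^ I.card else 0 := by
  have h1 : ∀ ω : ι → Bool, chi f I ω * chi f J ω =
      ∏ i, ((if i ∈ I then f (ω i) else 1) * (if i ∈ J then f (ω i) else 1)) := by
    intro ω
    rw [Finset.prod_mul_distrib, Finset.prod_ite_mem, Finset.prod_ite_mem, Finset.univ_inter,
      Finset.univ_inter]; rfl
  unfold E
  rw [PE_congr _ h1, PE_prod (fun _ : ι => bw p)
    (fun i a => (if i ∈ I then f a else 1) * (if i ∈ J then f a else 1))]
  split_ifs with h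
  · subst h
    rw [← Finset.prod_const, ← Finset.univ_inter I, ← Finset.prod_ite_mem, Finset.univ_inter]
    refine Finset.prod_congr rfl fun i _ => ?_
    by_cases hi : i ∈ I
    · simp only [if_pos hi]; exact hv
    · simp only [if_neg hi, mul_one]; exact bw_sum p
  · have : ∃ i, ¬ (i ∈ I ↔ i ∈ J) := by
      by_contra hc; push Not at hc
      exact h (Finset.ext hc)
    obtain ⟨i, hi⟩ := this
    refine Finset.prod_eq_zero (Finset.mem_univ i) ?_
    by_cases hI : i ∈ I
    · have hJ : i ∉ J := fun hJ => hi ⟨fun _ => hJ, fun _ => hI⟩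
      simp only [if_pos hI, if_neg hJ, mul_one]; exact hm
    · have hJ : i ∈ J := by
        by_contra hJ; exact hi ⟨fun h => absurd h hI, fun h => absurd h hJ⟩
      simp only [if_pos hJ, if_neg hI, one_mul]; exact hm

lemma E_sq {p v : ℝ} {f : Bool → ℝ} (hm : ∑ b, bw p b * f b = 0)
    (hv : ∑ b, bw p b * (f b * f b) = v) (s : Finset (Finset ι)) (c : Finset ι → ℝ) :
    E p (fun ω => (∑ I ∈ s, c I * chi f I ω) * (∑ I ∈ s, c I * chi f I ω)) =
      ∑ I ∈ s, c I ^ 2 * v ^ I.card := by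
  have h1 : ∀ ω : ι → Bool, (∑ I ∈ s, c I * chi f I ω) * (∑ I ∈ s, c I * chi f I ω) =
      ∑ I ∈ s, ∑ J ∈ s, (c I * c J) * (chi f I ω * chi f J ω) := by
    intro ω; rw [Finset.sum_mul_sum]
    exact Finset.sum_congr rfl fun I _ => Finset.sum_congr rfl fun J _ => by ring
  unfold E
  rw [PE_congr _ h1, PE_sum]
  refine Finset.sum_congr rfl fun I hI => ?_
  rw [PE_sum]
  have h2 : ∀ J ∈ s, PE (fun _ : ι => bw p) (fun ω => (c I * c J) * (chi f I ω * chi f J ω)) =
      if I = J then c I * c J * v ^ I.card else 0 := by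
    intro J _
    rw [PE_mul_left]
    have := E_orth hm hv I J
    unfold E at this; rw [this]; split_ifs <;> simp
  rw [Finset.sum_congr rfl h2, Finset.sum_ite_eq, if_pos hI]; ring

lemma bessel {p v : ℝ} (h0 : 0 ≤ p) (h1 : p ≤ 1) {f : Bool → ℝ} (hm : ∑ b, bw p b * f b = 0)
    (hv : ∑ b, bw p b * (f b * f b) = v) (hv0 : 0 < v) (s : Finset (Finset ι))
    (h : (ι → Bool) → ℝ) :
    ∑ I ∈ s, (E p (fun ω => h ω * chi f I ω)) ^ 2 / v ^ I.card ≤ E p (fun ω => h ω * h ω) := by
  set c : Finset ι → ℝ := fun I => E p (fun ω => h ω * chi f I ω) / v ^ I.card with hc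
  have hsq := E_sq hm hv s c
  have hpos : 0 ≤ E p (fun ω => (h ω - ∑ I ∈ s, c I * chi f I ω) *
      (h ω - ∑ I ∈ s, c I * chi f I ω)) := E_nonneg h0 h1 fun ω => mul_self_nonneg _
  have h2 : ∀ ω : ι → Bool, (h ω - ∑ I ∈ s, c I * chi f I ω) *
      (h ω - ∑ I ∈ s, c I * chi f I ω) = (h ω * h ω - 2 * ∑ I ∈ s, c I * (h ω * chi f I ω)) +
      (∑ I ∈ s, c I * chi f I ω) * (∑ I ∈ s, c I * chi f I ω) := by
    intro ω
    have : ∑ I ∈ s, c I * (h ω * chi f I ω) = h ω * ∑ I ∈ s, c I * chi f I ω := by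
      rw [Finset.mul_sum]; exact Finset.sum_congr rfl fun I _ => by ring
    rw [this]; ring
  unfold E at hpos hsq ⊢
  rw [PE_congr _ h2, PE_add, PE_sub, PE_mul_left, PE_sum, hsq] at hpos
  simp only [PE_mul_left] at hpos
  have h3 : ∀ I ∈ s, c I * PE (fun _ : ι => bw p) (fun ω => h ω * chi f I ω) =
      (PE (fun _ : ι => bw p) (fun ω => h ω * chi f I ω)) ^ 2 / v ^ I.card := by
    intro I _; rw [hc]; unfold E; field_simp
  have h4 : ∀ I ∈ s, c I ^ 2 * v ^ I.card =
      (PE (fun _ : ι => bw p) (fun ω => h ω * chi f I ω)) ^ 2 / v ^ I.card := by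
    intro I _; rw [hc]; unfold E; field_simp
  rw [Finset.sum_congr rfl h3, Finset.sum_congr rfl h4] at hpos
  linarith

/-- the (unnormalised) biased character -/
noncomputable def psi (p : ℝ) (b : Bool) : ℝ := if b then (1 - p) / p else -1

lemma psi_mean {p : ℝ} (hp : 0 < p) : ∑ b, bw p b * psi p b = 0 := by
  simp [psi]; field_simp; ring

lemma psi_var {p : ℝ} (hp : 0 < p) : ∑ b, bw p b * (psi p b * psi p b) = (1 - p) / p := by
  simp [psi]; field_simp; ring

/-- Hoffman-type identity: sets not covered by two members of `A`. -/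
lemma frac_cover {p : ℝ} (A : (ι → Bool) → Prop) (S : Finset ι)
    (hS : ∀ X Y, A X → A Y → ∃ i ∈ S, X i = false ∧ Y i = false) :
    (E p (fun ω => ind (A ω))) ^ 2 ≤
      ∑ I ∈ S.powerset.erase ∅, (E p (fun ω => ind (A ω) * chi (psi p) I ω)) ^ 2 := by
  have h1 : ∀ X Y : ι → Bool, ∑ I ∈ S.powerset, ((-1) ^ I.card * (ind (A X) * chi (psi p) I X)) *
      (ind (A Y) * chi (psi p) I Y) = 0 := by
    intro X Y
    have h2 : ∑ I ∈ S.powerset, ((-1) ^ I.card * (ind (A X) * chi (psi p) I X)) *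
      (ind (A Y) * chi (psi p) I Y) =
        ind (A X) * ind (A Y) * ∏ i ∈ S, (1 + (-1) * (psi p (X i) * psi p (Y i))) := by
      rw [Finset.prod_one_add, Finset.mul_sum]
      refine Finset.sum_congr rfl fun I _ => ?_
      rw [Finset.prod_mul_distrib, Finset.prod_mul_distrib, Finset.prod_const]
      unfold chi; ring
    rw [h2]
    by_cases hX : A X
    · by_cases hY : A Y
      · obtain ⟨i, hi, hx, hy⟩ := hS X Y hX hY
        rw [Finset.prod_eq_zero hi, mul_zero]
        simp [hx, hy, psi]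
      · rw [ind_neg hY]; ring
    · rw [ind_neg hX]; ring
  have h3 : ∑ I ∈ S.powerset, (-1) ^ I.card * (E p (fun ω => ind (A ω) * chi (psi p) I ω)) ^ 2
      = 0 := by
    have h4 : E p (fun X : ι → Bool => E p (fun Y : ι → Bool =>
        ∑ I ∈ S.powerset, ((-1) ^ I.card * (ind (A X) * chi (psi p) I X)) *
      (ind (A Y) * chi (psi p) I Y))) = 0 := by
      simp only [h1, E_const]
    rw [← h4]
    unfold E
    simp only [PE_sum, PE_mul_left, PE_mul_right]
    exact Finset.sum_congr rfl fun I _ => by ring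
  rw [← Finset.add_sum_erase _ _ (Finset.empty_mem_powerset S)] at h3
  have h5 : ∀ ω : ι → Bool, ind (A ω) * chi (psi p) ∅ ω = ind (A ω) := by
    intro ω; simp [chi]
  simp only [h5, Finset.card_empty, pow_zero, one_mul] at h3
  have h6 : - ∑ I ∈ S.powerset.erase ∅, (-1) ^ I.card *
      (E p (fun ω => ind (A ω) * chi (psi p) I ω)) ^ 2 ≤
      ∑ I ∈ S.powerset.erase ∅, (E p (fun ω => ind (A ω) * chi (psi p) I ω)) ^ 2 := by
    rw [← Finset.sum_neg_distrib]
    refine Finset.sum_le_sum fun I _ => ?_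
    rcases neg_one_pow_eq_or ℝ I.card with h | h <;> rw [h] <;>
      nlinarith [sq_nonneg (E p (fun ω => ind (A ω) * chi (psi p) I ω))]
  linarith

/-- the part of `T` carrying the label `c` -/
def thin (T : Finset ι) (β : ι → Bool) (c : Bool) : ι → Bool := fun a => decide (a ∈ T ∧ β a = c)

/-- The thinning inequality. -/
lemma thinning {B : Type*} (s : Finset B) (T : B → Finset ι) {P n' : ℝ} (hP0 : 0 < P) (hP1 : P < 1)
    (hcount : ∀ I : Finset ι, ((s.filter (fun b => I ⊆ T b)).card : ℝ) * ((1 - P) / P) ^ I.card ≤ n')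
    (U : (ι → Bool) → Prop) (hU : ∀ x y : ι → Bool, (∀ i, x i = true → y i = true) → U x → U y)
    (c : Bool) :
    ∑ b ∈ s, E (1 / 2) (fun β => ind (U (thin (T b) β c))) ≤ n' * E P (fun ω => ind (U ω)) := by
  set σ : Bool → ℝ := fun x => if x = c then 1 else -1 with hσ
  have hσm : ∑ b, bw (1 / 2) b * σ b = 0 := by
    cases c <;> simp [hσ] <;> norm_num
  have hσv : ∑ b, bw (1 / 2) b * (σ b * σ b) = 1 := by
    cases c <;> simp [hσ] <;> norm_num
  set hh : B → Finset ι → ℝ := fun b I =>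
    E (1 / 2) (fun β => ind (U (thin (T b) β c)) * chi σ I β) with hhh
  set cc : Finset ι → ℝ := fun I => ∑ b ∈ s.filter (fun b => I ⊆ T b), hh b I with hcc
  set θ := ∑ b ∈ s, E (1 / 2) (fun β => ind (U (thin (T b) β c))) with hθ
  set Z : (ι → Bool) → ℝ := fun X => ∑ I ∈ univ, cc I * chi (psi P) I X with hZ
  have hn' : 0 ≤ n' := le_trans (by positivity) (hcount ∅)
  have hswap : ∀ F : B → Finset ι → ℝ, ∑ I ∈ univ, ∑ b ∈ s.filter (fun b => I ⊆ T b), F b I =
      ∑ b ∈ s, ∑ I ∈ (T b).powerset, F b I := by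
    intro F
    refine Finset.sum_comm' ?_
    intro I b; simp [and_comm]
  have hZ0 : ∀ X, ¬ U X → Z X = 0 := by
    intro X hX
    simp only [hZ, hcc, Finset.sum_mul]
    rw [hswap (fun b I => hh b I * chi (psi P) I X)]
    refine Finset.sum_eq_zero fun b _ => ?_
    simp only [hhh]
    unfold E
    simp only [← PE_mul_right]
    rw [← PE_sum]
    rw [PE_congr _ (g := fun _ => 0), PE_const (fun _ => bw_sum _)]
    intro β
    have h2 : ∑ I ∈ (T b).powerset, ind (U (thin (T b) β c)) * chi σ I β * chi (psi P) I X =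
        ind (U (thin (T b) β c)) * ∏ i ∈ T b, (1 + σ (β i) * psi P (X i)) := by
      rw [Finset.prod_one_add, Finset.mul_sum]
      refine Finset.sum_congr rfl fun I _ => ?_
      rw [Finset.prod_mul_distrib]
      unfold chi; ring
    rw [h2]
    by_cases hb : U (thin (T b) β c)
    · have : ∃ i, thin (T b) β c i = true ∧ X i = false := by
        by_contra hc; push Not at hc
        exact hX (hU _ _ (fun i hi => by simpa using hc i hi) hb)
      obtain ⟨i, hi, hx⟩ := this
      simp only [thin, decide_eq_true_eq] at hi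
      rw [Finset.prod_eq_zero hi.1, mul_zero]
      simp [hσ, hi.2, hx, psi]
    · rw [ind_neg hb, zero_mul]
  have hEZ : E P Z = θ := by
    have h1 : ∀ X, Z X = ∑ I ∈ univ, cc I * (chi (psi P) I X * chi (psi P) ∅ X) := by
      intro X; simp [hZ, chi]
    unfold E
    rw [PE_congr _ h1, PE_sum]
    simp only [PE_mul_left]
    have h2 := fun I => E_orth (psi_mean hP0) (psi_var hP0) I (∅ : Finset ι)
    unfold E at h2
    simp only [h2, mul_ite, mul_zero, Finset.sum_ite_eq', Finset.mem_univ, if_true,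
      Finset.card_empty, pow_zero, mul_one]
    simp [hcc, hhh, hθ, chi]
  have hEZ2 : E P (fun X => Z X * Z X) ≤ n' * θ := by
    rw [E_sq (psi_mean hP0) (psi_var hP0) univ cc]
    have h1 : ∀ I ∈ (univ : Finset (Finset ι)), cc I ^ 2 * ((1 - P) / P) ^ I.card ≤
        n' * ∑ b ∈ s.filter (fun b => I ⊆ T b), hh b I ^ 2 := by
      intro I _
      have h2 : cc I ^ 2 ≤ ((s.filter (fun b => I ⊆ T b)).card : ℝ) *
          ∑ b ∈ s.filter (fun b => I ⊆ T b), hh b I ^ 2 := sq_sum_le_card_mul_sum_sq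
      have h3 : 0 ≤ ((1 - P) / P) ^ I.card := pow_nonneg (div_nonneg (by linarith) hP0.le) _
      have h4 : 0 ≤ ∑ b ∈ s.filter (fun b => I ⊆ T b), hh b I ^ 2 :=
        Finset.sum_nonneg fun _ _ => sq_nonneg _
      calc cc I ^ 2 * ((1 - P) / P) ^ I.card
          ≤ (((s.filter (fun b => I ⊆ T b)).card : ℝ) *
          ∑ b ∈ s.filter (fun b => I ⊆ T b), hh b I ^ 2) * ((1 - P) / P) ^ I.card :=
            mul_le_mul_of_nonneg_right h2 h3
        _ = (((s.filter (fun b => I ⊆ T b)).card : ℝ) * ((1 - P) / P) ^ I.card) *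
          ∑ b ∈ s.filter (fun b => I ⊆ T b), hh b I ^ 2 := by ring
        _ ≤ _ := mul_le_mul_of_nonneg_right (hcount I) h4
    refine (Finset.sum_le_sum h1).trans ?_
    rw [← Finset.mul_sum, hswap (fun b I => hh b I ^ 2)]
    refine mul_le_mul_of_nonneg_left (Finset.sum_le_sum fun b _ => ?_) hn'
    have := bessel (by norm_num) (by norm_num) hσm hσv one_pos (T b).powerset
      (fun β => ind (U (thin (T b) β c)))
    simpa only [one_pow, div_one, ind_mul_self] using this
  have hcs := PE_sq_le (w := fun _ : ι => bw P) (fun _ => bw_nonneg hP0.le hP1.le)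
    Z (fun X => ind (U X))
  have h5 : PE (fun _ : ι => bw P) (fun X => Z X * ind (U X)) = θ := by
    rw [← hEZ]; refine PE_congr _ fun X => ?_
    by_cases hX : U X
    · rw [ind_pos hX, mul_one]
    · rw [hZ0 X hX, zero_mul]
  simp only [ind_mul_self] at hcs
  rw [h5] at hcs
  have hμ : 0 ≤ E P (fun ω => ind (U ω)) := E_nonneg hP0.le hP1.le fun _ => ind_nonneg _
  have hθ0 : 0 ≤ θ := Finset.sum_nonneg fun b _ =>
    E_nonneg (by norm_num) (by norm_num) fun _ => ind_nonneg _
  have h6 : θ ^ 2 ≤ n' * θ * E P (fun ω => ind (U ω)) :=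
    hcs.trans (mul_le_mul_of_nonneg_right hEZ2 hμ)
  rcases eq_or_lt_of_le hθ0 with h | h
  · rw [← h]; positivity
  · nlinarith

end Crest.Agent.Tal
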