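import Crest.Agent.Tal.Frac
import Crest.Agent.Tal.Fourier

/-! Discrete convexity. -/

set_option autoImplicit false
set_option linter.unnecessarySeqFocus false
set_option linter.unusedSectionVars false

namespace Crest.Agent.Tal
open Finset

variable {ι : Type*} [Fintype ι] [DecidableEq ι]

/-- the set of successes -/
def toSet (ω : ι → Bool) : Finset ι := univ.filter (fun i => ω i = true)

lemma mem_toSet {ω : ι → Bool} {i : ι} : i ∈ toSet ω ↔ ω i = true := by simp [toSet]

lemma E_eq_sum (p : ℝ) (F : Finset ι → ℝ) :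
    E p (fun ω => F (toSet ω)) =
      ∑ S : Finset ι, p ^ S.card * (1 - p) ^ (Fintype.card ι - S.card) * F S := by
  unfold E PE
  refine Finset.sum_bij (fun ω _ => toSet ω) (fun _ _ => Finset.mem_univ _) ?_ ?_ ?_
  · intro a _ b _ h
    funext i
    have : a i = true ↔ b i = true := by rw [← mem_toSet, ← mem_toSet, h]
    cases ha : a i <;> cases hb : b i <;> simp_all
  · intro S _
    exact ⟨fun i => decide (i ∈ S), Finset.mem_univ _, by ext i; simp [mem_toSet]⟩
  · intro ω _
    congr 1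
    rw [← Finset.prod_mul_prod_compl (toSet ω), ← Finset.card_compl, ← Finset.prod_const,
      ← Finset.prod_const]
    congr 1
    · exact Finset.prod_congr rfl fun i hi => by rw [mem_toSet.mp hi]; rfl
    · refine Finset.prod_congr rfl fun i hi => ?_
      have : ω i = false := by simpa [mem_toSet] using hi
      rw [this]; rfl

/-- covered by `k` members -/
def Cov (D : Finset (Finset ι)) (k : ℕ) (S : Finset ι) : Prop :=
  ∃ f : Fin k → Finset ι, (∀ i, f i ∈ D) ∧ S ⊆ univ.biUnion f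

lemma Cov.union {D : Finset (Finset ι)} {a b : ℕ} {X Y : Finset ι} (hX : Cov D a X)
    (hY : Cov D b Y) : Cov D (a + b) (X ∪ Y) := by
  obtain ⟨f, hf, hX⟩ := hX
  obtain ⟨g, hg, hY⟩ := hY
  refine ⟨Fin.append f g, fun i => ?_, fun x hx => ?_⟩
  · refine Fin.addCases (fun i => ?_) (fun i => ?_) i
    · rw [Fin.append_left]; exact hf i
    · rw [Fin.append_right]; exact hg i
  · rcases Finset.mem_union.mp hx with h | h
    · obtain ⟨i, _, hi⟩ := Finset.mem_biUnion.mp (hX h)
      exact Finset.mem_biUnion.mpr ⟨Fin.castAdd b i, Finset.mem_univ _, by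
        rw [Fin.append_left]; exact hi⟩
    · obtain ⟨i, _, hi⟩ := Finset.mem_biUnion.mp (hY h)
      exact Finset.mem_biUnion.mpr ⟨Fin.natAdd a i, Finset.mem_univ _, by
        rw [Fin.append_right]; exact hi⟩

lemma Cov.mono {D : Finset (Finset ι)} {a : ℕ} {X Y : Finset ι} (hX : Cov D a X) (h : Y ⊆ X) :
    Cov D a Y := by
  obtain ⟨f, hf, hX⟩ := hX
  exact ⟨f, hf, h.trans hX⟩

lemma Cov.empty {D : Finset (Finset ι)} (hD : D.Nonempty) (a : ℕ) : Cov D a ∅ := by
  obtain ⟨X, hX⟩ := hD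
  exact ⟨fun _ => X, fun _ => hX, Finset.empty_subset _⟩

lemma Cov.le {D : Finset (Finset ι)} (hD : D.Nonempty) {a b : ℕ} {X : Finset ι} (hX : Cov D a X)
    (h : a ≤ b) : Cov D b X := by
  have := hX.union (Cov.empty hD (b - a))
  rw [Finset.union_empty, Nat.add_sub_cancel' h] at this
  exact this

lemma E_cov (D : Finset (Finset ι)) {p δ : ℝ} (h0 : 0 ≤ p) (h1 : p ≤ 1) (hδ : 0 ≤ δ)
    (hD : 1 - δ ≤ E p (fun ω => ind (toSet ω ∈ D))) (M : ℕ) :
    1 - M * δ ≤ E (1 - (1 - p) ^ M) (fun ω => ind (Cov D M (toSet ω))) := by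
  induction M with
  | zero =>
    have h := E_eq_sum (ι := ι) (1 - (1 - p) ^ 0) (fun S => ind (Cov D 0 S))
    rw [h, Finset.sum_eq_single ∅]
    · rw [ind_pos ⟨Fin.elim0, fun i => i.elim0, Finset.empty_subset _⟩]; simp
    · intro S _ hS
      have : S.card ≠ 0 := fun h => hS (Finset.card_eq_zero.mp h)
      simp [this]
    · intro h; exact absurd (Finset.mem_univ _) h
  | succ M ih =>
    have hq0 : 0 ≤ (1 - p) ^ M := pow_nonneg (by linarith) _
    have hq1 : (1 - p) ^ M ≤ 1 := pow_le_one₀ (by linarith) (by linarith)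
    have h2 : 1 - (1 - p) ^ (M + 1) = (1 - (1 - p) ^ M) + p - (1 - (1 - p) ^ M) * p := by ring
    rw [h2, ← E_union]
    have h3 : E (1 - (1 - p) ^ M) (fun ω : ι → Bool => E p (fun η : ι → Bool =>
        ind (Cov D M (toSet ω)) + ind (toSet η ∈ D) - 1)) ≤ _ :=
      E_mono (by linarith) (by linarith) fun ω => E_mono h0 h1 fun η => (by
        show _ ≤ ind (Cov D (M + 1) (toSet fun i => ω i || η i))
        by_cases ha : Cov D M (toSet ω)
        · by_cases hb : toSet η ∈ D
          · rw [ind_pos ha, ind_pos hb, ind_pos]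
            · norm_num
            · refine (ha.union (⟨fun _ => toSet η, fun _ => hb, fun x hx =>
                Finset.mem_biUnion.mpr ⟨(0 : Fin 1), Finset.mem_univ _, hx⟩⟩ :
                  Cov D 1 (toSet η))).mono fun x hx => ?_
              simpa [mem_toSet] using hx
          · rw [ind_neg hb]; linarith [ind_le_one (Cov D M (toSet ω)),
              ind_nonneg (Cov D (M + 1) (toSet fun i => ω i || η i))]
        · rw [ind_neg ha]; linarith [ind_le_one (toSet η ∈ D),
              ind_nonneg (Cov D (M + 1) (toSet fun i => ω i || η i))])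
    refine le_trans ?_ h3
    unfold E at hD ih ⊢
    simp only [PE_sub, PE_add, PE_const (fun _ : ι => bw_sum _)]
    push_cast; linarith

theorem discrete_convexity (k : ℕ) (hk : 2 * (25 * 512 ^ 4) ≤ k) (p : ℝ) (hp0 : 0 < p)
    (hp1 : p < 1) (D : Finset (Finset ι)) (δ : ℝ) (hδ0 : 0 ≤ δ)
    (hδ : (25 * 512 ^ 4 : ℕ) * δ ≤ 1 / 3)
    (hD : 1 - δ ≤ ∑ S ∈ D, p ^ S.card * (1 - p) ^ (Fintype.card ι - S.card)) :
    ∃ G : Finset (Finset ι), (∀ S : Finset ι, ¬ Cov D k S → ∃ I ∈ G, I ⊆ S) ∧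
      ∑ I ∈ G, p ^ I.card ≤ 1 / 2 := by
  classical
  obtain ⟨M, hM⟩ : ∃ M : ℕ, M = 25 * 512 ^ 4 := ⟨_, rfl⟩
  rw [← hM] at hk hδ
  have hMR : (M : ℝ) = 25 * 512 ^ 4 := by rw [hM]; norm_num
  have hDne : D.Nonempty := by
    rw [Finset.nonempty_iff_ne_empty]; rintro rfl
    simp only [Finset.sum_empty] at hD
    rw [hMR] at hδ; nlinarith
  have hD' : 1 - δ ≤ E p (fun ω => ind (toSet ω ∈ D)) := by
    rw [E_eq_sum p (fun S => ind (S ∈ D))]
    simp only [ind_eq_ite, mul_ite, mul_one, mul_zero]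
    rw [Finset.sum_ite_mem, Finset.univ_inter]; exact hD
  have hμ := E_cov D hp0.le hp1.le hδ0 hD' M
  set P := 1 - (1 - p) ^ M with hP
  have hq0 : 0 < (1 - p) ^ M := pow_pos (by linarith) _
  have hq1 : (1 - p) ^ M < 1 := pow_lt_one₀ (by linarith) (by linarith) (by rw [hM]; norm_num)
  have hP0 : 0 < P := by linarith
  have hP1 : P < 1 := by linarith
  have hPM : M * p * (1 - P) ≤ P := by
    have h1 : 1 + M * p ≤ (1 + p) ^ M := one_add_mul_le_pow (by linarith) M
    have h2 : (1 + p) ^ M * (1 - p) ^ M ≤ 1 := by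
      rw [← mul_pow]; exact pow_le_one₀ (by nlinarith) (by nlinarith)
    have h3 : (1 + M * p) * (1 - p) ^ M ≤ 1 := (mul_le_mul_of_nonneg_right h1 hq0.le).trans h2
    rw [hP]; nlinarith
  set A : (ι → Bool) → Prop := fun ω => Cov D M (toSet ω) with hA
  set μ := E P (fun ω => ind (A ω)) with hμdef
  have hμ1 : 2 / 3 ≤ μ := by linarith
  set c : Finset ι → ℝ := fun I => E P (fun ω => ind (A ω) * chi (psi P) I ω) with hc
  set g : Finset ι → ℝ := fun I => if I = ∅ then 0 else c I ^ 2 / μ ^ 2 with hg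
  set F : Finset (Finset ι) := univ.filter (fun S => ¬ Cov D k S) with hF
  have hg0 : ∀ I, 0 ≤ g I := by
    intro I; simp only [hg]; split_ifs <;> positivity
  have hgsum : ∀ (s : Finset (Finset ι)) (w : Finset ι → ℝ), ∑ I ∈ s, g I * w I =
      (∑ I ∈ s.erase ∅, c I ^ 2 * w I) / μ ^ 2 := by
    intro s w
    rw [← Finset.sum_erase (a := ∅) s (by simp [hg]), Finset.sum_div]
    refine Finset.sum_congr rfl fun I hI => ?_
    simp only [hg, if_neg (Finset.ne_of_mem_erase hI)]; ring
  have hcov : ∀ H ∈ F, 1 ≤ ∑ S ∈ H.powerset, g S := by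
    intro H hH
    have h1 := frac_cover (p := P) A H (by
      intro X Y hX hY
      by_contra hcon
      push Not at hcon
      refine (Finset.mem_filter.mp hH).2 (((hX.union hY).le hDne (by omega)).mono fun i hi => ?_)
      rw [Finset.mem_union, mem_toSet, mem_toSet]
      by_cases hx : X i = true
      · exact Or.inl hx
      · right; simpa using hcon i hi (by simpa using hx))
    have h2 := hgsum H.powerset (fun _ => 1)
    simp only [mul_one] at h2
    rw [h2, le_div_iff₀ (by positivity), one_mul]; exact h1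
  have hcost : ∀ r : ℝ, 0 ≤ r → r ≤ M * p → ∑ S : Finset ι, g S * r ^ S.card ≤ 1 / 2 := by
    intro r hr0 hr
    rw [hgsum]
    have hv : 0 < (1 - P) / P := div_pos (by linarith) hP0
    have hb := bessel hP0.le hP1.le (psi_mean hP0) (psi_var hP0) hv univ (fun ω => ind (A ω))
    simp only [ind_mul_self] at hb
    rw [← Finset.add_sum_erase _ _ (Finset.mem_univ ∅)] at hb
    have h5 : ∀ ω : ι → Bool, ind (A ω) * chi (psi P) ∅ ω = ind (A ω) := by
      intro ω; simp [chi]
    simp only [h5, Finset.card_empty, pow_zero, div_one] at hb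
    have h6 : ∑ I ∈ univ.erase ∅, c I ^ 2 * r ^ I.card ≤
        ∑ I ∈ univ.erase ∅, c I ^ 2 / ((1 - P) / P) ^ I.card := by
      refine Finset.sum_le_sum fun I _ => ?_
      rw [div_eq_mul_inv, ← inv_pow]
      refine mul_le_mul_of_nonneg_left (pow_le_pow_left₀ hr0 ?_ _) (sq_nonneg _)
      rw [inv_div, le_div_iff₀ (by linarith)]
      nlinarith
    rw [div_le_iff₀ (by positivity)]
    nlinarith
  have hempty : ∅ ∉ F := fun h => (Finset.mem_filter.mp h).2 (Cov.empty hDne k)
  by_cases hr : M * p ≤ 1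
  · obtain ⟨G, hG1, hG2⟩ := frac_to_int F hempty (M * p) (by positivity) g hg0 hcov
      (hcost _ (by positivity) le_rfl) hr
    refine ⟨G, fun S hS => hG1 S (Finset.mem_filter.mpr ⟨Finset.mem_univ _, hS⟩), ?_⟩
    have : M * p / (25 * 512 ^ 4) = p := by rw [hMR]; field_simp
    rwa [this] at hG2
  · refine ⟨∅, fun S hS => ?_, by simp⟩
    exfalso
    have h1 := hcov S (Finset.mem_filter.mpr ⟨Finset.mem_univ _, hS⟩)
    have h2 := hcost 1 (by norm_num) (not_le.mp hr).le
    simp only [one_pow, mul_one] at h2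
    have h3 : ∑ I ∈ S.powerset, g I ≤ ∑ I, g I :=
      Finset.sum_le_sum_of_subset_of_nonneg (Finset.subset_univ _) fun I _ _ => hg0 I
    linarith

end Crest.Agent.Tal
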