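import Crest.Agent.Tal.Core

/-! The decomposition theorem. -/

set_option autoImplicit false
set_option linter.unnecessarySeqFocus false
set_option linter.unusedSectionVars false

namespace Crest.Agent.Tal
open Finset Crest.CombinatoricsR.RandomGraph

variable {n : ℕ} {W : Type} [Fintype W] [DecidableEq W]

lemma not_ns_base (d0 : EdgeSlot n) {H : SimpleGraph W} (hH : H ≠ ⊥) (hn : 2 ≤ n) :
    ¬ NS H n (1 / (n : ℝ) ^ 2) := by
  intro h
  obtain ⟨u, v, huv⟩ : ∃ u v, H.Adj u v := by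
    by_contra hc; push Not at hc
    exact hH (by ext u v; simp [hc u v])
  have h1 := h (univ.image (fun z : EdgeSlot n => ({z} : Finset (EdgeSlot n)))) (by
    rintro A ⟨f⟩
    exact ⟨{slot d0 (f.toHom u) (f.toHom v)}, Finset.mem_image.mpr ⟨_, Finset.mem_univ _, rfl⟩,
      Finset.singleton_subset_iff.mpr (edgeGraph_adj d0 A (f.toHom.map_adj huv))⟩)
  rw [Finset.sum_image (fun x _ y _ hxy => Finset.singleton_injective hxy)] at h1
  simp only [Finset.card_singleton, pow_one, Finset.sum_const, Finset.card_univ, nsmul_eq_mul] at h1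
  have h2 : Fintype.card (EdgeSlot n) = n.choose 2 := by
    have := Sym2.card_subtype_not_diag (α := Fin n)
    rw [Fintype.card_fin] at this
    convert this
  rw [h2, Nat.cast_choose_two] at h1
  have hn' : (2 : ℝ) ≤ n := by exact_mod_cast hn
  rw [mul_one_div, lt_div_iff₀ (by positivity)] at h1
  nlinarith

lemma exists_p (d0 : EdgeSlot n) {H : SimpleGraph W} (hH : H ≠ ⊥) (hn : 2 ≤ n) :
    ∃ p : ℝ, 1 / (n : ℝ) ^ 2 ≤ p ∧ p ≤ 1 ∧ ¬ NS H n p ∧ (2 * p ≤ 1 → NS H n (2 * p)) := by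
  classical
  have hn' : (2 : ℝ) ≤ n := by exact_mod_cast hn
  let Q : ℕ → Prop := fun i => 2 ^ i * (1 / (n : ℝ) ^ 2) ≤ 1 ∧ ¬ NS H n (2 ^ i * (1 / (n : ℝ) ^ 2))
  have hQ0 : Q 0 := by
    refine ⟨?_, by simpa using not_ns_base d0 hH hn⟩
    rw [pow_zero, one_mul, div_le_one (by positivity)]; nlinarith
  have hex : ∃ i, ¬ Q (i + 1) := by
    refine ⟨n ^ 2, fun h => ?_⟩
    have h1 := h.1
    rw [mul_one_div, div_le_one (by positivity)] at h1
    have h2 : n ^ 2 + 1 < 2 ^ (n ^ 2 + 1) := Nat.lt_two_pow_self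
    have h3 : ((n ^ 2 + 1 : ℕ) : ℝ) < ((2 ^ (n ^ 2 + 1) : ℕ) : ℝ) := by exact_mod_cast h2
    push_cast at h3; linarith
  have hQ : Q (Nat.find hex) := by
    rcases h : Nat.find hex with _ | j
    · exact hQ0
    · have := Nat.find_min hex (m := j) (by omega)
      exact not_not.mp this
  refine ⟨2 ^ Nat.find hex * (1 / (n : ℝ) ^ 2), ?_, hQ.1, hQ.2, fun h => ?_⟩
  · exact le_mul_of_one_le_left (by positivity) (one_le_pow₀ (by norm_num))
  · have h1 := Nat.find_spec hex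
    have h2 : (2 : ℝ) ^ (Nat.find hex + 1) * (1 / (n : ℝ) ^ 2) =
        2 * (2 ^ Nat.find hex * (1 / (n : ℝ) ^ 2)) := by ring
    by_contra hc
    exact h1 ⟨h2 ▸ h, h2 ▸ hc⟩

lemma E_one {ι : Type*} [Fintype ι] [DecidableEq ι] (P : (ι → Bool) → Prop)
    (h : P (fun _ => true)) : 1 ≤ E 1 (fun ω => ind (P ω)) := by
  have h1 := E_cond 1 (univ : Finset ι) (fun ω => ind (P ω))
  simp only [Finset.mem_univ, decide_true, Bool.true_or, one_pow, one_mul, ind_pos h, E_const]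
    at h1
  refine h1.ge.trans (E_mono (by norm_num) le_rfl fun ω => ?_)
  exact mul_le_of_le_one_left (ind_nonneg _) (ind_le_one _)

lemma contained_of_contains {G : SimpleGraph W} {R : W → W → Prop}
    (hR : ∀ u v, G.Adj u v → R u v ∨ R v u) {ω : EdgeSlot n → Bool} (h : Contains R ω) :
    G.IsContained (graphOf ω) := by
  obtain ⟨φ, h1, h2⟩ := h
  refine ⟨⟨⟨φ, fun {u v} huv => ?_⟩, h1⟩⟩
  rcases hR u v huv with h | h
  · exact h2 u v h huv.ne
  · exact (h2 v u h huv.ne.symm).symm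

lemma exists_k : ∃ k : ℕ, 2 ≤ k ∧ Nonempty ((Pc × Bool) ≃ Fin k) := by
  refine ⟨Fintype.card (Pc × Bool), ?_, ⟨Fintype.equivFin _⟩⟩
  rw [Fintype.card_prod, Fintype.card_bool]
  have : 0 < Fintype.card Pc := Fintype.card_pos
  omega

theorem main73 : ∃ k : ℕ, 2 ≤ k ∧ ∃ L : ℝ, 1 ≤ L ∧ ∀ n : ℕ, 2 ≤ n →
      ∀ (W : Type) [Fintype W] [DecidableEq W] (H : SimpleGraph W),
        Fintype.card W ≤ n → H ≠ ⊥ →
        ∃ c : H.edgeSet → Fin k, ∀ i : Fin k, ∃ p : ℝ, 0 ≤ p ∧ p ≤ 1 ∧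
          (∃ C : Finset (Finset (EdgeSlot n)),
            (∀ A : Finset (EdgeSlot n), H.IsContained (edgeGraph A) → ∃ S ∈ C, S ⊆ A) ∧
            ∑ S ∈ C, p ^ S.card ≤ 1 / 2) ∧
          1 / 2 ≤ gnpProb n (min 1 (L * p)) {G | (pieceGraph H c i).IsContained G} := by
  classical
  have hL := L0_ge
  obtain ⟨N, hN⟩ : ∃ N : ℝ, N = 40000 ^ 40 := ⟨_, rfl⟩
  have hN0 : 0 < N := by rw [hN]; positivity
  obtain ⟨k, hk, ⟨eqv⟩⟩ := exists_k
  refine ⟨k, hk, 8 * L0 + N ^ 2, by nlinarith, ?_⟩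
  intro n hn W _ _ H hW hH
  have hn' : (2 : ℝ) ≤ n := by exact_mod_cast hn
  let d0 : EdgeSlot n := ⟨s(⟨0, by omega⟩, ⟨1, by omega⟩), by simp⟩
  obtain ⟨p, hp0, hp1, hp2, hp3⟩ := exists_p d0 hH hn
  have hp : 0 < p := lt_of_lt_of_le (by positivity) hp0
  have hsm : ∃ C : Finset (Finset (EdgeSlot n)),
      (∀ A : Finset (EdgeSlot n), H.IsContained (edgeGraph A) → ∃ S ∈ C, S ⊆ A) ∧
      ∑ S ∈ C, p ^ S.card ≤ 1 / 2 := by
    unfold NS at hp2; push Not at hp2; exact hp2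
  by_cases hLp : 1 ≤ (8 * L0 + N ^ 2) * p
  · refine ⟨fun _ => ⟨0, by omega⟩, fun i => ⟨p, hp.le, hp1, hsm, ?_⟩⟩
    rw [min_eq_left hLp]
    unfold gnpProb
    rw [bernoulliProb_eq]
    refine le_trans (by norm_num) (E_one _ ?_)
    have hne : Nonempty (W ↪ Fin n) :=
      Function.Embedding.nonempty_of_card_le (by rw [Fintype.card_fin]; exact hW)
    obtain ⟨e⟩ := hne
    exact ⟨⟨⟨e, fun {u v} huv => graphOf_adj d0 _ (fun h => huv.ne (e.injective h)) rfl⟩,
      e.injective⟩⟩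
  · push Not at hLp
    have h1 : 8 * L0 * p < 1 := by nlinarith [mul_pos (pow_pos hN0 2) hp]
    have h2 : N ^ 2 * p < 1 := by nlinarith [mul_pos (by linarith : 0 < L0) hp]
    have hNn : N ≤ n := by
      have h3 : N ^ 2 * (1 / (n : ℝ) ^ 2) < 1 :=
        lt_of_le_of_lt (mul_le_mul_of_nonneg_left hp0 (by positivity)) h2
      rw [mul_one_div, div_lt_one (by positivity)] at h3
      exact (pow_lt_pow_iff_left₀ hN0.le (by positivity) (by norm_num)).mp h3 |>.le
    have hy : ∃ y : ℝ, 40000 ≤ y ∧ y ^ 40 = 2 * n := by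
      have h3 : (Real.exp (Real.log (2 * n) / 40)) ^ 40 = 2 * n := by
        rw [← Real.exp_nat_mul]; push_cast
        rw [mul_div_cancel₀ _ (by norm_num), Real.exp_log (by positivity)]
      refine ⟨_, ?_, h3⟩
      by_contra hc; push Not at hc
      have := pow_lt_pow_left₀ hc (Real.exp_pos _).le (by norm_num : 40 ≠ 0)
      linarith
    obtain ⟨y, hy, hyn⟩ := hy
    obtain ⟨lam, lab, hl1, hl2⟩ := core d0 hW (H := H) (q := 2 * p) (by positivity) (by linarith)
      (hp3 (by nlinarith)) hy hyn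
    let F : W → W → Pc × Bool := fun u v =>
      if lam v < lam u then lab u v else if lam u < lam v then lab v u else default
    have hF : ∀ u v, F u v = F v u := by
      intro u v
      simp only [F]
      split_ifs <;> first | rfl | omega
    refine ⟨fun e => eqv (Sym2.lift ⟨F, hF⟩ e.1), fun i => ⟨p, hp.le, hp1, hsm, ?_⟩⟩
    rw [min_eq_right hLp.le]
    unfold gnpProb
    rw [bernoulliProb_eq]
    refine (hl2 (eqv.symm i)).trans ((E_mono_p (p' := (8 * L0 + N ^ 2) * p) (by positivity)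
      (by nlinarith [mul_pos (pow_pos hN0 2) hp, mul_pos (by linarith : 0 < L0) hp]) hLp.le _
      (fun x z h => ind_mono (Contains.mono x z h))).trans
      (E_mono (by positivity) hLp.le fun ω => ind_mono (contained_of_contains ?_)))
    intro u v huv
    unfold pieceGraph at huv
    rw [SimpleGraph.fromEdgeSet_adj] at huv
    obtain ⟨⟨h3, h4⟩, _⟩ := huv
    have h5 : H.Adj u v := h3
    have h6 : F u v = eqv.symm i := by rw [← h4]; simp
    have h7 := hl1 u v h5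
    simp only [F] at h6
    split_ifs at h6 with h8 h9
    · exact Or.inl ⟨h5, h8, h6⟩
    · exact Or.inr ⟨h5.symm, h9, h6⟩
    · omega

end Crest.Agent.Tal
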