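import Crest.Agent.Tal.Piece

/-! The decomposition for large `n`. -/

set_option autoImplicit false
set_option linter.unnecessarySeqFocus false
set_option linter.unusedSectionVars false

namespace Crest.Agent.Tal
open Finset Crest.CombinatoricsR.RandomGraph

variable {n : ℕ} {W : Type} [Fintype W] [DecidableEq W]

/-- piece indices -/
abbrev Pc := Fin 512 × Fin 512 × Fin 80 × Bool

lemma mul_pow_le {y c : ℝ} (hy : 40000 ≤ y) (hc : c ≤ 40000) {a b : ℕ} (h : a < b) :
    c * y ^ a ≤ y ^ b := by
  have h1 : y ^ (a + 1) ≤ y ^ b := pow_le_pow_right₀ (by linarith) h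
  have h2 : 0 ≤ y ^ a := by positivity
  rw [pow_succ] at h1
  nlinarith

lemma eta_bound {y x : ℝ} (hy : 40000 ≤ y) (hx : y ^ 33 ≤ x) {c : ℝ} (hc0 : 0 ≤ c)
    (hc : c ≤ y ^ 80) : c * Real.exp (-(x / 16)) ≤ 1 / y ^ 18 := by
  have hy0 : 0 < y := by linarith
  have h1 : (y ^ 33 / 16) ^ 3 / (3 : ℕ).factorial ≤ Real.exp (y ^ 33 / 16) :=
    Real.pow_div_factorial_le_exp _ (by positivity) 3
  have h2 : Real.exp (y ^ 33 / 16) ≤ Real.exp (x / 16) := Real.exp_le_exp.mpr (by linarith)
  have h3 : (y ^ 33 / 16) ^ 3 / (3 : ℕ).factorial = y ^ 99 / 24576 := by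
    simp [Nat.factorial]; ring
  rw [Real.exp_neg, ← div_eq_mul_inv, div_le_div_iff₀ (Real.exp_pos _) (by positivity), one_mul]
  have h4 := mul_pow_le hy (by norm_num : (24576 : ℝ) ≤ 40000) (by norm_num : 98 < 99)
  have h5 : c * y ^ 18 ≤ y ^ 80 * y ^ 18 := mul_le_mul_of_nonneg_right hc (by positivity)
  have h6 : y ^ 80 * y ^ 18 = y ^ 98 := by ring
  linarith

lemma dense_case (d0 : EdgeSlot n) (hW : Fintype.card W ≤ n) {H : SimpleGraph W}
    [DecidableRel H.Adj] {q : ℝ} (hq0 : 0 < q) (hq : L0 * q ≤ 1 / 4) (hNS : NS H n q)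
    {y : ℝ} (hy : 40000 ≤ y) (hyn : y ^ 40 = 2 * n) (hΛ : Real.log (2 * n) ≤ 40 * y)
    (lam : W → ℕ) (m : ℕ) (hm0 : 0 < m) (hm : ∀ b, lam b < m) (hmy : (m : ℝ) ≤ 9600 * y ^ 2)
    (D : ℕ) (hDy : (D : ℝ) ≤ 40 * y) (h2D : (2 : ℝ) ^ D ≤ y ^ 40) (hqD : 1 ≤ q ^ D * y ^ 4)
    (hub : W → Prop) [DecidablePred hub] (hhub : ((univ.filter hub).card : ℝ) ≤ y ^ 24)
    (hnh : ∀ a, ¬ hub a → ((univ.filter (fun b => H.Adj b a ∧ lam a < lam b)).card : ℝ) ≤ y ^ 24)
    (V : Finset W) (hV : V.card ≤ 2 * (n / 512 + 1)) (T : W → Finset W)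
    (hT : ∀ b, ∀ a ∈ T b, b ∈ V ∧ a ∈ V ∧ H.Adj b a ∧ lam a < lam b) (hD : ∀ b, (T b).card ≤ D)
    (hb : Bool) (hTb : ∀ b, ∀ a ∈ T b, decide (hub a ∧ ¬ hub b) = hb) :
    ∃ β : W → W → Bool, ∀ c, 1 / 2 ≤ E (L0 * q + L0 * q - L0 * q * (L0 * q))
      (fun ω : EdgeSlot n → Bool => ind (Contains (fun b a => a ∈ T b ∧ β b a = c) ω)) := by
  have hL := L0_ge
  have hq1 : q ≤ 1 := by nlinarith
  set P := L0 * q with hP
  have hP0 : 0 < P := by positivity
  have hP1 : P < 1 := by linarith
  have hqP : q ≤ P := by nlinarith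
  have hy0 : 0 < y := by linarith
  have hy1 : 1 ≤ y := by linarith
  have hnR : (2000 : ℝ) ≤ n := by
    have := mul_pow_le hy (by norm_num : (4000 : ℝ) ≤ 40000) (by norm_num : 0 < 40)
    simp only [pow_zero] at this; linarith
  have hn : 2000 ≤ n := by exact_mod_cast hnR
  have hPD : ∀ j ≤ D, ∀ x : ℝ, y ^ 37 ≤ x → y ^ 33 ≤ x * P ^ j := by
    intro j hj x hx
    have h1 : q ^ D ≤ P ^ j := (pow_le_pow_of_le_one hq0.le hq1 hj).trans
      (pow_le_pow_left₀ hq0.le hqP j)
    have h2 : y ^ 33 * 1 ≤ y ^ 33 * (q ^ D * y ^ 4) := mul_le_mul_of_nonneg_left hqD (by positivity)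
    have h3 : y ^ 37 * q ^ D ≤ x * P ^ j := mul_le_mul hx h1 (by positivity)
      (le_trans (by positivity) hx)
    have h4 : y ^ 33 * (q ^ D * y ^ 4) = y ^ 37 * q ^ D := by ring
    linarith
  have hn2D : (n * 2 ^ D : ℝ) ≤ y ^ 80 := by
    have : (n : ℝ) * 2 ^ D ≤ y ^ 40 * y ^ 40 := mul_le_mul (by linarith) h2D (by positivity)
      (by positivity)
    linarith [show y ^ 40 * y ^ 40 = y ^ 80 by ring]
  have hη0 : (0 : ℝ) ≤ 1 / y ^ 18 := by positivity
  have hη1 : 1 / y ^ 18 ≤ 1 / 8 := by
    have := mul_pow_le hy (by norm_num : (8 : ℝ) ≤ 40000) (by norm_num : 0 < 18)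
    simp only [pow_zero, mul_one] at this
    exact one_div_le_one_div_of_le (by norm_num) this
  have hbig : ∀ (s : Finset W) (I : Finset W), D < I.card →
      (s.filter (fun b => I ⊆ T b)).card = 0 := by
    intro s I hI
    rw [Finset.card_eq_zero, Finset.filter_eq_empty_iff]
    intro b _ h
    have := (Finset.card_le_card h).trans (hD b); omega
  have h2433 := mul_pow_le hy (by norm_num : (64 : ℝ) ≤ 40000) (by norm_num : 24 < 33)
  cases hb with
  | false =>
    have hr37 : y ^ 37 ≤ (n / (2 * m) : ℕ) := by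
      have h1 : n < (n / (2 * m) + 1) * (2 * m) := by
        rw [← Nat.div_lt_iff_lt_mul (by omega)]; omega
      have h2 : (n : ℝ) ≤ ((n / (2 * m) : ℕ) + 1) * (2 * m) := by exact_mod_cast h1.le
      have h3 : (0 : ℝ) ≤ (n / (2 * m) : ℕ) := by positivity
      have h4 : (n : ℝ) ≤ ((n / (2 * m) : ℕ) + 1) * (2 * (9600 * y ^ 2)) :=
        h2.trans (mul_le_mul_of_nonneg_left (by linarith) (by positivity))
      by_contra hc
      push Not at hc
      have h5 : (((n / (2 * m) : ℕ) : ℝ) + 1) * (2 * (9600 * y ^ 2)) ≤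
          (y ^ 37 + 1) * (2 * (9600 * y ^ 2)) :=
        mul_le_mul_of_nonneg_right (by linarith) (by positivity)
      have h6 := mul_pow_le hy (by norm_num : (40000 : ℝ) ≤ 40000) (by norm_num : 39 < 40)
      have h7 := mul_pow_le hy (by norm_num : (40000 : ℝ) ≤ 40000) (by norm_num : 2 < 39)
      have h8 : (y ^ 37 + 1) * (2 * (9600 * y ^ 2)) = 19200 * y ^ 39 + 19200 * y ^ 2 := by ring
      have h9 : 0 < y ^ 39 := by positivity
      linarith
    refine piece_dense d0 hW (by omega) V lam T (fun b a h => ⟨(hT b a h).1, (hT b a h).2.1,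
      (hT b a h).2.2.2⟩) m (fun b _ => hm b)
      (fun j => 64 * (V.filter (fun b => lam b = j)).card + n / (2 * m)) ?_ ?_ D hD P (1 / y ^ 18)
      hP0 hP1 ?_ ?_ hη0 hη1 ?_
    · intro j _
      have : (0 : ℝ) < (n / (2 * m) : ℕ) := lt_of_lt_of_le (by positivity) hr37
      have : 0 < n / (2 * m) := by exact_mod_cast this
      omega
    · rw [Finset.sum_add_distrib, ← Finset.mul_sum, ← Finset.card_eq_sum_card_fiberwise
        (fun b _ => Finset.mem_coe.mpr (Finset.mem_range.mpr (hm b))), Finset.sum_const,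
        Finset.card_range, smul_eq_mul]
      have h1 : 2 * m * (n / (2 * m)) ≤ n := Nat.mul_div_le _ _
      have h2 : 2 * (m * (n / (2 * m))) ≤ n := by rw [← mul_assoc]; exact h1
      omega
    · intro j _ I
      rcases I.eq_empty_or_nonempty with rfl | ⟨a, ha⟩
      · simp only [Finset.empty_subset, Finset.filter_true, Finset.card_empty, pow_zero, mul_one]
        push_cast
        have : (0 : ℝ) ≤ (n / (2 * m) : ℕ) := by positivity
        linarith
      by_cases hI : D < I.card
      · rw [hbig _ I hI]; push_cast; simp only [zero_mul]; positivity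
      have h1 : (((V.filter (fun b => lam b = j)).filter (fun b => I ⊆ T b)).card : ℝ) ≤ y ^ 24 := by
        by_cases hh : hub a
        · refine le_trans (Nat.cast_le.mpr (Finset.card_le_card fun b hb => ?_)) hhub
          have := hTb b a ((Finset.mem_filter.mp hb).2 ha)
          simp only [decide_eq_false_iff_not, not_and, not_not] at this
          exact Finset.mem_filter.mpr ⟨Finset.mem_univ _, this hh⟩
        · refine le_trans (Nat.cast_le.mpr (Finset.card_le_card fun b hb => ?_)) (hnh a hh)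
          exact Finset.mem_filter.mpr ⟨Finset.mem_univ _,
            (hT b a ((Finset.mem_filter.mp hb).2 ha)).2.2⟩
      have h2 := hPD I.card (not_lt.mp hI)
        ((64 * (V.filter (fun b => lam b = j)).card + n / (2 * m) : ℕ) : ℝ) (by
          refine hr37.trans (Nat.cast_le.mpr (by omega)))
      linarith
    · intro j _
      exact eta_bound hy (hPD D le_rfl _ (hr37.trans (Nat.cast_le.mpr (by omega))))
        (by positivity) hn2D
    · rw [mul_one_div, div_le_one (by positivity)]
      have := mul_pow_le hy (by norm_num : (38400 : ℝ) ≤ 40000) (by norm_num : 2 < 18)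
      linarith
  | true =>
    have hTb' : ∀ b, ∀ a ∈ T b, hub a ∧ ¬ hub b := fun b a h => by simpa using hTb b a h
    have hn3 : (n : ℝ) / 3 ≤ (n / 2 : ℕ) := by
      have : ((n : ℕ) : ℝ) ≤ ((3 * (n / 2) : ℕ) : ℝ) := Nat.cast_le.mpr (by omega)
      rw [Nat.cast_mul] at this
      push_cast at this ⊢
      linarith
    have hr37 : y ^ 37 ≤ (n / 2 : ℕ) := by
      have := mul_pow_le hy (by norm_num : (6 : ℝ) ≤ 40000) (by norm_num : 37 < 40)
      linarith
    refine piece_dense d0 hW (by omega) V (fun b => if hub b then 0 else 1) T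
      (fun b a h => ⟨(hT b a h).1, (hT b a h).2.1, by simp [(hTb' b a h).1, (hTb' b a h).2]⟩) 2
      (fun b _ => by split_ifs <;> norm_num)
      (fun _ => n / 2) (fun _ _ => by omega) (by simp; omega) D hD P (1 / y ^ 18)
      hP0 hP1 ?_ ?_ hη0 hη1 ?_
    · intro j _ I
      rcases I.eq_empty_or_nonempty with rfl | hne
      · simp only [Finset.empty_subset, Finset.filter_true, Finset.card_empty, pow_zero, mul_one]
        have := Finset.card_filter_le V (fun b => (if hub b then 0 else 1) = j)
        exact_mod_cast (by omega : (V.filter (fun b => (if hub b then 0 else 1) = j)).card * 64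
          ≤ n / 2)
      by_cases hI : D < I.card
      · rw [hbig _ I hI]; push_cast; simp only [zero_mul]; positivity
      rcases ns_biclique d0 (by omega) hq0 hq1 hNS I
        ((V.filter (fun b => (if hub b then 0 else 1) = j)).filter (fun b => I ⊆ T b)) hne
        (fun b hb a ha => (hT b a ((Finset.mem_filter.mp hb).2 ha)).2.2.1) with h1 | h1
      · have h2 : L0 * q ^ I.card ≤ P ^ I.card := by
          rw [hP, mul_pow]
          exact mul_le_mul_of_nonneg_right (le_self_pow₀ (by linarith) hne.card_pos.ne')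
            (by positivity)
        have h3 : (n : ℝ) / 3 * (2304 * q ^ I.card) ≤ (n / 2 : ℕ) * P ^ I.card :=
          mul_le_mul hn3 ((mul_le_mul_of_nonneg_right hL (by positivity)).trans h2)
            (by positivity) (by positivity)
        have h4 : 0 ≤ (n : ℝ) * q ^ I.card := by positivity
        nlinarith
      · have h2 := hPD I.card (not_lt.mp hI) _ hr37
        have h3 : (I.card : ℝ) ≤ 40 * y := le_trans (Nat.cast_le.mpr (not_lt.mp hI)) hDy
        have h4 : (I.card : ℝ) * Real.log (2 * n) ≤ 40 * y * (40 * y) :=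
          mul_le_mul h3 hΛ (Real.log_nonneg (by linarith)) (by positivity)
        have h5 := mul_pow_le hy (by norm_num : (1600 : ℝ) ≤ 40000) (by norm_num : 2 < 24)
        nlinarith
    · intro j _
      exact eta_bound hy (hPD D le_rfl _ hr37) (by positivity) hn2D
    · rw [mul_one_div, div_le_one (by positivity)]
      have := mul_pow_le hy (by norm_num : (8 : ℝ) ≤ 40000) (by norm_num : 0 < 18)
      push_cast; linarith

lemma core (d0 : EdgeSlot n) (hW : Fintype.card W ≤ n) {H : SimpleGraph W}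
    [DecidableRel H.Adj] {q : ℝ} (hq0 : 0 < q) (hq : L0 * q ≤ 1 / 4) (hNS : NS H n q)
    {y : ℝ} (hy : 40000 ≤ y) (hyn : y ^ 40 = 2 * n) :
    ∃ (lam : W → ℕ) (lab : W → W → Pc × Bool), (∀ u v, H.Adj u v → lam u ≠ lam v) ∧
      ∀ i, 1 / 2 ≤ E (2 * (L0 * q)) (fun ω : EdgeSlot n → Bool =>
        ind (Contains (fun b a => H.Adj b a ∧ lam a < lam b ∧ lab b a = i) ω)) := by
  classical
  have hL := L0_ge
  have hq1 : q ≤ 1 := by nlinarith
  have hy0 : 0 < y := by linarith
  have hnR : (2000 : ℝ) ≤ n := by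
    have := mul_pow_le hy (by norm_num : (4000 : ℝ) ≤ 40000) (by norm_num : 0 < 40)
    simp only [pow_zero] at this; linarith
  have hn : 2000 ≤ n := by exact_mod_cast hnR
  set Λ := Real.log (2 * n) with hΛdef
  have hΛy : Λ = 40 * Real.log y := by rw [hΛdef, ← hyn, Real.log_pow]; norm_num
  have hΛ : Λ ≤ 40 * y := by have := Real.log_le_sub_one_of_pos hy0; linarith
  have hΛ1 : 1 ≤ Λ := by
    rw [hΛdef, Real.le_log_iff_exp_le (by linarith)]
    have := Real.exp_one_lt_d9; linarith
  set κ := - Real.log q with hκ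
  have hκ4 : 4 ≤ κ := by
    rw [hκ, le_neg, Real.log_le_iff_le_exp hq0, Real.exp_neg, le_inv_comm₀ hq0 (Real.exp_pos _)]
    have h1 : Real.exp 4 ≤ 3 ^ 4 := by
      calc Real.exp 4 = Real.exp ((4 : ℕ) * 1) := by norm_num
        _ = Real.exp 1 ^ 4 := Real.exp_nat_mul 1 4
        _ ≤ 3 ^ 4 := pow_le_pow_left₀ (Real.exp_pos _).le
          (by have := Real.exp_one_lt_d9; linarith) 4
    refine h1.trans ?_
    rw [inv_eq_one_div, le_div_iff₀ hq0]; nlinarith
  set d := ⌊4 * Λ / κ⌋₊ with hd
  have hd1 : (d : ℝ) * κ ≤ 4 * Λ := by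
    have := Nat.floor_le (by positivity : 0 ≤ 4 * Λ / κ)
    rwa [le_div_iff₀ (by linarith)] at this
  have hd2 : 4 * Λ < (d + 1) * κ := by
    have := Nat.lt_floor_add_one (4 * Λ / κ)
    rwa [div_lt_iff₀ (by linarith)] at this
  have hdΛ : (d : ℝ) ≤ Λ := by
    have : (0 : ℝ) ≤ d := by positivity
    nlinarith
  have hbig : ∀ U : Finset W,
      2 * (U.filter (fun u => d < (U.filter (fun v => H.Adj u v)).card)).card ≤ U.card := by
    intro U
    have h1 := ns_density d0 (by omega) hq0 hq1 hNS U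
    set B := U.filter (fun u => d < (U.filter (fun v => H.Adj u v)).card) with hB
    have h2 : B.card * (d + 1) ≤ ∑ u ∈ U, (U.filter (fun v => H.Adj u v)).card := by
      rw [← smul_eq_mul]
      exact (Finset.card_nsmul_le_sum B _ _ fun u hu => (Finset.mem_filter.mp hu).2).trans
        (Finset.sum_le_sum_of_subset (Finset.filter_subset _ _))
    have h3 : (B.card : ℝ) * (d + 1) ≤ ∑ u ∈ U, ((U.filter (fun v => H.Adj u v)).card : ℝ) := by
      exact_mod_cast h2
    have h4 : (B.card : ℝ) * (d + 1) * κ ≤ 2 * U.card * Λ :=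
      (mul_le_mul_of_nonneg_right h3 (by linarith)).trans h1
    have h5 : (B.card : ℝ) * (4 * Λ) ≤ B.card * ((d + 1) * κ) :=
      mul_le_mul_of_nonneg_left hd2.le (by positivity)
    have h6 : (2 * B.card : ℝ) ≤ U.card := by
      by_contra hc; push Not at hc; nlinarith
    exact_mod_cast h6
  obtain ⟨lam, hl1, hl2, hl3⟩ := peeling H d hbig (Nat.log 2 n + 1) univ
    (lt_of_le_of_lt hW (Nat.lt_pow_succ_log_self (by norm_num) n))
  set m := (Nat.log 2 n + 1) * (d + 1) with hm
  have hmy : (m : ℝ) ≤ 9600 * y ^ 2 := by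
    have h1 : (2 : ℝ) ^ Nat.log 2 n ≤ 2 * n := by
      have : ((2 ^ Nat.log 2 n : ℕ) : ℝ) ≤ n := Nat.cast_le.mpr (Nat.pow_log_le_self 2 (by omega))
      push_cast at this; linarith
    have h2 := Real.log_le_log (by positivity) h1
    rw [Real.log_pow] at h2
    have h3 := Real.log_two_gt_d9
    have h4 : (Nat.log 2 n : ℝ) ≤ 2 * Λ := by
      have : (0 : ℝ) ≤ Nat.log 2 n := by positivity
      nlinarith
    have h5 : (m : ℝ) ≤ (3 * Λ) * (2 * Λ) := by
      rw [hm]; push_cast
      exact mul_le_mul (by linarith) (by linarith) (by positivity) (by positivity)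
    nlinarith
  set D := (d + 79) / 80 with hD
  obtain ⟨cls, hcls⟩ := exists_blocks (univ : Finset W) (n / 512 + 1) 512 (by norm_num)
    (by rw [Finset.card_univ]; omega)
  have hgrp := fun b => exists_blocks (univ.filter (fun a => H.Adj b a ∧ lam a < lam b)) D 80
    (by norm_num) ((hl3 b (Finset.mem_univ _)).trans (by omega))
  choose grp hgrp using hgrp
  let hub : W → Prop := fun a =>
    y ^ 24 < ((univ.filter (fun b => H.Adj b a ∧ lam a < lam b)).card : ℝ)
  let pc : W → W → Pc := fun b a => (cls b, cls a, grp b a, decide (hub a ∧ ¬ hub b))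
  let T : Pc → W → Finset W := fun i b =>
    univ.filter (fun a => (H.Adj b a ∧ lam a < lam b) ∧ pc b a = i)
  have hTD : ∀ i b, (T i b).card ≤ D := by
    intro i b
    refine le_trans (Finset.card_le_card fun a ha => ?_) (hgrp b i.2.2.1)
    have := (Finset.mem_filter.mp ha).2
    exact Finset.mem_filter.mpr ⟨Finset.mem_filter.mpr ⟨Finset.mem_univ _, this.1⟩,
      congrArg (fun z : Pc => z.2.2.1) this.2⟩
  have hP0 : 0 < L0 * q := by positivity
  have hβ : ∀ i, ∃ β : W → W → Bool, ∀ c, 1 / 2 ≤ E (2 * (L0 * q))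
      (fun ω : EdgeSlot n → Bool => ind (Contains (fun b a => a ∈ T i b ∧ β b a = c) ω)) := by
    intro i
    by_cases hd80 : d ≤ 80
    · obtain ⟨col, hcol⟩ := forest_colour (T i) lam (fun b => (hTD i b).trans (by omega))
        (fun b a ha => (Finset.mem_filter.mp ha).2.1.2)
      refine ⟨fun _ a => col a, fun c => le_trans ?_ (E_mono_p (p := L0 * q) hP0.le (by linarith)
        (by linarith) _ (fun x z h => ind_mono (Contains.mono x z h)))⟩
      refine piece_sparse d0 hW hq0 hq hNS hn _ (fun b a h => (Finset.mem_filter.mp h.1).2.1.1)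
        (fun b a a' h h' => Finset.card_le_one.mp ((hTD i b).trans (by omega)) a h.1 a' h'.1) ?_ ?_
      · intro b a a' h h'
        have h1 := hcol a a' h'.1
        have h2 : col a = c := h.2
        have h3 : col a' = c := h'.2
        rw [h2, h3] at h1
        cases c <;> simp at h1
      · refine le_trans (Finset.card_le_card fun b hb => ?_) (hcls i.1)
        have hb' := hb
        simp only [Finset.mem_filter, Finset.mem_univ, true_and] at hb'
        obtain ⟨a, ha, _⟩ := hb'
        exact Finset.mem_filter.mpr ⟨Finset.mem_univ _,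
          congrArg (fun z : Pc => z.1) (Finset.mem_filter.mp ha).2.2⟩
    · have hD40 : (40 * D : ℝ) ≤ d := by exact_mod_cast (by omega : 40 * D ≤ d)
      have hD0 : (0 : ℝ) ≤ D := by positivity
      obtain ⟨β, hβ⟩ := dense_case d0 hW hq0 hq hNS hy hyn hΛ lam m (by positivity)
        (fun b => hl1 b (Finset.mem_univ _)) hmy D (by linarith) (by
          rw [hyn, ← Real.exp_log (by linarith : (0 : ℝ) < 2 * n), ← hΛdef]
          calc (2 : ℝ) ^ D ≤ Real.exp 1 ^ D := pow_le_pow_left₀ (by norm_num)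
                (by linarith [Real.add_one_le_exp 1]) D
            _ = Real.exp (D * 1) := (Real.exp_nat_mul 1 D).symm
            _ ≤ _ := Real.exp_le_exp.mpr (by linarith)) (by
          rw [← Real.exp_log hq0, ← Real.exp_log hy0, ← Real.exp_nat_mul, ← Real.exp_nat_mul,
            ← Real.exp_add]
          refine Real.one_le_exp ?_
          have : Real.log q = - κ := by rw [hκ]; ring
          rw [this]; push_cast; nlinarith)
        hub (by
          have h1 : ∑ a, ((univ.filter (fun b => H.Adj b a ∧ lam a < lam b)).card : ℝ) ≤ n * d := by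
            have h2 : ∑ a, (univ.filter (fun b => H.Adj b a ∧ lam a < lam b)).card =
                ∑ b, (univ.filter (fun a => H.Adj b a ∧ lam a < lam b)).card := by
              simp only [Finset.card_filter]; exact Finset.sum_comm
            have h3 := Finset.sum_le_card_nsmul univ _ d hl3
            rw [← h2, Finset.card_univ, smul_eq_mul] at h3
            exact_mod_cast h3.trans (Nat.mul_le_mul_right _ hW)
          have h4 : ((univ.filter hub).card : ℝ) * y ^ 24 ≤
              ∑ a, ((univ.filter (fun b => H.Adj b a ∧ lam a < lam b)).card : ℝ) := by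
            rw [← nsmul_eq_mul]
            exact (Finset.card_nsmul_le_sum _ _ _ fun a ha => (Finset.mem_filter.mp ha).2.le).trans
              (Finset.sum_le_sum_of_subset_of_nonneg (Finset.subset_univ _)
                fun _ _ _ => by positivity)
          have h5 : (n : ℝ) * d ≤ y ^ 40 * (40 * y) :=
            mul_le_mul (by linarith) (by linarith) (by positivity) (by positivity)
          have h6 := mul_pow_le hy (by norm_num : (40 : ℝ) ≤ 40000) (by norm_num : 41 < 48)
          have h7 : ((univ.filter hub).card : ℝ) * y ^ 24 ≤ y ^ 24 * y ^ 24 := by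
            have : y ^ 40 * (40 * y) = 40 * y ^ 41 := by ring
            have : y ^ 24 * y ^ 24 = y ^ 48 := by ring
            linarith
          exact le_of_mul_le_mul_right h7 (by positivity))
        (fun a ha => not_lt.mp ha)
        (univ.filter (fun w => cls w = i.1) ∪ univ.filter (fun w => cls w = i.2.1))
        ((Finset.card_union_le _ _).trans (by have := hcls i.1; have := hcls i.2.1; omega))
        (T i) (by
          intro b a ha
          have := (Finset.mem_filter.mp ha).2
          exact ⟨Finset.mem_union_left _ (Finset.mem_filter.mpr ⟨Finset.mem_univ _,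
            congrArg (fun z : Pc => z.1) this.2⟩), Finset.mem_union_right _
            (Finset.mem_filter.mpr ⟨Finset.mem_univ _, congrArg (fun z : Pc => z.2.1) this.2⟩),
            this.1⟩) (hTD i) i.2.2.2
        (fun b a ha => congrArg (fun z : Pc => z.2.2.2) (Finset.mem_filter.mp ha).2.2)
      exact ⟨β, fun c => (hβ c).trans (E_mono_p (by nlinarith) (by nlinarith) (by linarith) _
        (fun x z h => ind_mono (Contains.mono x z h)))⟩
  choose β hβ using hβ
  refine ⟨lam, fun b a => (pc b a, β (pc b a) b a),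
    fun u v h => hl2 u (Finset.mem_univ _) v (Finset.mem_univ _) h, fun i => ?_⟩
  refine (hβ i.1 i.2).trans (E_mono (by positivity) (by linarith) fun ω => ind_mono ?_)
  rintro ⟨φ, h1, h2⟩
  refine ⟨φ, h1, fun b a h => h2 b a ?_⟩
  have h3 : pc b a = i.1 := congrArg Prod.fst h.2.2
  have h4 : β (pc b a) b a = i.2 := congrArg Prod.snd h.2.2
  exact ⟨Finset.mem_filter.mpr ⟨Finset.mem_univ _, ⟨h.1, h.2.1⟩, h3⟩, h3 ▸ h4⟩

end Crest.Agent.Tal
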