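import Crest.Agent.Tal.Embed

/-! Consequences of non-smallness, and peeling. -/

set_option autoImplicit false
set_option linter.unnecessarySeqFocus false
set_option linter.unusedSectionVars false

namespace Crest.Agent.Tal
open Finset Crest.CombinatoricsR.RandomGraph

variable {n : ℕ} {W : Type} [Fintype W] [DecidableEq W]

/-- the family of graphs containing `H` is not `q`-small -/
def NS (H : SimpleGraph W) (n : ℕ) (q : ℝ) : Prop :=
  ∀ C : Finset (Finset (EdgeSlot n)),
    (∀ A : Finset (EdgeSlot n), H.IsContained (edgeGraph A) → ∃ S ∈ C, S ⊆ A) →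
      1 / 2 < ∑ S ∈ C, q ^ S.card

lemma ns_pattern (d : EdgeSlot n) {H : SimpleGraph W} {q : ℝ} (hq0 : 0 ≤ q) (hq1 : q ≤ 1)
    (h : NS H n q) (Y : Finset (W × W)) (hY : ∀ y ∈ Y, H.Adj y.1 y.2) (m : ℕ)
    (hm : ∀ ψ : W → Fin n, Function.Injective ψ →
      m ≤ (Y.image (fun y => slot d (ψ y.1) (ψ y.2))).card)
    (Pt : Finset (Finset (Fin n × Fin n)))
    (hPt : ∀ ψ : W → Fin n, Function.Injective ψ → Y.image (Prod.map ψ ψ) ∈ Pt) :
    1 / 2 < Pt.card * q ^ m := by
  have h1 := h ((Pt.image (fun X => X.image (fun z => slot d z.1 z.2))).filter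
    (fun S => m ≤ S.card)) (by
      rintro A ⟨f⟩
      refine ⟨Y.image (fun y => slot d (f.toHom y.1) (f.toHom y.2)), Finset.mem_filter.mpr
        ⟨Finset.mem_image.mpr ⟨_, hPt f.toHom f.injective', ?_⟩, hm _ f.injective'⟩, ?_⟩
      · rw [Finset.image_image]; rfl
      · intro z hz
        obtain ⟨y, hy, rfl⟩ := Finset.mem_image.mp hz
        exact edgeGraph_adj d A (f.toHom.map_adj (hY y hy)))
  refine h1.trans_le ?_
  refine (Finset.sum_le_card_nsmul _ _ (q ^ m) fun S hS =>
    pow_le_pow_of_le_one hq0 hq1 (Finset.mem_filter.mp hS).2).trans ?_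
  rw [nsmul_eq_mul]
  refine mul_le_mul_of_nonneg_right ?_ (by positivity)
  exact_mod_cast (Finset.card_filter_le _ _).trans Finset.card_image_le

lemma card_image_slot (d : EdgeSlot n) {H : SimpleGraph W} (Y : Finset (W × W))
    (hY : ∀ y ∈ Y, H.Adj y.1 y.2) (hanti : ∀ y ∈ Y, ∀ y' ∈ Y, ¬ (y.1 = y'.2 ∧ y.2 = y'.1))
    (ψ : W → Fin n) (hψ : Function.Injective ψ) :
    Y.card ≤ (Y.image (fun y => slot d (ψ y.1) (ψ y.2))).card := by
  rw [Finset.card_image_of_injOn]
  intro y hy y' hy' h
  rcases slot_inj d (fun e => (hY y hy).ne (hψ e)) (fun e => (hY y' hy').ne (hψ e)) h with h1 | h1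
  · exact Prod.ext (hψ h1.1) (hψ h1.2)
  · exact absurd ⟨hψ h1.1, hψ h1.2⟩ (hanti y hy y' hy')

lemma card_piF (U : Finset W) (z0 : Fin n) :
    (Fintype.piFinset (fun w => if w ∈ U then (univ : Finset (Fin n)) else {z0})).card =
      n ^ U.card := by
  rw [Fintype.card_piFinset]
  simp only [apply_ite Finset.card, Finset.card_univ, Fintype.card_fin, Finset.card_singleton]
  rw [Finset.prod_ite_mem, Finset.univ_inter, Finset.prod_const]

lemma mem_piF (U : Finset W) (z0 : Fin n) (ψ : W → Fin n) :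
    (fun w => if w ∈ U then ψ w else z0) ∈
      Fintype.piFinset (fun w => if w ∈ U then (univ : Finset (Fin n)) else {z0}) := by
  rw [Fintype.mem_piFinset]; intro w; split_ifs <;> simp

lemma ns_density (d : EdgeSlot n) (hn : 0 < n) {H : SimpleGraph W} [DecidableRel H.Adj] {q : ℝ}
    (hq0 : 0 < q) (hq1 : q ≤ 1) (h : NS H n q) (U : Finset W) :
    (∑ u ∈ U, ((U.filter (fun v => H.Adj u v)).card : ℝ)) * (- Real.log q) ≤
      2 * U.card * Real.log (2 * n) := by
  rcases U.eq_empty_or_nonempty with rfl | hne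
  · simp
  set Y := (U ×ˢ U).filter (fun y => H.Adj y.1 y.2) with hY
  have hYc : Y.card = ∑ u ∈ U, (U.filter (fun v => H.Adj u v)).card := by
    rw [hY, Finset.card_filter, Finset.sum_product]
    exact Finset.sum_congr rfl fun u _ => (Finset.card_filter _ _).symm
  have hYa : ∀ y ∈ Y, H.Adj y.1 y.2 := fun y hy => (Finset.mem_filter.mp hy).2
  have h1 := ns_pattern d hq0.le hq1 h Y hYa ((Y.card + 1) / 2) (by
    intro ψ hψ
    have := Finset.card_le_mul_card_image (f := fun y : W × W => slot d (ψ y.1) (ψ y.2)) Y 2 (by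
      intro z hz
      obtain ⟨y, hy, rfl⟩ := Finset.mem_image.mp hz
      refine le_trans (Finset.card_le_card (t := {y, y.swap}) fun y' hy' => ?_) Finset.card_le_two
      obtain ⟨hy', e⟩ := Finset.mem_filter.mp hy'
      rcases slot_inj d (fun e => (hYa y' hy').ne (hψ e)) (fun e => (hYa y hy).ne (hψ e)) e
        with h1 | h1
      · exact Finset.mem_insert.mpr (Or.inl (Prod.ext (hψ h1.1) (hψ h1.2)))
      · exact Finset.mem_insert.mpr (Or.inr (Finset.mem_singleton.mpr
          (Prod.ext (hψ h1.1) (hψ h1.2)))))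
    omega)
    ((Fintype.piFinset (fun w => if w ∈ U then (univ : Finset (Fin n)) else {⟨0, hn⟩})).image
      (fun f => Y.image (Prod.map f f))) (by
    intro ψ _
    refine Finset.mem_image.mpr ⟨_, mem_piF U ⟨0, hn⟩ ψ, Finset.image_congr fun y hy => ?_⟩
    have := Finset.mem_product.mp (Finset.mem_filter.mp hy).1
    simp [Prod.map, this.1, this.2])
  have h2 : (1 : ℝ) / 2 < (n : ℝ) ^ U.card * q ^ ((Y.card + 1) / 2) := by
    refine h1.trans_le (mul_le_mul_of_nonneg_right ?_ (by positivity))
    exact_mod_cast Finset.card_image_le.trans (card_piF U _).le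
  have hn' : (0 : ℝ) < n := by exact_mod_cast hn
  have h3 := Real.log_lt_log (by norm_num) h2
  rw [Real.log_mul (by positivity) (by positivity), Real.log_pow, Real.log_pow, one_div,
    Real.log_inv] at h3
  rw [Real.log_mul (by norm_num) hn'.ne', ← Nat.cast_sum, ← hYc]
  have h4 : (Y.card : ℝ) ≤ 2 * (((Y.card + 1) / 2 : ℕ) : ℝ) := by
    exact_mod_cast (by omega : Y.card ≤ 2 * ((Y.card + 1) / 2))
  have h5 : 0 ≤ - Real.log q := by linarith [Real.log_nonpos hq0.le hq1]
  have h6 : (1 : ℝ) ≤ U.card := by exact_mod_cast hne.card_pos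
  have h7 : 0 < Real.log 2 := Real.log_pos (by norm_num)
  nlinarith

lemma choose_le_three (n t : ℕ) (ht : 0 < t) : (n.choose t : ℝ) ≤ (3 * n / t) ^ t := by
  have h1 : (n.choose t : ℝ) ≤ (n ^ t : ℝ) / t.factorial := Nat.choose_le_pow_div t n
  have h2 := Real.pow_div_factorial_le_exp (t : ℝ) (by positivity) t
  have h3 : Real.exp t ≤ 3 ^ t := by
    calc Real.exp t = Real.exp (t * 1) := by rw [mul_one]
      _ = Real.exp 1 ^ t := Real.exp_nat_mul 1 t
      _ ≤ 3 ^ t := pow_le_pow_left₀ (Real.exp_pos _).le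
          (by have := Real.exp_one_lt_d9; linarith) t
  have ht' : (0 : ℝ) < t := by exact_mod_cast ht
  have hf : (0 : ℝ) < t.factorial := by exact_mod_cast t.factorial_pos
  refine h1.trans ?_
  rw [div_pow, mul_pow, div_le_div_iff₀ hf (by positivity)]
  have h4 := h2.trans h3
  rw [div_le_iff₀ hf] at h4
  have : (0 : ℝ) ≤ (n : ℝ) ^ t := by positivity
  nlinarith

lemma ns_biclique (d : EdgeSlot n) (hn : 0 < n) {H : SimpleGraph W} {q : ℝ}
    (hq0 : 0 < q) (hq1 : q ≤ 1) (h : NS H n q) (T Z : Finset W) (hT : T.Nonempty)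
    (hadj : ∀ b ∈ Z, ∀ a ∈ T, H.Adj b a) :
    (Z.card : ℝ) ≤ 9 * n * q ^ T.card ∨ (Z.card : ℝ) ≤ T.card * Real.log (2 * n) := by
  have hn' : (0 : ℝ) < n := by exact_mod_cast hn
  rcases Nat.eq_zero_or_pos Z.card with h0 | h0
  · left; rw [h0]; push_cast; positivity
  by_contra hcon
  push Not at hcon
  have hYa : ∀ y ∈ Z ×ˢ T, H.Adj y.1 y.2 := fun y hy =>
    hadj _ (Finset.mem_product.mp hy).1 _ (Finset.mem_product.mp hy).2
  have h1 := ns_pattern d hq0.le hq1 h (Z ×ˢ T) hYa (Z ×ˢ T).card
    (card_image_slot d _ hYa (by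
      intro y hy y' hy' e
      have h1 := Finset.mem_product.mp hy
      have h2 := Finset.mem_product.mp hy'
      exact (hadj _ h1.1 _ (e.1 ▸ h2.2)).ne rfl))
    ((((univ : Finset (Fin n)).powersetCard Z.card) ×ˢ
      (Fintype.piFinset (fun w => if w ∈ T then (univ : Finset (Fin n)) else {⟨0, hn⟩}))).image
      (fun z => z.1 ×ˢ T.image z.2)) (by
    intro ψ hψ
    refine Finset.mem_image.mpr ⟨(Z.image ψ, _), Finset.mem_product.mpr
      ⟨Finset.mem_powersetCard.mpr ⟨Finset.subset_univ _, Finset.card_image_of_injective _ hψ⟩,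
        mem_piF T ⟨0, hn⟩ ψ⟩, ?_⟩
    rw [Finset.prodMap_image_product]
    congr 1
    exact Finset.image_congr fun a ha => if_pos (Finset.mem_coe.mp ha))
  set t := Z.card with ht
  set j := T.card with hj
  have ht' : (0 : ℝ) < t := by exact_mod_cast h0
  have h2 : (1 : ℝ) / 2 < (3 * n / t) ^ t * (n : ℝ) ^ j * q ^ (t * j) := by
    rw [Finset.card_product] at h1
    refine h1.trans_le (mul_le_mul_of_nonneg_right ?_ (by positivity))
    refine le_trans (Nat.cast_le.mpr Finset.card_image_le) ?_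
    rw [Finset.card_product, card_piF, Finset.card_powersetCard, Finset.card_univ, Fintype.card_fin]
    push_cast
    exact mul_le_mul_of_nonneg_right (choose_le_three n t h0) (by positivity)
  have h3 : (3 * n / t) ^ t * (n : ℝ) ^ j * q ^ (t * j) =
      (n : ℝ) ^ j * (3 * n * q ^ j / t) ^ t := by
    rw [mul_comm t j, pow_mul, mul_div_right_comm _ (q ^ j), mul_pow _ (q ^ j)]; ring
  have h4 : 3 * n * q ^ j / t ≤ Real.exp (-1) := by
    have : (1 : ℝ) / 3 ≤ Real.exp (-1) := by
      rw [Real.exp_neg, one_div]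
      exact inv_anti₀ (Real.exp_pos _) (by have := Real.exp_one_lt_d9; linarith)
    refine le_trans ?_ this
    rw [div_le_iff₀ ht']; linarith [hcon.1]
  have h5 : (1 : ℝ) / 2 < (n : ℝ) ^ j * Real.exp (-1) ^ t := by
    rw [h3] at h2
    exact h2.trans_le (mul_le_mul_of_nonneg_left (pow_le_pow_left₀ (by positivity) h4 _)
      (by positivity))
  have h6 := Real.log_lt_log (by norm_num) h5
  rw [Real.log_mul (by positivity) (by positivity), Real.log_pow, Real.log_pow, one_div,
    Real.log_inv, Real.log_exp] at h6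
  have h7 := hcon.2
  rw [Real.log_mul (by norm_num) hn'.ne'] at h7
  have h8 : (1 : ℝ) ≤ j := by exact_mod_cast hT.card_pos
  have h9 : 0 < Real.log 2 := Real.log_pos (by norm_num)
  nlinarith

lemma ns_stars (d : EdgeSlot n) {H : SimpleGraph W} {q : ℝ}
    (hq0 : 0 < q) (hq1 : q ≤ 1) (h : NS H n q) (Z : Finset W) (Lf : W → Finset W) (k : ℕ)
    (hLf : ∀ a ∈ Z, (Lf a).card = k) (hadj : ∀ a ∈ Z, ∀ b ∈ Lf a, H.Adj a b)
    (hZ : ∀ a ∈ Z, ∀ b ∈ Lf a, b ∉ Z) :
    (Z.card : ℝ) ≤ 6 * n * (n.choose k) * q ^ k := by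
  rcases Nat.eq_zero_or_pos Z.card with h0 | h0
  · rw [h0]; push_cast; positivity
  by_contra hcon
  push Not at hcon
  set Y := (Z ×ˢ (univ : Finset W)).filter (fun y => y.2 ∈ Lf y.1) with hY
  have hYm : ∀ y, y ∈ Y ↔ y.1 ∈ Z ∧ y.2 ∈ Lf y.1 := by
    intro y; simp [hY]
  have hYc : Y.card = Z.card * k := by
    rw [hY, Finset.card_filter, Finset.sum_product, ← smul_eq_mul, ← Finset.sum_const]
    refine Finset.sum_congr rfl fun a ha => ?_
    rw [← Finset.card_filter, ← hLf a ha]; congr 1; ext b; simp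
  have hYa : ∀ y ∈ Y, H.Adj y.1 y.2 := fun y hy => hadj _ ((hYm y).mp hy).1 _ ((hYm y).mp hy).2
  have h1 := ns_pattern d hq0.le hq1 h Y hYa Y.card
    (card_image_slot d _ hYa (by
      intro y hy y' hy' e
      have h1 := (hYm y).mp hy
      have h2 := (hYm y').mp hy'
      exact hZ _ h2.1 _ h2.2 (e.1 ▸ h1.1)))
    ((((univ : Finset (Fin n)).powersetCard Z.card).biUnion (fun Z' =>
      Fintype.piFinset (fun z => if z ∈ Z' then (univ : Finset (Fin n)).powersetCard k
        else {∅}))).image (fun F => univ.filter (fun y : Fin n × Fin n => y.2 ∈ F y.1))) (by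
    intro ψ hψ
    refine Finset.mem_image.mpr ⟨fun z => (Z.filter (fun a => ψ a = z)).biUnion
      (fun a => (Lf a).image ψ), Finset.mem_biUnion.mpr ⟨Z.image ψ,
      Finset.mem_powersetCard.mpr ⟨Finset.subset_univ _, Finset.card_image_of_injective _ hψ⟩,
        Fintype.mem_piFinset.mpr fun z => ?_⟩, ?_⟩
    · split_ifs with hz
      · obtain ⟨a, ha, rfl⟩ := Finset.mem_image.mp hz
        have : Z.filter (fun a' => ψ a' = ψ a) = {a} := by
          ext a'; simp only [Finset.mem_filter, hψ.eq_iff, Finset.mem_singleton]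
          exact ⟨fun h => h.2, fun h => ⟨h ▸ ha, h⟩⟩
        rw [this, Finset.singleton_biUnion]
        exact Finset.mem_powersetCard.mpr ⟨Finset.subset_univ _,
          (Finset.card_image_of_injective _ hψ).trans (hLf a ha)⟩
      · have : Z.filter (fun a' => ψ a' = z) = ∅ :=
          Finset.filter_eq_empty_iff.mpr fun a ha h => hz (h ▸ Finset.mem_image_of_mem _ ha)
        rw [this]; simp
    · ext y
      simp only [Finset.mem_filter, Finset.mem_univ, true_and, Finset.mem_biUnion,
        Finset.mem_image, hYm]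
      constructor
      · rintro ⟨a, ⟨ha, h1⟩, b, hb, h2⟩
        exact ⟨(a, b), ⟨ha, hb⟩, Prod.ext h1 h2⟩
      · rintro ⟨x, ⟨ha, hb⟩, rfl⟩
        exact ⟨x.1, ⟨ha, rfl⟩, x.2, hb, rfl⟩)
  set s := Z.card with hs
  have hs' : (0 : ℝ) < s := by exact_mod_cast h0
  have h2 : (1 : ℝ) / 2 < (3 * n / s) ^ s * (n.choose k : ℝ) ^ s * q ^ (s * k) := by
    rw [hYc] at h1
    refine h1.trans_le (mul_le_mul_of_nonneg_right ?_ (by positivity))
    have h3 : ∀ Z' ∈ (univ : Finset (Fin n)).powersetCard s,
        (Fintype.piFinset (fun z => if z ∈ Z' then (univ : Finset (Fin n)).powersetCard k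
        else {∅})).card ≤ (n.choose k) ^ s := by
      intro Z' hZ'
      rw [Fintype.card_piFinset]
      simp only [apply_ite Finset.card, Finset.card_powersetCard, Finset.card_univ,
        Fintype.card_fin, Finset.card_singleton]
      rw [Finset.prod_ite_mem, Finset.univ_inter, Finset.prod_const,
        (Finset.mem_powersetCard.mp hZ').2]
    refine le_trans (Nat.cast_le.mpr (Finset.card_image_le.trans (Finset.card_biUnion_le.trans
      (Finset.sum_le_card_nsmul _ _ _ h3)))) ?_
    rw [Finset.card_powersetCard, Finset.card_univ, Fintype.card_fin, smul_eq_mul]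
    push_cast
    exact mul_le_mul_of_nonneg_right (choose_le_three n s h0) (by positivity)
  have h3 : (3 * n / s) ^ s * (n.choose k : ℝ) ^ s * q ^ (s * k) =
      (3 * n * (n.choose k) * q ^ k / s) ^ s := by
    rw [mul_comm s k, pow_mul, ← mul_pow, ← mul_pow]; congr 1; ring
  have h4 : 3 * n * (n.choose k : ℝ) * q ^ k / s ≤ 1 / 2 := by
    rw [div_le_iff₀ hs']; linarith
  have h5 : (3 * n * (n.choose k : ℝ) * q ^ k / s) ^ s ≤ 1 / 2 :=
    (pow_le_pow_left₀ (by positivity) h4 _).trans
      (pow_le_of_le_one (by norm_num) (by norm_num) h0.ne')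
  linarith

lemma greedy_colour (H : SimpleGraph W) [DecidableRel H.Adj] (d : ℕ) (S : Finset W) :
    (∀ u ∈ S, (S.filter (fun v => H.Adj u v)).card ≤ d) →
    ∃ col : W → ℕ, (∀ u ∈ S, col u < d + 1) ∧ ∀ u ∈ S, ∀ v ∈ S, H.Adj u v → col u ≠ col v := by
  induction S using Finset.induction_on with
  | empty => intro _; exact ⟨fun _ => 0, by simp, by simp⟩
  | insert a S ha ih =>
    intro h
    have hsub : ∀ u, (S.filter (fun v => H.Adj u v)).card ≤
        ((insert a S).filter (fun v => H.Adj u v)).card :=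
      fun u => Finset.card_le_card (Finset.filter_subset_filter _ (Finset.subset_insert _ _))
    obtain ⟨col, h1, h2⟩ := ih fun u hu => (hsub u).trans (h u (Finset.mem_insert_of_mem hu))
    obtain ⟨c, hc, hc'⟩ : ∃ c ∈ range (d + 1), c ∉ (S.filter (fun v => H.Adj a v)).image col := by
      apply Finset.exists_mem_notMem_of_card_lt_card
      rw [Finset.card_range]
      exact Nat.lt_succ_of_le (Finset.card_image_le.trans
        ((hsub a).trans (h a (Finset.mem_insert_self _ _))))
    refine ⟨fun u => if u = a then c else col u, ?_, ?_⟩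
    · intro u hu
      by_cases hua : u = a
      · simp only [if_pos hua]; exact Finset.mem_range.mp hc
      · simp only [if_neg hua]; exact h1 u ((Finset.mem_insert.mp hu).resolve_left hua)
    · intro u hu v hv huv
      by_cases hua : u = a <;> by_cases hva : v = a
      · exact absurd (hua.trans hva.symm) huv.ne
      · simp only [if_pos hua, if_neg hva]
        intro e
        exact hc' (e ▸ Finset.mem_image_of_mem _ (Finset.mem_filter.mpr
          ⟨(Finset.mem_insert.mp hv).resolve_left hva, hua ▸ huv⟩))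
      · simp only [if_neg hua, if_pos hva]
        intro e
        exact hc' (e ▸ Finset.mem_image_of_mem _ (Finset.mem_filter.mpr
          ⟨(Finset.mem_insert.mp hu).resolve_left hua, hva ▸ huv.symm⟩))
      · simp only [if_neg hua, if_neg hva]
        exact h2 u ((Finset.mem_insert.mp hu).resolve_left hua) v
          ((Finset.mem_insert.mp hv).resolve_left hva) huv

lemma peeling (H : SimpleGraph W) [DecidableRel H.Adj] (d : ℕ)
    (hbig : ∀ U : Finset W,
      2 * (U.filter (fun u => d < (U.filter (fun v => H.Adj u v)).card)).card ≤ U.card) (k : ℕ) :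
    ∀ U : Finset W, U.card < 2 ^ k → ∃ lam : W → ℕ, (∀ u ∈ U, lam u < k * (d + 1)) ∧
      (∀ u ∈ U, ∀ v ∈ U, H.Adj u v → lam u ≠ lam v) ∧
      ∀ b ∈ U, (U.filter (fun a => H.Adj b a ∧ lam a < lam b)).card ≤ d := by
  induction k with
  | zero =>
    intro U hU
    have : U = ∅ := Finset.card_eq_zero.mp (by omega)
    subst this
    exact ⟨fun _ => 0, by simp, by simp, by simp⟩
  | succ k ih =>
    intro U hU
    set U' := U.filter (fun u => d < (U.filter (fun v => H.Adj u v)).card) with hU'
    obtain ⟨lam, h1, h2, h3⟩ := ih U' (by have := hbig U; rw [← hU'] at this; omega)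
    have hsm : ∀ u ∈ U, u ∉ U' → (U.filter (fun v => H.Adj u v)).card ≤ d := by
      intro u hu hu'
      by_contra hc
      exact hu' (Finset.mem_filter.mpr ⟨hu, not_le.mp hc⟩)
    obtain ⟨col, h4, h5⟩ := greedy_colour H d (U \ U') (by
      intro u hu
      rw [Finset.mem_sdiff] at hu
      exact (Finset.card_le_card (Finset.filter_subset_filter _ Finset.sdiff_subset)).trans
        (hsm u hu.1 hu.2))
    refine ⟨fun u => if u ∈ U' then lam u else k * (d + 1) + col u, ?_, ?_, ?_⟩
    · intro u hu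
      by_cases h : u ∈ U'
      · simp only [if_pos h]; have := h1 u h; nlinarith
      · simp only [if_neg h]; have := h4 u (Finset.mem_sdiff.mpr ⟨hu, h⟩); nlinarith
    · intro u hu v hv huv
      by_cases h : u ∈ U' <;> by_cases h' : v ∈ U'
      · simp only [if_pos h, if_pos h']; exact h2 u h v h' huv
      · simp only [if_pos h, if_neg h']; have := h1 u h; omega
      · simp only [if_neg h, if_pos h']; have := h1 v h'; omega
      · simp only [if_neg h, if_neg h']
        have := h5 u (Finset.mem_sdiff.mpr ⟨hu, h⟩) v (Finset.mem_sdiff.mpr ⟨hv, h'⟩) huv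
        omega
    · intro b hb
      by_cases h : b ∈ U'
      · refine le_trans (Finset.card_le_card fun a ha => ?_) (h3 b h)
        rw [Finset.mem_filter] at ha
        by_cases h' : a ∈ U'
        · simp only [if_pos h, if_pos h'] at ha
          exact Finset.mem_filter.mpr ⟨h', ha.2⟩
        · simp only [if_pos h, if_neg h'] at ha
          have := h1 b h; omega
      · refine le_trans (Finset.card_le_card fun a ha => ?_) (hsm b hb h)
        rw [Finset.mem_filter] at ha ⊢
        exact ⟨ha.1, ha.2.1⟩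

lemma exists_blocks (S : Finset W) (D K : ℕ) (hK : 0 < K) (h : S.card ≤ K * D) :
    ∃ g : W → Fin K, ∀ i, (S.filter (fun a => g a = i)).card ≤ D := by
  rcases Nat.eq_zero_or_pos D with rfl | hD
  · exact ⟨fun _ => ⟨0, hK⟩, fun i => (Finset.card_filter_le _ _).trans (by omega)⟩
  let idx : W → ℕ := fun a => if h : a ∈ S then (S.equivFin ⟨a, h⟩).val else 0
  have hidx : ∀ a, idx a < K * D := by
    intro a; simp only [idx]; split_ifs with h'
    · exact (S.equivFin ⟨a, h'⟩).2.trans_le h
    · exact Nat.mul_pos hK hD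
  refine ⟨fun a => ⟨idx a / D, (Nat.div_lt_iff_lt_mul hD).mpr (hidx a)⟩, fun i => ?_⟩
  refine le_trans ?_ (Finset.card_range D).le
  refine Finset.card_le_card_of_injOn (fun a => idx a % D) (fun a _ => by
    simpa using Nat.mod_lt _ hD) ?_
  intro a ha b hb hab
  have ha' := Finset.mem_filter.mp ha
  have hb' := Finset.mem_filter.mp hb
  have h1 : idx a / D = idx b / D := by
    have := congrArg Fin.val (ha'.2.trans hb'.2.symm); exact this
  have h2 : idx a = idx b := by
    rw [← Nat.div_add_mod (idx a) D, ← Nat.div_add_mod (idx b) D, h1]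
    exact congrArg _ hab
  simp only [idx, dif_pos ha'.1, dif_pos hb'.1] at h2
  exact congrArg Subtype.val (S.equivFin.injective (Fin.ext h2))

lemma forest_colour (T : W → Finset W) (lam : W → ℕ) (hT : ∀ b, (T b).card ≤ 1)
    (hlam : ∀ b, ∀ a ∈ T b, lam a < lam b) :
    ∃ col : W → Bool, ∀ b, ∀ a ∈ T b, col b = !col a := by
  have key : ∀ j, ∃ col : W → Bool, ∀ b, lam b < j → ∀ a ∈ T b, col b = !col a := by
    intro j
    induction j with
    | zero => exact ⟨fun _ => true, fun b h => absurd h (Nat.not_lt_zero _)⟩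
    | succ j ih =>
      obtain ⟨col, h⟩ := ih
      refine ⟨fun b => if lam b = j then decide (∃ a ∈ T b, col a = false) else col b, ?_⟩
      intro b hb a ha
      have h1 := hlam b a ha
      have h2 : lam a ≠ j := by omega
      simp only [if_neg h2]
      by_cases h3 : lam b = j
      · simp only [if_pos h3]
        have h4 : (∃ a' ∈ T b, col a' = false) ↔ col a = false :=
          ⟨fun ⟨a', h5, h6⟩ => Finset.card_le_one.mp (hT b) a' h5 a ha ▸ h6, fun h => ⟨a, ha, h⟩⟩
        simp only [h4]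
        cases col a <;> simp
      · simp only [if_neg h3]; exact h b (by omega) a ha
  obtain ⟨col, h⟩ := key (univ.sup lam + 1)
  exact ⟨col, fun b => h b (Nat.lt_succ_of_le (Finset.le_sup (Finset.mem_univ b)))⟩

end Crest.Agent.Tal
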