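import Crest.Agent.Tal.Layer
import Crest.Agent.Tal.Convex
import Crest.Prelude.Def_CopyThreshold

/-! Embedding layered graphs in the random graph. -/

set_option autoImplicit false
set_option linter.unnecessarySeqFocus false
set_option linter.unusedSectionVars false

namespace Crest.Agent.Tal
open Finset Crest.CombinatoricsR.RandomGraph

variable {n : ℕ}

/-- the coin position of a pair -/
def slot (d : EdgeSlot n) (u v : Fin n) : EdgeSlot n :=
  if h : u ≠ v then ⟨s(u, v), by simpa using h⟩ else d

lemma slot_val (d : EdgeSlot n) {u v : Fin n} (h : u ≠ v) : (slot d u v).1 = s(u, v) := by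
  unfold slot; rw [dif_pos h]

lemma slot_comm (d : EdgeSlot n) {u v : Fin n} (h : u ≠ v) : slot d u v = slot d v u := by
  apply Subtype.ext; rw [slot_val d h, slot_val d h.symm, Sym2.eq_swap]

lemma slot_inj (d : EdgeSlot n) {u v u' v' : Fin n} (h : u ≠ v) (h' : u' ≠ v')
    (e : slot d u v = slot d u' v') : (u = u' ∧ v = v') ∨ (u = v' ∧ v = u') := by
  have := congrArg Subtype.val e
  rw [slot_val d h, slot_val d h'] at this
  exact Sym2.eq_iff.mp this

lemma graphOf_adj (d : EdgeSlot n) (ω : EdgeSlot n → Bool) {u v : Fin n} (h : u ≠ v)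
    (hω : ω (slot d u v) = true) : (graphOf ω).Adj u v := by
  unfold graphOf
  rw [SimpleGraph.fromEdgeSet_adj]
  refine ⟨⟨by simpa using h, ?_⟩, h⟩
  unfold slot at hω; rwa [dif_pos h] at hω

lemma edgeGraph_adj (d : EdgeSlot n) (A : Finset (EdgeSlot n)) {u v : Fin n}
    (h : (edgeGraph A).Adj u v) : slot d u v ∈ A := by
  unfold edgeGraph at h
  rw [SimpleGraph.fromEdgeSet_adj] at h
  obtain ⟨⟨h1, h2⟩, h3⟩ := h
  unfold slot; rw [dif_pos h3]; exact h2

variable {W : Type} [Fintype W] [DecidableEq W]

/-- the random graph contains the oriented graph `R` -/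
def Contains (R : W → W → Prop) (ω : EdgeSlot n → Bool) : Prop :=
  ∃ φ : W → Fin n, Function.Injective φ ∧ ∀ b a, R b a → b ≠ a → (graphOf ω).Adj (φ b) (φ a)

lemma contains_of (d : EdgeSlot n) (hW : Fintype.card W ≤ n) {R : W → W → Prop}
    {ω : EdgeSlot n → Bool} (φ : W → Fin n) (V : Finset W) (hφ : Set.InjOn φ V)
    (h : ∀ b a, R b a → b ≠ a → b ∈ V ∧ a ∈ V ∧ ω (slot d (φ b) (φ a)) = true) :
    Contains R ω := by
  have hne : Nonempty (W ↪ Fin n) :=
    Function.Embedding.nonempty_of_card_le (by rw [Fintype.card_fin]; exact hW)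
  obtain ⟨e⟩ := hne
  obtain ⟨g, hg⟩ := Equiv.Perm.exists_extending_pair (α := {x // x ∈ V})
    (f := fun x => e x.1) (g := fun x => φ x.1) (fun x y hxy => Subtype.ext (e.injective hxy))
    (fun x y hxy => Subtype.ext (hφ x.2 y.2 hxy))
  refine ⟨fun x => g (e x), g.injective.comp e.injective, fun b a hR hba => ?_⟩
  obtain ⟨hb, ha, hω⟩ := h b a hR hba
  have h1 : g (e b) = φ b := hg ⟨b, hb⟩
  have h2 : g (e a) = φ a := hg ⟨a, ha⟩
  simp only [h1, h2]
  exact graphOf_adj d ω (fun h => hba (hφ hb ha h)) hω

lemma Contains.mono {R : W → W → Prop} (x y : EdgeSlot n → Bool)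
    (h : ∀ i, x i = true → y i = true) (hx : Contains R x) : Contains R y := by
  obtain ⟨φ, h1, h2⟩ := hx
  refine ⟨φ, h1, fun b a hR hba => ?_⟩
  have := h2 b a hR hba
  unfold graphOf at this ⊢
  rw [SimpleGraph.fromEdgeSet_adj] at this ⊢
  obtain ⟨⟨h3, h4⟩, h5⟩ := this
  exact ⟨⟨h3, h _ h4⟩, h5⟩

/-- partial embedding below a bound -/
def Emb (d : EdgeSlot n) (V : Finset W) (S : W → Finset W) (bd : ℕ) (ω : EdgeSlot n → Bool) : Prop :=
  ∃ φ : W → Fin n, Set.InjOn φ V ∧ (∀ a ∈ V, (φ a).val < bd) ∧
    ∀ b ∈ V, ∀ a ∈ S b, ω (slot d (φ b) (φ a)) = true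

lemma layered (d : EdgeSlot n) (hn : 0 < n) (V : Finset W) (lam : W → ℕ) (S : W → Finset W)
    (hS : ∀ b ∈ V, ∀ a ∈ S b, a ∈ V ∧ lam a < lam b) (r : ℕ → ℕ) (m : ℕ)
    (hr : ∑ j ∈ range m, r j ≤ n) {p ε : ℝ} (hp0 : 0 ≤ p) (hp1 : p ≤ 1) (hε : 0 ≤ ε)
    (hM : ∀ j < m, 1 - ε ≤ PE (fun _ : Fin (r j) => rw' p)
      (fun N : Fin (r j) → W → Bool => ind (∃ φ : W → Fin (r j),
        Set.InjOn φ (V.filter (fun b => lam b = j)) ∧
        ∀ b ∈ V.filter (fun b => lam b = j), ∀ a ∈ S b, N (φ b) a = true))) :
    ∀ j ≤ m, 1 - j * ε ≤ E p (fun ω => ind (Emb d (V.filter (fun b => lam b < j)) S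
      (∑ i ∈ range j, r i) ω)) := by
  classical
  intro j
  induction j with
  | zero =>
    intro _
    rw [show (1 : ℝ) - (0 : ℕ) * ε = 1 by simp, ← E_const (ι := EdgeSlot n) p 1]
    exact E_mono hp0 hp1 fun ω => (ind_pos ⟨fun _ => ⟨0, hn⟩, by simp, by simp, by simp⟩).ge
  | succ j ih =>
    intro hj
    have ih' := ih (by omega)
    set σ := ∑ i ∈ range j, r i with hσ
    have hσr : σ + r j ≤ n := by
      rw [hσ, ← Finset.sum_range_succ]
      exact le_trans (Finset.sum_le_sum_of_subset (Finset.range_subset_range.mpr hj)) hr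
    let Sset : EdgeSlot n → Prop := fun z => ∃ x ∈ z.1, σ ≤ x.val
    let pos : Fin (r j) → Fin n := fun u => ⟨σ + u.val, by have := u.2; omega⟩
    unfold E
    rw [← PE_merge (fun _ => bw_sum p) Sset]
    have hstep : ∀ ω : EdgeSlot n → Bool,
        ind (Emb d (V.filter (fun b => lam b < j)) S σ ω) * (1 - ε) ≤
        PE (fun _ => bw p) (fun η : EdgeSlot n → Bool => ind (Emb d (V.filter (fun b => lam b < j + 1)) S
          (∑ i ∈ range (j + 1), r i) (fun i => if Sset i then η i else ω i))) := by
      intro ω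
      by_cases hω : Emb d (V.filter (fun b => lam b < j)) S σ ω
      swap
      · rw [ind_neg hω, zero_mul]; exact E_nonneg hp0 hp1 fun _ => ind_nonneg _
      rw [ind_pos hω, one_mul]
      obtain ⟨φ, hφ1, hφ2, hφ3⟩ := hω
      refine (hM j (by omega)).trans ?_
      have hcur := PE_curry (κ := Fin (r j)) (ι := W) (bw p)
        (fun N : Fin (r j) → W → Bool => ind (∃ φ : W → Fin (r j),
        Set.InjOn φ (V.filter (fun b => lam b = j)) ∧
        ∀ b ∈ V.filter (fun b => lam b = j), ∀ a ∈ S b, N (φ b) a = true))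
      have hne : ∀ (u : Fin (r j)) (a : W), a ∈ V.filter (fun b => lam b < j) → pos u ≠ φ a := by
        intro u a ha h
        have h1 := hφ2 a ha
        have h2 : (pos u).val = (φ a).val := congrArg Fin.val h
        simp only [pos] at h2; omega
      have hres := PE_restrict_on (ι := EdgeSlot n) (bw_sum p)
        (fun k : Fin (r j) × W => slot d (pos k.1) (φ k.2))
        (fun k => k.2 ∈ V.filter (fun b => lam b < j)) (by
          intro k k' hk hk' h
          rcases slot_inj d (hne _ _ hk) (hne _ _ hk') h with h1 | h1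
          · refine Prod.ext (Fin.ext ?_) (hφ1 hk hk' h1.2)
            have := congrArg Fin.val h1.1
            simp only [pos] at this; omega
          · exact absurd h1.1 (hne _ _ hk'))
        (fun x => ind (∃ φ : W → Fin (r j), Set.InjOn φ (V.filter (fun b => lam b = j)) ∧
          ∀ b ∈ V.filter (fun b => lam b = j), ∀ a ∈ S b, x (φ b, a) = true)) (by
          intro x y hxy
          refine ind_congr (exists_congr fun ψ => and_congr_right fun _ => ?_)
          refine forall₂_congr fun b hb => forall₂_congr fun a ha => ?_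
          have h1 := Finset.mem_filter.mp hb
          have h2 := hS b h1.1 a ha
          rw [hxy (ψ b, a) (Finset.mem_filter.mpr ⟨h2.1, h1.2 ▸ h2.2⟩)])
      refine le_trans (le_of_eq (hcur.symm.trans hres.symm)) ?_
      refine E_mono hp0 hp1 fun η => ind_mono ?_
      rintro ⟨ψ, hψ1, hψ2⟩
      have hlt : ∀ a ∈ V.filter (fun b => lam b < j + 1), lam a ≠ j →
          a ∈ V.filter (fun b => lam b < j) := by
        intro a ha h
        have := Finset.mem_filter.mp ha
        exact Finset.mem_filter.mpr ⟨this.1, by omega⟩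
      have heq : ∀ a ∈ V.filter (fun b => lam b < j + 1), lam a = j →
          a ∈ V.filter (fun b => lam b = j) := fun a ha h =>
        Finset.mem_filter.mpr ⟨(Finset.mem_filter.mp ha).1, h⟩
      refine ⟨fun a => if lam a = j then pos (ψ a) else φ a, ?_, ?_, ?_⟩
      · intro a ha b hb h
        by_cases h1 : lam a = j <;> by_cases h2 : lam b = j
        · simp only [if_pos h1, if_pos h2] at h
          refine hψ1 (heq a ha h1) (heq b hb h2) (Fin.ext ?_)
          have := congrArg Fin.val h
          simp only [pos] at this; omega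
        · simp only [if_pos h1, if_neg h2] at h
          exact absurd h (hne _ _ (hlt b hb h2))
        · simp only [if_neg h1, if_pos h2] at h
          exact absurd h.symm (hne _ _ (hlt a ha h1))
        · simp only [if_neg h1, if_neg h2] at h
          exact hφ1 (hlt a ha h1) (hlt b hb h2) h
      · intro a ha
        rw [Finset.sum_range_succ, ← hσ]
        by_cases h1 : lam a = j
        · simp only [if_pos h1, pos]; have := (ψ a).2; omega
        · simp only [if_neg h1]; have := hφ2 a (hlt a ha h1); omega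
      · intro b hb a ha
        have hb' := Finset.mem_filter.mp hb
        have h2 := hS b hb'.1 a ha
        have h3 : lam a ≠ j := by omega
        have h4 : a ∈ V.filter (fun b => lam b < j) := Finset.mem_filter.mpr ⟨h2.1, by omega⟩
        simp only [if_neg h3]
        by_cases h1 : lam b = j
        · simp only [if_pos h1]
          rw [if_pos]
          · exact hψ2 b (heq b hb h1) a ha
          · refine ⟨pos (ψ b), ?_, by simp [pos]⟩
            rw [slot_val d (hne _ _ h4)]; simp
        · simp only [if_neg h1]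
          rw [if_neg]
          · exact hφ3 b (hlt b hb h1) a ha
          · rintro ⟨x, hx, hx'⟩
            have h5 : φ b ≠ φ a := fun h => by
              have := hφ1 (hlt b hb h1) h4 h
              rw [this] at h2; omega
            rw [slot_val d h5, Sym2.mem_iff] at hx
            have h6 := hφ2 b (hlt b hb h1)
            have h7 := hφ2 a h4
            rcases hx with rfl | rfl <;> omega
    refine le_trans ?_ (E_mono hp0 hp1 hstep)
    unfold E at ih' ⊢
    rw [PE_mul_right]
    have h1 := PE_ind_le_one (w := fun _ : EdgeSlot n => bw p) (fun _ => bw_nonneg hp0 hp1)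
      (fun _ => bw_sum p) (fun ω => Emb d (V.filter (fun b => lam b < j)) S σ ω)
    push_cast; nlinarith

end Crest.Agent.Tal
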