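import Crest.Agent.Tal.Fourier

/-! One layer of the embedding: random labels, greedy closure, Hall's theorem. -/

set_option autoImplicit false
set_option linter.unnecessarySeqFocus false
set_option linter.unusedSectionVars false

namespace Crest.Agent.Tal
open Finset

variable {ι : Type*} [Fintype ι] [DecidableEq ι]

/-- up-set generated by a family -/
def genU (𝒮 : Finset (Finset ι)) (N : ι → Bool) : Prop := ∃ I ∈ 𝒮, ∀ i ∈ I, N i = true

lemma genU_mono (𝒮 : Finset (Finset ι)) (x y : ι → Bool) (h : ∀ i, x i = true → y i = true) :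
    genU 𝒮 x → genU 𝒮 y := fun ⟨I, hI, h'⟩ => ⟨I, hI, fun i hi => h i (h' i hi)⟩

/-- conditional probability of entering the up-set -/
noncomputable def kap (P : ℝ) (𝒮 : Finset (Finset ι)) (X : ι → Bool) : ℝ :=
  E P (fun N => ind (genU 𝒮 (fun i => X i || N i)))

lemma kap_mono {P : ℝ} (h0 : 0 ≤ P) (h1 : P ≤ 1) (𝒮 : Finset (Finset ι)) (x y : ι → Bool)
    (h : ∀ i, x i = true → y i = true) : kap P 𝒮 x ≤ kap P 𝒮 y :=
  E_mono h0 h1 fun N => ind_mono (genU_mono _ _ _ fun i hi => by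
    simp only [Bool.or_eq_true] at hi ⊢
    exact hi.imp_left (h i))

lemma kap_markov {P : ℝ} (h0 : 0 ≤ P) (h1 : P ≤ 1) (𝒮 : Finset (Finset ι)) :
    E P (fun X => ind (1 / 2 < kap P 𝒮 X)) ≤ 2 * E (P + P - P * P) (fun N => ind (genU 𝒮 N)) := by
  rw [← E_union]
  unfold E
  rw [← PE_mul_left]
  refine E_mono h0 h1 fun X => ?_
  show _ ≤ 2 * kap P 𝒮 X
  by_cases h : 1 / 2 < kap P 𝒮 X
  · rw [ind_pos h]; linarith
  · rw [ind_neg h]
    have : 0 ≤ kap P 𝒮 X := E_nonneg h0 h1 fun _ => ind_nonneg _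
    linarith

lemma greedy {P ρ : ℝ} (h0 : 0 ≤ P) (h1 : P ≤ 1) (𝒯 : Finset (Finset ι))
    (hρ : ∀ I ∈ 𝒯, ρ ≤ P ^ I.card) :
    ∃ 𝒮 ⊆ 𝒯, 𝒮.card * ρ / 2 ≤ E P (fun N => ind (genU 𝒮 N)) ∧
      ∀ I ∈ 𝒯, 1 / 2 < kap P 𝒮 (fun i => decide (i ∈ I)) := by
  classical
  obtain ⟨𝒮, h2, h3⟩ := Finset.exists_max_image
    (𝒯.powerset.filter (fun 𝒮 => 𝒮.card * ρ / 2 ≤ E P (fun N => ind (genU 𝒮 N)))) Finset.card
    ⟨∅, Finset.mem_filter.mpr ⟨Finset.empty_mem_powerset _, by
      simpa using E_nonneg h0 h1 fun _ => ind_nonneg _⟩⟩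
  rw [Finset.mem_filter, Finset.mem_powerset] at h2
  refine ⟨𝒮, h2.1, h2.2, fun I hI => ?_⟩
  by_contra hc
  push Not at hc
  have hI' : I ∉ 𝒮 := by
    intro h
    have : kap P 𝒮 (fun i => decide (i ∈ I)) = 1 := by
      unfold kap
      rw [← E_const (ι := ι) P 1]
      exact PE_congr _ fun N => ind_pos ⟨I, h, fun i hi => by simp [hi]⟩
    linarith
  have h4 : E P (fun N => ind (genU (insert I 𝒮) N)) = E P (fun N => ind (genU 𝒮 N)) +
      P ^ I.card * (1 - kap P 𝒮 (fun i => decide (i ∈ I))) := by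
    have h5 := E_cond P I (fun N => ind (¬ genU 𝒮 N))
    have h6 : E P (fun ω : ι → Bool => ind (¬ genU 𝒮 (fun i => decide (i ∈ I) || ω i))) =
        1 - kap P 𝒮 (fun i => decide (i ∈ I)) := PE_ind_not (fun _ => bw_sum P) _
    rw [h6] at h5
    rw [← h5]
    unfold E
    rw [← PE_add]
    refine PE_congr _ fun N => ?_
    by_cases h7 : genU 𝒮 N
    · rw [ind_pos h7, ind_neg (not_not.mpr h7), ind_pos]
      · ring
      · obtain ⟨J, hJ, h8⟩ := h7; exact ⟨J, Finset.mem_insert_of_mem hJ, h8⟩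
    · rw [ind_neg h7, ind_pos h7, zero_add, mul_one]
      refine ind_congr ⟨?_, fun h => ⟨I, Finset.mem_insert_self _ _, h⟩⟩
      rintro ⟨J, hJ, h8⟩
      rcases Finset.mem_insert.mp hJ with rfl | hJ
      · exact h8
      · exact absurd ⟨J, hJ, h8⟩ h7
  have h5 := h3 (insert I 𝒮) (Finset.mem_filter.mpr ⟨Finset.mem_powerset.mpr
    (Finset.insert_subset hI h2.1), by
      rw [h4, Finset.card_insert_of_notMem hI']
      push_cast
      have h6 := hρ I hI
      have h7 : 0 ≤ P ^ I.card := pow_nonneg h0 _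
      have h8 := h2.2
      nlinarith⟩)
  rw [Finset.card_insert_of_notMem hI'] at h5
  omega

lemma sum_pow_card_le {β : Type*} [DecidableEq β] (Pl : Finset β) {x η : ℝ} (hx : 0 ≤ x)
    (h : Pl.card * x ≤ η) (hη : η ≤ 1 / 8) : ∑ 𝒮 ∈ Pl.powerset.erase ∅, x ^ 𝒮.card ≤ 2 * η := by
  have h1 : ∏ _i ∈ Pl, (1 + x) = ∑ 𝒮 ∈ Pl.powerset, x ^ 𝒮.card := by
    rw [Finset.prod_one_add]; simp
  rw [← Finset.add_sum_erase _ _ (Finset.empty_mem_powerset Pl), Finset.prod_const] at h1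
  have h2 : (1 + x) ^ Pl.card ≤ Real.exp η := by
    calc (1 + x) ^ Pl.card ≤ (Real.exp x) ^ Pl.card :=
          pow_le_pow_left₀ (by linarith) (by linarith [Real.add_one_le_exp x]) _
      _ = Real.exp (Pl.card * x) := (Real.exp_nat_mul _ _).symm
      _ ≤ _ := Real.exp_le_exp.mpr h
  have hη0 : 0 ≤ η := le_trans (by positivity) h
  have h3 : Real.exp η ≤ 1 / (1 - η) := Real.exp_bound_div_one_sub_of_interval hη0 (by linarith)
  have h4 : 1 / (1 - η) ≤ 1 + 2 * η := by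
    rw [div_le_iff₀ (by linarith)]; nlinarith
  simp only [Finset.card_empty, pow_zero] at h1
  linarith

/-- weight of a row -/
noncomputable def rw' (p : ℝ) (x : ι → Bool) : ℝ := ∏ i, bw p (x i)

lemma rw'_nonneg {p : ℝ} (h0 : 0 ≤ p) (h1 : p ≤ 1) (x : ι → Bool) : 0 ≤ rw' p x :=
  Finset.prod_nonneg fun _ _ => bw_nonneg h0 h1 _

lemma sum_rw' (p : ℝ) (f : (ι → Bool) → ℝ) : ∑ x, rw' p x * f x = E p f := rfl

lemma rw'_sum (p : ℝ) : ∑ x : ι → Bool, rw' p x = 1 := by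
  have := sum_rw' (ι := ι) p (fun _ => 1)
  simp only [mul_one] at this
  rw [this, E_const]

lemma layer_lemma {B : Type*} [Fintype B] [DecidableEq B] (s : Finset B) (T : B → Finset ι)
    (D r : ℕ) (hr : 0 < r) (P η : ℝ) (hP0 : 0 < P) (hP1 : P < 1)
    (hD : ∀ b ∈ s, (T b).card ≤ D)
    (hcount : ∀ I : Finset ι, ((s.filter (fun b => I ⊆ T b)).card : ℝ) * 64 ≤ r * P ^ I.card)
    (hη : (s.card * 2 ^ D : ℝ) * Real.exp (-(r * P ^ D / 16)) ≤ η) (hη1 : η ≤ 1 / 8) :
    ∃ β : B → ι → Bool, ∀ c, 1 - 2 * η ≤ PE (fun _ : Fin r => rw' (P + P - P * P))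
      (fun N : Fin r → ι → Bool => ind (∃ φ : B → Fin r, Set.InjOn φ s ∧
        ∀ b ∈ s, ∀ a ∈ T b, β b a = c → N (φ b) a = true)) := by
  classical
  set P2 := P + P - P * P with hP2
  have hP20 : 0 ≤ P2 := by nlinarith
  have hP21 : P2 ≤ 1 := by nlinarith
  have hPP2 : P ≤ P2 := by nlinarith
  set ρ := P ^ D with hρ
  set Pl : Finset (Finset ι) := s.biUnion (fun b => (T b).powerset) with hPl
  have hPlc : (Pl.card : ℝ) ≤ s.card * 2 ^ D := by
    have : Pl.card ≤ s.card * 2 ^ D := by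
      refine Finset.card_biUnion_le.trans ?_
      refine (Finset.sum_le_card_nsmul _ _ (2 ^ D) fun b hb => ?_).trans (by simp)
      rw [Finset.card_powerset]; exact Nat.pow_le_pow_right (by norm_num) (hD b hb)
    exact_mod_cast this
  set Eff := (Pl.powerset.erase ∅).filter
    (fun 𝒮 => 𝒮.card * ρ / 2 ≤ E P (fun N => ind (genU 𝒮 N))) with hEff
  set a : Finset (Finset ι) → ℝ := fun 𝒮 => r * E P2 (fun N => ind (genU 𝒮 N)) with ha
  have ha0 : ∀ 𝒮, 0 ≤ a 𝒮 := fun 𝒮 =>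
    mul_nonneg (by positivity) (E_nonneg hP20 hP21 fun _ => ind_nonneg _)
  have hsum : ∑ 𝒮 ∈ Eff, Real.exp (-(a 𝒮 / 8)) ≤ 2 * η := by
    refine le_trans ?_ (sum_pow_card_le Pl (x := Real.exp (-(r * ρ / 16))) (Real.exp_pos _).le
      ((mul_le_mul_of_nonneg_right hPlc (Real.exp_pos _).le).trans hη) hη1)
    refine le_trans (Finset.sum_le_sum fun 𝒮 h𝒮 => ?_)
      (Finset.sum_le_sum_of_subset_of_nonneg (Finset.filter_subset _ _)
        fun _ _ _ => pow_nonneg (Real.exp_pos _).le _)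
    rw [← Real.exp_nat_mul]
    refine Real.exp_le_exp.mpr ?_
    have h1 := (Finset.mem_filter.mp h𝒮).2
    have h2 := E_mono_p hP0.le hPP2 hP21 (fun N => ind (genU 𝒮 N))
      (fun x y h => ind_mono (genU_mono _ _ _ h))
    have h3 : (r : ℝ) * (𝒮.card * ρ / 2) ≤ a 𝒮 :=
      mul_le_mul_of_nonneg_left (h1.trans h2) (by positivity)
    linarith
  have hlab : ∃ β : B → ι → Bool, ¬ ∃ z ∈ Eff ×ˢ (univ : Finset Bool), a z.1 / 4 ≤
      ∑ b, ind (b ∈ s ∧ 1 / 2 < kap P z.1 (thin (T b) (β b) z.2)) := by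
    refine exists_of_PE_lt (w := fun _ : B => rw' (1 / 2)) (fun _ => rw'_sum _) ?_
    have hw0 : ∀ (_ : B) (x : ι → Bool), 0 ≤ rw' (1 / 2) x :=
      fun _ => rw'_nonneg (by norm_num) (by norm_num)
    refine lt_of_le_of_lt (PE_mono hw0 fun β => ind_exists_le _ _) ?_
    rw [PE_sum]
    have h1 : ∀ z ∈ Eff ×ˢ (univ : Finset Bool), PE (fun _ : B => rw' (1 / 2))
        (fun β : B → ι → Bool => ind (a z.1 / 4 ≤
          ∑ b, ind (b ∈ s ∧ 1 / 2 < kap P z.1 (thin (T b) (β b) z.2)))) ≤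
        Real.exp (-(a z.1 / 8)) := by
      intro z _
      refine (PE_upper hw0 (fun _ => rw'_sum _)
        (fun b x => b ∈ s ∧ 1 / 2 < kap P z.1 (thin (T b) x z.2)) _).trans ?_
      refine Real.exp_le_exp.mpr ?_
      have h2 : ∑ b, ∑ x, rw' (1 / 2) x * ind (b ∈ s ∧ 1 / 2 < kap P z.1 (thin (T b) x z.2)) =
          ∑ b ∈ s, E (1 / 2) (fun x => ind (1 / 2 < kap P z.1 (thin (T b) x z.2))) := by
        rw [← Finset.sum_subset (Finset.subset_univ s)]
        · refine Finset.sum_congr rfl fun b hb => ?_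
          rw [sum_rw']; exact PE_congr _ fun x => ind_congr (by simp [hb])
        · intro b _ hb
          exact Finset.sum_eq_zero fun x _ => by rw [ind_neg (fun h => hb h.1), mul_zero]
      have h3 := thinning s T (n' := r / 64) hP0 hP1 (by
        intro I
        have h4 := hcount I
        have h5 : ((1 - P) / P) ^ I.card * P ^ I.card ≤ 1 := by
          rw [← mul_pow, div_mul_cancel₀ _ hP0.ne']
          exact pow_le_one₀ (by linarith) (by linarith)
        have h6 : 0 ≤ ((1 - P) / P) ^ I.card := pow_nonneg (div_nonneg (by linarith) hP0.le) _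
        have h7 := mul_le_mul_of_nonneg_right h4 h6
        have h8 : (0 : ℝ) ≤ r := by positivity
        nlinarith) (fun X => 1 / 2 < kap P z.1 X)
        (fun x y h h' => h'.trans_le (kap_mono hP0.le hP1.le _ _ _ h)) z.2
      have h4 := kap_markov hP0.le hP1.le z.1
      have h5 : (r : ℝ) / 64 * E P (fun X => ind (1 / 2 < kap P z.1 X)) ≤ a z.1 / 32 := by
        have := mul_le_mul_of_nonneg_left h4 (by positivity : (0 : ℝ) ≤ r / 64)
        simp only [ha]; linarith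
      have := ha0 z.1
      rw [h2]; linarith
    refine lt_of_le_of_lt (Finset.sum_le_sum h1) ?_
    rw [Finset.sum_product]
    simp only [Finset.sum_const, Finset.card_univ, Fintype.card_bool, nsmul_eq_mul]
    rw [← Finset.mul_sum]
    push_cast; linarith
  obtain ⟨β, hβ⟩ := hlab
  refine ⟨β, fun c => ?_⟩
  have hw0 : ∀ (_ : Fin r) (x : ι → Bool), 0 ≤ rw' P2 x := fun _ => rw'_nonneg hP20 hP21
  have hbad : PE (fun _ : Fin r => rw' P2) (fun N : Fin r → ι → Bool =>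
      ind (∃ 𝒮 ∈ Eff, ∑ u, ind (genU 𝒮 (N u)) < a 𝒮 / 4)) ≤ 2 * η := by
    refine (PE_mono hw0 fun N => ind_exists_le _ _).trans ?_
    rw [PE_sum]
    refine le_trans (Finset.sum_le_sum fun 𝒮 _ => ?_) hsum
    refine (PE_lower hw0 (fun _ => rw'_sum _) (fun _ x => genU 𝒮 x) _).trans ?_
    refine Real.exp_le_exp.mpr ?_
    simp only [sum_rw', Finset.sum_const, Finset.card_univ, Fintype.card_fin, nsmul_eq_mul]
    have := ha0 𝒮
    simp only [ha] at this ⊢
    linarith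
  have hgood := PE_ind_not (w := fun _ : Fin r => rw' P2) (fun _ => rw'_sum _)
    (fun N : Fin r → ι → Bool => ∃ 𝒮 ∈ Eff, ∑ u, ind (genU 𝒮 (N u)) < a 𝒮 / 4)
  refine le_trans (le_trans (by linarith) hgood.ge) (PE_mono hw0 fun N => ind_mono fun hN => ?_)
  push Not at hN hβ
  let t : {b // b ∈ s} → Finset (Fin r) := fun b =>
    univ.filter (fun u => ∀ a ∈ T b.1, β b.1 a = c → N u a = true)
  have hall : ∀ B' : Finset {b // b ∈ s}, B'.card ≤ (B'.biUnion t).card := by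
    intro B'
    rcases B'.eq_empty_or_nonempty with rfl | hne
    · simp
    let 𝒯 : Finset (Finset ι) := B'.image (fun b => (T b.1).filter (fun a => β b.1 a = c))
    obtain ⟨𝒮, h1, h2, h3⟩ := greedy (ρ := ρ) hP0.le hP1.le 𝒯 (by
      intro I hI
      obtain ⟨b, _, rfl⟩ := Finset.mem_image.mp hI
      exact pow_le_pow_of_le_one hP0.le hP1.le ((Finset.card_filter_le _ _).trans (hD _ b.2)))
    have h4 : ∀ b ∈ B', 1 / 2 < kap P 𝒮 (thin (T b.1) (β b.1) c) := by
      intro b hb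
      have := h3 _ (Finset.mem_image_of_mem _ hb)
      convert this using 2
      funext i; simp [thin]
    have h𝒮 : 𝒮 ∈ Eff := by
      refine Finset.mem_filter.mpr ⟨Finset.mem_erase.mpr ⟨?_, Finset.mem_powerset.mpr ?_⟩, h2⟩
      · rintro rfl
        obtain ⟨b, hb⟩ := hne
        have h5 := h4 b hb
        have : kap P ∅ (thin (T b.1) (β b.1) c) = 0 := by
          unfold kap
          rw [← E_const (ι := ι) P 0]
          exact PE_congr _ fun N => ind_neg (by rintro ⟨I, hI, _⟩; simp at hI)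
        linarith
      · intro I hI
        obtain ⟨b, _, rfl⟩ := Finset.mem_image.mp (h1 hI)
        exact Finset.mem_biUnion.mpr ⟨b.1, b.2, Finset.mem_powerset.mpr (Finset.filter_subset _ _)⟩
    have h5 := hβ (𝒮, c) (Finset.mem_product.mpr ⟨h𝒮, Finset.mem_univ _⟩)
    have h6 := hN 𝒮 h𝒮
    rw [sum_ind_eq_card] at h5 h6
    have h7 : B'.card ≤ (univ.filter
        (fun b => b ∈ s ∧ 1 / 2 < kap P 𝒮 (thin (T b) (β b) c))).card := by
      refine Finset.card_le_card_of_injOn Subtype.val (fun b hb => ?_) Subtype.val_injective.injOn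
      exact Finset.mem_coe.mpr (Finset.mem_filter.mpr ⟨Finset.mem_univ _, b.2, h4 b hb⟩)
    have h8 : (univ.filter (fun u => genU 𝒮 (N u))).card ≤ (B'.biUnion t).card := by
      refine Finset.card_le_card fun u hu => ?_
      obtain ⟨I, hI, h9⟩ := (Finset.mem_filter.mp hu).2
      obtain ⟨b, hb, rfl⟩ := Finset.mem_image.mp (h1 hI)
      exact Finset.mem_biUnion.mpr ⟨b, hb, Finset.mem_filter.mpr ⟨Finset.mem_univ _,
        fun a ha hc => h9 a (Finset.mem_filter.mpr ⟨ha, hc⟩)⟩⟩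
    have h9 : (B'.card : ℝ) ≤ (B'.biUnion t).card := by
      have h7' : (B'.card : ℝ) ≤ _ := Nat.cast_le.mpr h7
      have h8' : (_ : ℝ) ≤ (B'.biUnion t).card := Nat.cast_le.mpr h8
      linarith
    exact_mod_cast h9
  obtain ⟨f, hf1, hf2⟩ := (Finset.all_card_le_biUnion_card_iff_exists_injective t).mp hall
  refine ⟨fun b => if h : b ∈ s then f ⟨b, h⟩ else ⟨0, hr⟩, ?_, ?_⟩
  · intro b hb b' hb' h
    have hb1 : b ∈ s := hb
    have hb2 : b' ∈ s := hb'
    simp only [dif_pos hb1, dif_pos hb2] at h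
    exact congrArg Subtype.val (hf1 h)
  · intro b hb a ha hc
    simp only [dif_pos hb]
    exact (Finset.mem_filter.mp (hf2 ⟨b, hb⟩)).2 a ha hc

end Crest.Agent.Tal
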