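import Crest.Agent.Tal.Star
import Crest.Agent.Tal.Cover

/-! Embedding single pieces. -/

set_option autoImplicit false
set_option linter.unnecessarySeqFocus false
set_option linter.unusedSectionVars false

namespace Crest.Agent.Tal
open Finset Crest.CombinatoricsR.RandomGraph

variable {n : ℕ} {W : Type} [Fintype W] [DecidableEq W]

lemma piece_dense (d0 : EdgeSlot n) (hW : Fintype.card W ≤ n) (hn : 0 < n) (V : Finset W)
    (lam : W → ℕ) (T : W → Finset W) (hT : ∀ b, ∀ a ∈ T b, b ∈ V ∧ a ∈ V ∧ lam a < lam b)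
    (m : ℕ) (hm : ∀ b ∈ V, lam b < m) (r : ℕ → ℕ) (hr0 : ∀ j < m, 0 < r j)
    (hr : ∑ j ∈ range m, r j ≤ n) (D : ℕ) (hD : ∀ b, (T b).card ≤ D) (P η : ℝ) (hP0 : 0 < P)
    (hP1 : P < 1)
    (hcount : ∀ j < m, ∀ I : Finset W,
      (((V.filter (fun b => lam b = j)).filter (fun b => I ⊆ T b)).card : ℝ) * 64 ≤ r j * P ^ I.card)
    (hη : ∀ j < m, (n * 2 ^ D : ℝ) * Real.exp (-(r j * P ^ D / 16)) ≤ η) (hη0 : 0 ≤ η)
    (hη1 : η ≤ 1 / 8) (hmη : 4 * m * η ≤ 1) :
    ∃ β : W → W → Bool, ∀ c, 1 / 2 ≤ E (P + P - P * P)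
      (fun ω : EdgeSlot n → Bool => ind (Contains (fun b a => a ∈ T b ∧ β b a = c) ω)) := by
  have h1 : ∀ j, ∃ β : W → W → Bool, j < m → ∀ c, 1 - 2 * η ≤
      PE (fun _ : Fin (r j) => rw' (P + P - P * P))
      (fun N : Fin (r j) → W → Bool => ind (∃ φ : W → Fin (r j),
        Set.InjOn φ (V.filter (fun b => lam b = j)) ∧
        ∀ b ∈ V.filter (fun b => lam b = j), ∀ a ∈ T b, β b a = c → N (φ b) a = true)) := by
    intro j
    by_cases hj : j < m
    · obtain ⟨β, hβ⟩ := layer_lemma (V.filter (fun b => lam b = j)) T D (r j) (hr0 j hj) P η hP0 hP1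
        (fun b _ => hD b) (hcount j hj) (le_trans (mul_le_mul_of_nonneg_right
          (mul_le_mul_of_nonneg_right (by
            exact_mod_cast (Finset.card_le_univ _).trans hW) (by positivity))
          (Real.exp_pos _).le) (hη j hj)) hη1
      exact ⟨β, fun _ => hβ⟩
    · exact ⟨fun _ _ => true, fun h => absurd h hj⟩
  choose β hβ using h1
  refine ⟨fun b => β (lam b) b, fun c => ?_⟩
  have hP20 : 0 ≤ P + P - P * P := by nlinarith
  have hP21 : P + P - P * P ≤ 1 := by nlinarith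
  have h2 := layered d0 hn V lam (fun b => (T b).filter (fun a => β (lam b) b a = c))
    (fun b _ a ha => (hT b a (Finset.mem_filter.mp ha).1).2) r m hr hP20 hP21
    (ε := 2 * η) (by linarith) (by
      intro j hj
      refine (hβ j hj c).trans (PE_mono (fun _ => rw'_nonneg hP20 hP21) fun N => ind_mono ?_)
      rintro ⟨φ, h3, h4⟩
      refine ⟨φ, h3, fun b hb a ha => h4 b hb a (Finset.mem_filter.mp ha).1 ?_⟩
      rw [← (Finset.mem_filter.mp hb).2]; exact (Finset.mem_filter.mp ha).2) m le_rfl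
  refine le_trans (by linarith) (h2.trans (E_mono hP20 hP21 fun ω => ind_mono ?_))
  rintro ⟨φ, h3, _, h5⟩
  rw [Finset.filter_true_of_mem hm] at h3 h5
  refine contains_of d0 hW φ V h3 fun b a hR _ => ?_
  have := hT b a hR.1
  exact ⟨this.1, this.2.1, h5 b this.1 a (Finset.mem_filter.mpr hR)⟩

/-- the constant -/
noncomputable def L0 : ℝ := 2304 * Real.exp 32

lemma L0_ge : 2304 ≤ L0 := by
  unfold L0; have := Real.one_le_exp (by norm_num : (0 : ℝ) ≤ 32); linarith

lemma piece_sparse (d0 : EdgeSlot n) (hW : Fintype.card W ≤ n) {H : SimpleGraph W} {q : ℝ}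
    (hq0 : 0 < q) (hq : L0 * q ≤ 1 / 4) (hNS : NS H n q) (hn : 2000 ≤ n)
    (R : W → W → Prop) [DecidableRel R] (hadj : ∀ b a, R b a → H.Adj b a)
    (huniq : ∀ b a a', R b a → R b a' → a = a') (hbip : ∀ b a a', R b a → ¬ R a a')
    (hleaf : (univ.filter (fun b => ∃ a, R b a)).card ≤ n / 512 + 1) :
    1 / 2 ≤ E (L0 * q) (fun ω : EdgeSlot n → Bool => ind (Contains R ω)) := by
  have hL := L0_ge
  have hq1 : q ≤ 1 := by nlinarith
  set P := L0 * q with hP
  have hP0 : 0 ≤ P := by positivity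
  refine star_embed d0 hW hP0 (by linarith) R huniq hbip (n / 2) (n / 4) (by omega) (by omega) ?_
  intro d hd
  set Z := univ.filter (fun a => d ≤ (univ.filter (fun b => R b a)).card) with hZ
  have hE : 0 ≤ E P (fun x : Fin (n / 4) → Bool => ind (d ≤ (toSet x).card)) :=
    E_nonneg hP0 (by linarith) fun _ => ind_nonneg _
  rcases Nat.eq_zero_or_pos Z.card with h0 | h0
  · rw [h0]; push_cast; simp only [mul_zero, zero_mul]; positivity
  have hsd : Z.card * d ≤ n / 512 + 1 := by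
    refine le_trans ?_ hleaf
    rw [← smul_eq_mul]
    refine (Finset.card_nsmul_le_sum Z (fun a => (univ.filter (fun b => R b a)).card) d
      (fun a ha => (Finset.mem_filter.mp ha).2)).trans ?_
    rw [← Finset.card_biUnion]
    · refine Finset.card_le_card fun b hb => ?_
      obtain ⟨a, _, ha⟩ := Finset.mem_biUnion.mp hb
      exact Finset.mem_filter.mpr ⟨Finset.mem_univ _, a, (Finset.mem_filter.mp ha).2⟩
    · intro a _ a' _ haa
      refine Finset.disjoint_left.mpr fun b hb hb' => haa ?_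
      exact huniq b a a' (Finset.mem_filter.mp hb).2 (Finset.mem_filter.mp hb').2
  by_cases hc : 16 * (d : ℝ) ≤ (n / 4 : ℕ) * P
  · have h1 := pi_lower2 hP0 (by linarith) (n / 4) d hd hc
    have h2 : ((16 * (Z.card * d) : ℕ) : ℝ) ≤ (n / 2 : ℕ) := Nat.cast_le.mpr (by omega)
    push_cast at h2
    have h3 : (0 : ℝ) ≤ (n / 2 : ℕ) := by positivity
    nlinarith
  push Not at hc
  have hdn : d ≤ n / 512 + 1 := le_trans (Nat.le_mul_of_pos_left d h0) hsd
  have hLf : ∀ a, ∃ L : Finset W, a ∈ Z → L ⊆ univ.filter (fun b => R b a) ∧ L.card = d := by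
    intro a
    by_cases ha : a ∈ Z
    · obtain ⟨L, h1⟩ := Finset.exists_subset_card_eq (Finset.mem_filter.mp ha).2
      exact ⟨L, fun _ => h1⟩
    · exact ⟨∅, fun h => absurd h ha⟩
  choose Lf hLf using hLf
  have h1 := ns_stars d0 hq0 hq1 hNS Z Lf d (fun a ha => (hLf a ha).2)
    (fun a ha b hb => (hadj b a (Finset.mem_filter.mp ((hLf a ha).1 hb)).2).symm) (by
      intro a ha b hb hbZ
      obtain ⟨b', hb'⟩ := Finset.card_pos.mp (lt_of_lt_of_le hd (Finset.mem_filter.mp hbZ).2)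
      exact hbip b' b a (Finset.mem_filter.mp hb').2 (Finset.mem_filter.mp ((hLf a ha).1 hb)).2)
  have h2 := pi_lower1 hP0 (by linarith) (n / 4) d
  have hn' : (0 : ℝ) < n := by exact_mod_cast (by omega : 0 < n)
  have hf : (0 : ℝ) < d.factorial := by exact_mod_cast d.factorial_pos
  have h3 : (n.choose d : ℝ) ≤ (n ^ d : ℝ) / d.factorial := Nat.choose_le_pow_div d n
  have h4 : ((n : ℝ) / 8) ^ d / d.factorial ≤ ((n / 4).choose d : ℝ) := by
    refine le_trans ?_ (Nat.pow_le_choose d (n / 4))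
    refine div_le_div_of_nonneg_right (pow_le_pow_left₀ (by positivity) ?_ _) hf.le
    have : ((n : ℕ) : ℝ) ≤ ((8 * (n / 4 + 1 - d) : ℕ) : ℝ) := Nat.cast_le.mpr (by omega)
    rw [Nat.cast_mul] at this
    push_cast at this ⊢
    linarith
  have h5 : Real.exp (-32) ^ d ≤ (1 - P) ^ (n / 4) := by
    have h6 : Real.exp (-(2 * P)) ≤ 1 - P := by
      rw [Real.exp_neg, inv_le_comm₀ (Real.exp_pos _) (by linarith)]
      refine le_trans ?_ (Real.add_one_le_exp _)
      rw [inv_eq_one_div, div_le_iff₀ (by linarith)]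
      nlinarith
    refine le_trans ?_ (pow_le_pow_left₀ (Real.exp_pos _).le h6 _)
    rw [← Real.exp_nat_mul, ← Real.exp_nat_mul]
    exact Real.exp_le_exp.mpr (by nlinarith)
  have h7 : (n : ℝ) / 3 ≤ (n / 2 : ℕ) := by
    have : ((n : ℕ) : ℝ) ≤ ((3 * (n / 2) : ℕ) : ℝ) := Nat.cast_le.mpr (by omega)
    rw [Nat.cast_mul] at this
    push_cast at this ⊢
    linarith
  have h8 : (144 : ℝ) * d ≤ 288 ^ d := by
    have : 144 * d ≤ 288 ^ d := by
      obtain ⟨e, rfl⟩ : ∃ e, d = e + 1 := ⟨d - 1, by omega⟩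
      have h9 : e < 288 ^ e := Nat.lt_pow_self (by norm_num)
      rw [pow_succ]; omega
    exact_mod_cast this
  set X := (n : ℝ) ^ d / d.factorial * q ^ d with hX
  have hX0 : 0 ≤ X := by positivity
  have h9 : ((n : ℝ) / 8) ^ d / d.factorial * P ^ d * Real.exp (-32) ^ d = X * 288 ^ d := by
    have : (n : ℝ) / 8 * P * Real.exp (-32) = n * q * 288 := by
      rw [hP, L0, Real.exp_neg]; field_simp; norm_num
    rw [hX, div_mul_eq_mul_div, div_mul_eq_mul_div, ← mul_pow, ← mul_pow, this, mul_pow, mul_pow]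
    ring
  have h10 : X * 288 ^ d ≤ E P (fun x : Fin (n / 4) → Bool => ind (d ≤ (toSet x).card)) := by
    rw [← h9]
    refine le_trans ?_ h2
    exact mul_le_mul (mul_le_mul_of_nonneg_right h4 (by positivity)) h5 (by positivity)
      (by positivity)
  have h11 : (Z.card : ℝ) ≤ 6 * n * X := by
    refine h1.trans ?_
    rw [hX, mul_assoc (6 * (n : ℝ))]
    exact mul_le_mul_of_nonneg_left (mul_le_mul_of_nonneg_right h3 (by positivity))
      (by positivity)
  calc 8 * (Z.card : ℝ) * d ≤ 8 * (6 * n * X) * d := by gcongr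
    _ = n / 3 * (X * (144 * d)) := by ring
    _ ≤ n / 3 * (X * 288 ^ d) := by gcongr
    _ ≤ _ := mul_le_mul h7 h10 (by positivity) (by positivity)

end Crest.Agent.Tal
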