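import Mathlib
import Crest.Prelude.Def_FinProb

/-! Finite product expectations: basic toolkit. -/

set_option autoImplicit false
set_option linter.unnecessarySeqFocus false

namespace Crest.Agent.Tal
open Finset

/-- indicator of a proposition -/
noncomputable def ind (P : Prop) : ℝ := @ite _ P (Classical.propDecidable P) 1 0

lemma ind_pos {P : Prop} (h : P) : ind P = 1 := by unfold ind; exact if_pos h
lemma ind_neg {P : Prop} (h : ¬ P) : ind P = 0 := by unfold ind; exact if_neg h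
lemma ind_nonneg (P : Prop) : 0 ≤ ind P := by
  by_cases h : P
  · rw [ind_pos h]; norm_num
  · rw [ind_neg h]
lemma ind_le_one (P : Prop) : ind P ≤ 1 := by
  by_cases h : P
  · rw [ind_pos h]
  · rw [ind_neg h]; norm_num
lemma ind_mono {P Q : Prop} (h : P → Q) : ind P ≤ ind Q := by
  by_cases hP : P
  · rw [ind_pos hP, ind_pos (h hP)]
  · rw [ind_neg hP]; exact ind_nonneg Q
lemma ind_congr {P Q : Prop} (h : P ↔ Q) : ind P = ind Q := by rw [propext h]
lemma ind_not (P : Prop) : ind (¬ P) = 1 - ind P := by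
  by_cases h : P
  · rw [ind_pos h, ind_neg (not_not.mpr h)]; norm_num
  · rw [ind_neg h, ind_pos h]; norm_num
lemma ind_and (P Q : Prop) : ind (P ∧ Q) = ind P * ind Q := by
  by_cases hP : P
  · by_cases hQ : Q
    · rw [ind_pos hP, ind_pos hQ, ind_pos ⟨hP, hQ⟩]; norm_num
    · rw [ind_neg hQ, ind_neg (fun h => hQ h.2)]; norm_num
  · rw [ind_neg hP, ind_neg (fun h => hP h.1)]; norm_num
lemma ind_eq_ite (P : Prop) [Decidable P] : ind P = if P then 1 else 0 := by
  by_cases h : P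
  · rw [ind_pos h, if_pos h]
  · rw [ind_neg h, if_neg h]
lemma ind_mul_self (P : Prop) : ind P * ind P = ind P := by
  rw [← ind_and]; exact ind_congr (by tauto)
lemma ind_exists_le {α : Type*} (s : Finset α) (P : α → Prop) :
    ind (∃ a ∈ s, P a) ≤ ∑ a ∈ s, ind (P a) := by
  by_cases h : ∃ a ∈ s, P a
  · rw [ind_pos h]
    obtain ⟨a, ha, hP⟩ := h
    rw [← ind_pos hP]
    exact Finset.single_le_sum (f := fun a => ind (P a)) (fun a _ => ind_nonneg _) ha
  · rw [ind_neg h]; exact Finset.sum_nonneg fun a _ => ind_nonneg _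
lemma sum_ind_eq_card {α : Type*} (s : Finset α) (P : α → Prop) [DecidablePred P] :
    ∑ a ∈ s, ind (P a) = ((s.filter P).card : ℝ) := by
  rw [Finset.card_filter]; push_cast
  exact Finset.sum_congr rfl fun a _ => ind_eq_ite _
lemma prod_ind {α : Type*} (s : Finset α) (P : α → Prop) :
    ∏ a ∈ s, ind (P a) = ind (∀ a ∈ s, P a) := by
  by_cases h : ∀ a ∈ s, P a
  · rw [ind_pos h]; exact Finset.prod_eq_one fun a ha => ind_pos (h a ha)
  · rw [ind_neg h]; push Not at h
    obtain ⟨a, ha, hP⟩ := h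
    exact Finset.prod_eq_zero ha (ind_neg hP)

section PE
variable {ι κ Ω Ω' : Type*} [Fintype ι] [DecidableEq ι] [Fintype Ω] [Fintype Ω']

/-- expectation for product weights -/
noncomputable def PE (w : ι → Ω → ℝ) (f : (ι → Ω) → ℝ) : ℝ :=
  ∑ ω : ι → Ω, (∏ i, w i (ω i)) * f ω

lemma PE_prod (w : ι → Ω → ℝ) (f : ι → Ω → ℝ) :
    PE w (fun ω => ∏ i, f i (ω i)) = ∏ i, ∑ a, w i a * f i a := by
  unfold PE
  rw [Finset.prod_univ_sum, Fintype.piFinset_univ]
  exact Finset.sum_congr rfl fun ω _ => by rw [Finset.prod_mul_distrib]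

lemma PE_const {w : ι → Ω → ℝ} (hw : ∀ i, ∑ a, w i a = 1) (c : ℝ) :
    PE w (fun _ => c) = c := by
  have h := PE_prod w (fun _ _ => 1)
  simp only [Finset.prod_const_one, mul_one, hw] at h
  unfold PE at h ⊢
  rw [← Finset.sum_mul]; simp only [mul_one] at h; rw [h, one_mul]

lemma PE_add (w : ι → Ω → ℝ) (f g : (ι → Ω) → ℝ) :
    PE w (fun ω => f ω + g ω) = PE w f + PE w g := by
  unfold PE; rw [← Finset.sum_add_distrib]; exact Finset.sum_congr rfl fun ω _ => by ring

lemma PE_sub (w : ι → Ω → ℝ) (f g : (ι → Ω) → ℝ) :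
    PE w (fun ω => f ω - g ω) = PE w f - PE w g := by
  unfold PE; rw [← Finset.sum_sub_distrib]; exact Finset.sum_congr rfl fun ω _ => by ring

lemma PE_mul_left (w : ι → Ω → ℝ) (c : ℝ) (f : (ι → Ω) → ℝ) :
    PE w (fun ω => c * f ω) = c * PE w f := by
  unfold PE; rw [Finset.mul_sum]; exact Finset.sum_congr rfl fun ω _ => by ring

lemma PE_mul_right (w : ι → Ω → ℝ) (c : ℝ) (f : (ι → Ω) → ℝ) :
    PE w (fun ω => f ω * c) = PE w f * c := by
  unfold PE; rw [Finset.sum_mul]; exact Finset.sum_congr rfl fun ω _ => by ring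

lemma PE_sum {α : Type*} (w : ι → Ω → ℝ) (s : Finset α) (f : α → (ι → Ω) → ℝ) :
    PE w (fun ω => ∑ a ∈ s, f a ω) = ∑ a ∈ s, PE w (f a) := by
  unfold PE; simp only [Finset.mul_sum]; exact Finset.sum_comm

lemma PE_mono {w : ι → Ω → ℝ} (hw : ∀ i a, 0 ≤ w i a) {f g : (ι → Ω) → ℝ}
    (h : ∀ ω, f ω ≤ g ω) : PE w f ≤ PE w g :=
  Finset.sum_le_sum fun ω _ =>
    mul_le_mul_of_nonneg_left (h ω) (Finset.prod_nonneg fun i _ => hw i _)

lemma PE_nonneg {w : ι → Ω → ℝ} (hw : ∀ i a, 0 ≤ w i a) {f : (ι → Ω) → ℝ}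
    (h : ∀ ω, 0 ≤ f ω) : 0 ≤ PE w f :=
  Finset.sum_nonneg fun ω _ => mul_nonneg (Finset.prod_nonneg fun i _ => hw i _) (h ω)

lemma PE_congr (w : ι → Ω → ℝ) {f g : (ι → Ω) → ℝ} (h : ∀ ω, f ω = g ω) : PE w f = PE w g := by
  rw [funext h]

lemma PE_ind_not {w : ι → Ω → ℝ} (hw : ∀ i, ∑ a, w i a = 1) (P : (ι → Ω) → Prop) :
    PE w (fun ω => ind (¬ P ω)) = 1 - PE w (fun ω => ind (P ω)) := by
  simp only [ind_not]; rw [PE_sub, PE_const hw]

lemma PE_ind_le_one {w : ι → Ω → ℝ} (hw0 : ∀ i a, 0 ≤ w i a) (hw : ∀ i, ∑ a, w i a = 1)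
    (P : (ι → Ω) → Prop) : PE w (fun ω => ind (P ω)) ≤ 1 := by
  have := PE_mono hw0 (f := fun ω => ind (P ω)) (g := fun _ => 1) (fun ω => ind_le_one _)
  rwa [PE_const hw] at this

lemma exists_of_PE_lt {w : ι → Ω → ℝ} (hw : ∀ i, ∑ a, w i a = 1)
    {P : (ι → Ω) → Prop} (h : PE w (fun ω => ind (P ω)) < 1) : ∃ ω, ¬ P ω := by
  by_contra hc; push Not at hc
  have : PE w (fun ω => ind (P ω)) = 1 := by
    rw [PE_congr w (g := fun _ => 1) (fun ω => ind_pos (hc ω)), PE_const hw]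
  linarith

/-- Cauchy-Schwarz -/
lemma PE_sq_le {w : ι → Ω → ℝ} (hw : ∀ i a, 0 ≤ w i a) (f g : (ι → Ω) → ℝ) :
    (PE w (fun ω => f ω * g ω)) ^ 2 ≤ PE w (fun ω => f ω * f ω) * PE w (fun ω => g ω * g ω) := by
  unfold PE
  apply Finset.sum_sq_le_sum_mul_sum_of_sq_le_mul
  · intro ω _; exact mul_nonneg (Finset.prod_nonneg fun i _ => hw i _) (mul_self_nonneg _)
  · intro ω _; exact mul_nonneg (Finset.prod_nonneg fun i _ => hw i _) (mul_self_nonneg _)
  · intro ω _; apply le_of_eq; ring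

/-- coordinatewise push-forward -/
lemma PE_push (w : ι → Ω → ℝ) (w' : ι → Ω' → ℝ) (g : ι → Ω → Ω')
    (h : ∀ i b, ∑ a, w i a * ind (g i a = b) = w' i b) (F : (ι → Ω') → ℝ) :
    PE w (fun ω => F (fun i => g i (ω i))) = PE w' F := by
  have h1 : ∀ ω : ι → Ω, F (fun i => g i (ω i)) =
      ∑ η : ι → Ω', F η * ∏ i, ind (g i (ω i) = η i) := by
    intro ω
    rw [Finset.sum_eq_single (fun i => g i (ω i))]
    · rw [Finset.prod_eq_one (fun i _ => ind_pos rfl), mul_one]
    · intro η _ hη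
      rw [prod_ind, ind_neg, mul_zero]
      intro h'; exact hη (funext fun i => (h' i (Finset.mem_univ _)).symm)
    · intro h'; exact absurd (Finset.mem_univ _) h'
  rw [PE_congr w h1, PE_sum]
  unfold PE
  refine Finset.sum_congr rfl fun η _ => ?_
  have := PE_mul_left w (F η) (fun ω => ∏ i, ind (g i (ω i) = η i))
  unfold PE at this; rw [this]
  have h2 := PE_prod w (fun i a => ind (g i a = η i))
  unfold PE at h2; rw [h2]; simp only [h]; ring

/-- two independent copies -/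
lemma PE_pair (w : ι → Ω → ℝ) (w' : ι → Ω' → ℝ) (F : (ι → Ω × Ω') → ℝ) :
    PE w (fun ω => PE w' (fun η => F (fun i => (ω i, η i)))) =
      PE (fun i (x : Ω × Ω') => w i x.1 * w' i x.2) F := by
  unfold PE
  simp only [Finset.mul_sum]
  rw [← Finset.sum_product', Finset.univ_product_univ]
  refine Fintype.sum_equiv (Equiv.arrowProdEquivProdArrow ι (fun _ => Ω) (fun _ => Ω')).symm _ _ ?_
  intro x
  simp only [Equiv.arrowProdEquivProdArrow, Equiv.coe_fn_symm_mk, Finset.prod_mul_distrib]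
  ring

lemma PE_pair_push {Ω'' : Type*} [Fintype Ω''] (w : ι → Ω → ℝ) (w' : ι → Ω' → ℝ)
    (w'' : ι → Ω'' → ℝ) (g : ι → Ω → Ω' → Ω'')
    (h : ∀ i c, ∑ a, ∑ b, w i a * w' i b * ind (g i a b = c) = w'' i c) (F : (ι → Ω'') → ℝ) :
    PE w (fun ω => PE w' (fun η => F (fun i => g i (ω i) (η i)))) = PE w'' F := by
  rw [PE_pair w w' (fun x => F (fun i => g i (x i).1 (x i).2))]
  refine PE_push _ w'' (fun i (x : Ω × Ω') => g i x.1 x.2) ?_ F
  intro i c; rw [Fintype.sum_prod_type]; exact h i c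

/-- resampling a set of coordinates -/
lemma PE_merge {w : ι → Ω → ℝ} (hw : ∀ i, ∑ a, w i a = 1) (S : ι → Prop) [DecidablePred S]
    (F : (ι → Ω) → ℝ) :
    PE w (fun ω => PE w (fun η => F (fun i => if S i then η i else ω i))) = PE w F := by
  classical
  refine PE_pair_push w w w (fun i a b => if S i then b else a) ?_ F
  intro i c
  by_cases hS : S i
  · simp only [if_pos hS, ind_eq_ite, mul_ite, mul_one, mul_zero, Finset.sum_ite_eq',
      Finset.mem_univ, if_true]
    rw [← Finset.sum_mul, hw, one_mul]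
  · simp only [if_neg hS]
    rw [Finset.sum_comm]
    simp only [ind_eq_ite, mul_ite, mul_one, mul_zero, Finset.sum_ite_eq',
      Finset.mem_univ, if_true]
    rw [← Finset.mul_sum, hw, mul_one]

variable [Fintype κ] [DecidableEq κ]

/-- restriction along an injection -/
lemma PE_restrict {w : Ω → ℝ} (hw : ∑ a, w a = 1) (e : κ → ι) (he : Function.Injective e)
    (F : (κ → Ω) → ℝ) :
    PE (fun _ : ι => w) (fun ω => F (fun k => ω (e k))) = PE (fun _ : κ => w) F := by
  classical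
  have h1 : ∀ ω : ι → Ω, F (fun k => ω (e k)) =
      ∑ η : κ → Ω, F η * ∏ i, ∏ k ∈ univ.filter (fun k => e k = i), ind (ω i = η k) := by
    intro ω
    have : ∀ η : κ → Ω, ∏ i, ∏ k ∈ univ.filter (fun k => e k = i), ind (ω i = η k)
        = ∏ k, ind (ω (e k) = η k) := by
      intro η
      rw [← Finset.prod_fiberwise univ e (fun k => ind (ω (e k) = η k))]
      refine Finset.prod_congr rfl fun i _ => Finset.prod_congr rfl fun k hk => ?_
      rw [(Finset.mem_filter.mp hk).2]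
    simp only [this]
    rw [Finset.sum_eq_single (fun k => ω (e k))]
    · rw [Finset.prod_eq_one (fun i _ => ind_pos rfl), mul_one]
    · intro η _ hη
      rw [prod_ind, ind_neg, mul_zero]
      intro h'; exact hη (funext fun i => (h' i (Finset.mem_univ _)).symm)
    · intro h'; exact absurd (Finset.mem_univ _) h'
  rw [PE_congr _ h1, PE_sum]
  conv_rhs => unfold PE
  refine Finset.sum_congr rfl fun η _ => ?_
  rw [PE_mul_left, PE_prod (fun _ : ι => w)
    (fun i a => ∏ k ∈ univ.filter (fun k => e k = i), ind (a = η k)), mul_comm]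
  congr 1
  rw [← Finset.prod_fiberwise univ e (fun k => w (η k))]
  refine Finset.prod_congr rfl fun i _ => ?_
  by_cases hi : ∃ k, e k = i
  · obtain ⟨k, rfl⟩ := hi
    have : univ.filter (fun k' => e k' = e k) = {k} := by
      ext k'; simp [he.eq_iff]
    rw [this]
    simp [ind_eq_ite]
  · have : univ.filter (fun k' => e k' = i) = ∅ := by
      ext k'; simp only [mem_filter, mem_univ, true_and, Finset.notMem_empty, iff_false]
      exact fun h => hi ⟨k', h⟩
    rw [this]; simp [hw]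

/-- restriction along a map injective on the relevant coordinates -/
lemma PE_restrict_on {w : Ω → ℝ} (hw : ∑ a, w a = 1) (e : κ → ι) (K : κ → Prop)
    (he : ∀ k k', K k → K k' → e k = e k' → k = k')
    (F : (κ → Ω) → ℝ) (hF : ∀ x y : κ → Ω, (∀ k, K k → x k = y k) → F x = F y) :
    PE (fun _ : ι => w) (fun ω => F (fun k => ω (e k))) = PE (fun _ : κ => w) F := by
  classical
  have hne : Nonempty Ω := by
    by_contra hc
    rw [not_nonempty_iff] at hc
    simp at hw
  obtain ⟨a0⟩ := hne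
  let G : ({k // K k} → Ω) → ℝ := fun η => F (fun k => if h : K k then η ⟨k, h⟩ else a0)
  have h1 := PE_restrict hw (fun k : {k // K k} => e k.1)
    (fun k k' h => Subtype.ext (he _ _ k.2 k'.2 h)) G
  have h2 := PE_restrict (ι := κ) hw (fun k : {k // K k} => k.1) Subtype.val_injective G
  rw [← h2] at h1
  rw [PE_congr _ (g := fun ω => G (fun k => ω (e k.1))), h1]
  · refine PE_congr _ fun x => hF _ _ fun k hk => ?_
    simp [hk]
  · intro ω; refine hF _ _ fun k hk => ?_
    simp [hk]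

lemma PE_curry (w : Ω → ℝ) (F : (κ → ι → Ω) → ℝ) :
    PE (fun _ : κ × ι => w) (fun ω => F (fun k i => ω (k, i))) =
      PE (fun _ : κ => fun x : ι → Ω => ∏ i, w (x i)) F := by
  unfold PE
  refine Fintype.sum_equiv (Equiv.curry κ ι Ω) _ _ ?_
  intro x
  rw [Fintype.prod_prod_type]; rfl

lemma PE_cons {k : ℕ} (w : Ω → ℝ) (F : (Fin (k + 1) → Ω) → ℝ) :
    PE (fun _ : Fin (k + 1) => w) F =
      ∑ a, w a * PE (fun _ : Fin k => w) (fun x => F (Fin.cons a x)) := by
  unfold PE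
  simp only [Finset.mul_sum]
  rw [← Finset.sum_product', Finset.univ_product_univ]
  symm
  refine Fintype.sum_equiv (Fin.consEquiv (fun _ => Ω)) _ _ ?_
  intro x
  simp only [Fin.consEquiv, Equiv.coe_fn_mk, Fin.prod_univ_succ, Fin.cons_zero, Fin.cons_succ]
  ring

/-- upper tail -/
lemma PE_upper {w : ι → Ω → ℝ} (hw0 : ∀ i a, 0 ≤ w i a) (hw : ∀ i, ∑ a, w i a = 1)
    (E : ι → Ω → Prop) (t : ℝ) :
    PE w (fun ω => ind (t ≤ ∑ i, ind (E i (ω i)))) ≤
      Real.exp (2 * (∑ i, ∑ a, w i a * ind (E i a)) - t) := by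
  have h1 : ∀ ω : ι → Ω, ind (t ≤ ∑ i, ind (E i (ω i))) ≤
      Real.exp (-t) * ∏ i, Real.exp (ind (E i (ω i))) := by
    intro ω
    rw [← Real.exp_sum, ← Real.exp_add]
    by_cases h : t ≤ ∑ i, ind (E i (ω i))
    · rw [ind_pos h]; exact Real.one_le_exp (by linarith)
    · rw [ind_neg h]; positivity
  refine (PE_mono hw0 h1).trans ?_
  rw [PE_mul_left, PE_prod w (fun i a => Real.exp (ind (E i a))), sub_eq_neg_add, Real.exp_add,
    Finset.mul_sum, Real.exp_sum]
  refine mul_le_mul_of_nonneg_left ?_ (Real.exp_pos _).le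
  refine Finset.prod_le_prod (fun i _ => Finset.sum_nonneg fun a _ =>
    mul_nonneg (hw0 i a) (Real.exp_pos _).le) fun i _ => ?_
  refine le_trans ?_ (Real.add_one_le_exp _)
  rw [← hw i, Finset.mul_sum, ← Finset.sum_add_distrib]
  refine Finset.sum_le_sum fun a _ => ?_
  have h3 : Real.exp (ind (E i a)) ≤ 2 * ind (E i a) + 1 := by
    by_cases h : E i a
    · rw [ind_pos h]; have := Real.exp_one_lt_d9; linarith
    · rw [ind_neg h]; simp
  nlinarith [hw0 i a]

/-- lower tail -/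
lemma PE_lower {w : ι → Ω → ℝ} (hw0 : ∀ i a, 0 ≤ w i a) (hw : ∀ i, ∑ a, w i a = 1)
    (E : ι → Ω → Prop) (t : ℝ) :
    PE w (fun ω => ind (∑ i, ind (E i (ω i)) < t)) ≤
      Real.exp (t - (∑ i, ∑ a, w i a * ind (E i a)) / 2) := by
  have h1 : ∀ ω : ι → Ω, ind (∑ i, ind (E i (ω i)) < t) ≤
      Real.exp t * ∏ i, Real.exp (- ind (E i (ω i))) := by
    intro ω
    rw [← Real.exp_sum, ← Real.exp_add, Finset.sum_neg_distrib]
    by_cases h : ∑ i, ind (E i (ω i)) < t
    · rw [ind_pos h]; exact Real.one_le_exp (by linarith)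
    · rw [ind_neg h]; positivity
  refine (PE_mono hw0 h1).trans ?_
  rw [PE_mul_left, PE_prod w (fun i a => Real.exp (- ind (E i a))), sub_eq_add_neg, Real.exp_add,
    Finset.sum_div, ← Finset.sum_neg_distrib, Real.exp_sum]
  refine mul_le_mul_of_nonneg_left ?_ (Real.exp_pos _).le
  refine Finset.prod_le_prod (fun i _ => Finset.sum_nonneg fun a _ =>
    mul_nonneg (hw0 i a) (Real.exp_pos _).le) fun i _ => ?_
  refine le_trans ?_ (Real.add_one_le_exp _)
  rw [← hw i, Finset.sum_div, ← Finset.sum_neg_distrib, ← Finset.sum_add_distrib]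
  refine Finset.sum_le_sum fun a _ => ?_
  have h3 : Real.exp (- ind (E i a)) ≤ 1 - ind (E i a) / 2 := by
    by_cases h : E i a
    · rw [ind_pos h, Real.exp_neg]
      have := Real.exp_one_gt_d9
      rw [inv_le_comm₀ (Real.exp_pos _) (by norm_num)]; linarith
    · rw [ind_neg h]; simp
  nlinarith [hw0 i a]

end PE

/-- Bernoulli weight -/
def bw (p : ℝ) (b : Bool) : ℝ := if b then p else 1 - p

@[simp] lemma bw_true (p : ℝ) : bw p true = p := rfl
@[simp] lemma bw_false (p : ℝ) : bw p false = 1 - p := rfl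
lemma bw_sum (p : ℝ) : ∑ b, bw p b = 1 := by simp
lemma bw_nonneg {p : ℝ} (h0 : 0 ≤ p) (h1 : p ≤ 1) (b : Bool) : 0 ≤ bw p b := by
  cases b <;> simp <;> linarith

section Bern
variable {ι κ : Type*} [Fintype ι] [DecidableEq ι] [Fintype κ] [DecidableEq κ]

/-- Bernoulli expectation -/
noncomputable def E (p : ℝ) (f : (ι → Bool) → ℝ) : ℝ := PE (fun _ : ι => bw p) f

lemma bernoulliProb_eq (p : ℝ) (S : Set (ι → Bool)) :
    Crest.FinProb.bernoulliProb p S = E p (fun ω => ind (ω ∈ S)) := by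
  classical
  unfold Crest.FinProb.bernoulliProb E PE
  rw [Finset.sum_filter]
  refine Finset.sum_congr rfl fun ω _ => ?_
  beta_reduce
  by_cases h : ω ∈ S
  · rw [if_pos h, ind_pos h, mul_one]; rfl
  · rw [if_neg h, ind_neg h, mul_zero]

lemma E_union (p q : ℝ) (F : (ι → Bool) → ℝ) :
    E p (fun ω => E q (fun η => F (fun i => ω i || η i))) = E (p + q - p * q) F := by
  refine PE_pair_push _ _ _ (fun _ a b => a || b) ?_ F
  intro i c
  cases c <;> simp [ind_eq_ite] <;> ring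

lemma E_mono {p : ℝ} (h0 : 0 ≤ p) (h1 : p ≤ 1) {f g : (ι → Bool) → ℝ} (h : ∀ ω, f ω ≤ g ω) :
    E p f ≤ E p g := PE_mono (fun _ => bw_nonneg h0 h1) h

lemma E_nonneg {p : ℝ} (h0 : 0 ≤ p) (h1 : p ≤ 1) {f : (ι → Bool) → ℝ} (h : ∀ ω, 0 ≤ f ω) :
    0 ≤ E p f := PE_nonneg (fun _ => bw_nonneg h0 h1) h

lemma E_const (p c : ℝ) : E p (fun _ : ι → Bool => c) = c := PE_const (fun _ => bw_sum p) c

/-- monotonicity in the density -/
lemma E_mono_p {p p' : ℝ} (h0 : 0 ≤ p) (hpp : p ≤ p') (h1 : p' ≤ 1) (F : (ι → Bool) → ℝ)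
    (hF : ∀ x y : ι → Bool, (∀ i, x i = true → y i = true) → F x ≤ F y) : E p F ≤ E p' F := by
  rcases eq_or_lt_of_le (hpp.trans h1) with h | h
  · have : p' = p := by linarith
    rw [this]
  · have hq : 0 < 1 - p := by linarith
    have h2 : p + (p' - p) / (1 - p) - p * ((p' - p) / (1 - p)) = p' := by
      field_simp; ring
    have h3 : 0 ≤ (p' - p) / (1 - p) := div_nonneg (by linarith) hq.le
    have h4 : (p' - p) / (1 - p) ≤ 1 := by rw [div_le_one hq]; linarith
    rw [← h2, ← E_union]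
    refine E_mono h0 h.le fun ω => ?_
    rw [← E_const (ι := ι) ((p' - p) / (1 - p)) (F ω)]
    refine E_mono h3 h4 fun η => hF _ _ fun i hi => ?_
    simp [hi]

/-- conditioning on containing `I` -/
lemma E_cond (p : ℝ) (I : Finset ι) (F : (ι → Bool) → ℝ) :
    E p (fun ω => ind (∀ i ∈ I, ω i = true) * F ω) =
      p ^ I.card * E p (fun ω => F (fun i => decide (i ∈ I) || ω i)) := by
  have h1 := PE_push (fun i a => (if i ∈ I then p else 1) * bw p a)
    (fun i b => bw p b * (if i ∈ I then ind (b = true) else 1))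
    (fun i a => decide (i ∈ I) || a) (by
      intro i b
      by_cases hi : i ∈ I <;> cases b <;> simp [hi, ind_eq_ite] <;> ring) F
  unfold E
  unfold PE at h1 ⊢
  simp only [Finset.prod_mul_distrib] at h1
  have h2 : (∏ i, if i ∈ I then p else 1) = p ^ I.card := by
    rw [Finset.prod_ite_mem, Finset.univ_inter, Finset.prod_const]
  rw [h2] at h1
  rw [Finset.mul_sum]
  simp only [mul_assoc] at h1 ⊢
  rw [h1]
  refine Finset.sum_congr rfl fun ω _ => ?_
  rw [Finset.prod_ite_mem, Finset.univ_inter, prod_ind]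

end Bern
end Crest.Agent.Tal
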