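import Crest.Agent.Tal.Prob

/-! A multi-scale minimal-fragment lemma. -/

set_option autoImplicit false
set_option linter.unnecessarySeqFocus false
set_option linter.unusedSectionVars false

namespace Crest.Agent.Tal
open Finset

lemma sum_le_of_inj {β γ : Type*} (s : Finset β) (t : Finset γ) (φ : β → γ) (f : β → ℝ)
    (g : γ → ℝ) (hm : ∀ x ∈ s, φ x ∈ t) (hi : Set.InjOn φ s) (hf : ∀ x ∈ s, f x ≤ g (φ x))
    (hg : ∀ y ∈ t, 0 ≤ g y) : ∑ x ∈ s, f x ≤ ∑ y ∈ t, g y := by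
  classical
  calc ∑ x ∈ s, f x ≤ ∑ x ∈ s, g (φ x) := Finset.sum_le_sum hf
    _ = ∑ y ∈ s.image φ, g y := (Finset.sum_image hi).symm
    _ ≤ _ := Finset.sum_le_sum_of_subset_of_nonneg
        (fun y hy => by obtain ⟨x, hx, rfl⟩ := Finset.mem_image.mp hy; exact hm x hx)
        (fun y hy _ => hg y hy)

variable {α : Type*} [Fintype α] [DecidableEq α]

lemma exists_rank (A : Finset α) (lam : α → ℝ) : ∃ rk : α → ℕ, Set.InjOn rk A ∧
    ∀ x ∈ A, A.filter (fun y => lam x ≤ lam y) =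
      A.filter (fun y => rk y < (A.filter (fun y => lam x ≤ lam y)).card) := by
  classical
  let e := Fintype.equivFin α
  let key : α → Lex (ℝᵒᵈ × ℕ) := fun x => toLex (OrderDual.toDual (lam x), (e x : ℕ))
  have hkey : Function.Injective key := by
    intro x y h
    have := congrArg (fun z : Lex (ℝᵒᵈ × ℕ) => (ofLex z).2) h
    exact e.injective (Fin.ext this)
  have hlt : ∀ x y, lam y < lam x → key x < key y := by
    intro x y h
    exact Prod.Lex.toLex_lt_toLex.mpr (Or.inl h)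
  have hle : ∀ x y, key x < key y → lam y ≤ lam x := by
    intro x y h
    by_contra hc
    exact absurd (hlt y x (not_le.mp hc)) (not_lt.mpr h.le)
  let rk : α → ℕ := fun x => (A.filter (fun y => key y < key x)).card
  have hrk : ∀ x ∈ A, ∀ y, key x < key y → rk x < rk y := by
    intro x hx y h
    apply Finset.card_lt_card
    rw [Finset.ssubset_iff_of_subset]
    · exact ⟨x, Finset.mem_filter.mpr ⟨hx, h⟩, fun h' => lt_irrefl _ (Finset.mem_filter.mp h').2⟩
    · intro z hz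
      exact Finset.mem_filter.mpr ⟨(Finset.mem_filter.mp hz).1, (Finset.mem_filter.mp hz).2.trans h⟩
  refine ⟨rk, ?_, ?_⟩
  · intro x hx y hy h
    rcases lt_trichotomy (key x) (key y) with h' | h' | h'
    · exact absurd h (hrk x hx y h').ne
    · exact hkey h'
    · exact absurd h (hrk y hy x h').ne'
  · intro x hx
    ext y
    simp only [Finset.mem_filter]
    refine and_congr_right fun hy => ⟨fun h => ?_, fun h => ?_⟩
    · apply Finset.card_lt_card
      rw [Finset.ssubset_iff_of_subset]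
      · exact ⟨y, Finset.mem_filter.mpr ⟨hy, h⟩, fun h' => lt_irrefl _ (Finset.mem_filter.mp h').2⟩
      · intro z hz
        exact Finset.mem_filter.mpr ⟨(Finset.mem_filter.mp hz).1,
          h.trans (hle _ _ (Finset.mem_filter.mp hz).2)⟩
    · by_contra hc
      refine absurd h (not_lt.mpr (Finset.card_le_card fun z hz => ?_))
      exact Finset.mem_filter.mpr ⟨(Finset.mem_filter.mp hz).1,
        hlt _ _ ((not_le.mp hc).trans_le (Finset.mem_filter.mp hz).2)⟩

omit [Fintype α] in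
lemma layer_cake (h : α → ℝ) (A : Finset α) : ∀ (lam : α → ℝ), (∀ x ∈ A, 0 ≤ lam x) →
    (∀ x ∈ A, 0 ≤ ∑ y ∈ A.filter (fun y => lam x ≤ lam y), h y) →
    0 ≤ ∑ y ∈ A, lam y * h y := by
  induction A using Finset.strongInduction with
  | H A ih =>
    intro lam h0 h1
    rcases A.eq_empty_or_nonempty with rfl | hne
    · simp
    obtain ⟨x0, hx0, hmin⟩ := Finset.exists_min_image A lam hne
    set A' := A.filter (fun y => lam x0 < lam y) with hA'
    have hss : A' ⊂ A := by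
      rw [Finset.ssubset_iff_of_subset (Finset.filter_subset _ _)]
      exact ⟨x0, hx0, fun h' => lt_irrefl _ (Finset.mem_filter.mp h').2⟩
    have h2 := ih A' hss (fun y => lam y - lam x0)
      (fun x hx => by linarith [(Finset.mem_filter.mp hx).2]) (by
        intro x hx
        have hx' := Finset.mem_filter.mp hx
        have : A'.filter (fun y => lam x - lam x0 ≤ lam y - lam x0) =
            A.filter (fun y => lam x ≤ lam y) := by
          ext y; simp only [hA', Finset.mem_filter]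
          constructor
          · rintro ⟨⟨a, _⟩, c⟩; exact ⟨a, by linarith⟩
          · rintro ⟨a, c⟩; exact ⟨⟨a, by linarith [hx'.2]⟩, by linarith⟩
        rw [this]; exact h1 x hx'.1)
    have h3 := h1 x0 hx0
    rw [Finset.filter_true_of_mem (fun y hy => hmin y hy)] at h3
    have h4 : ∑ y ∈ A', (lam y - lam x0) * h y = ∑ y ∈ A, (lam y - lam x0) * h y := by
      refine Finset.sum_subset (Finset.filter_subset _ _) fun y hy hy' => ?_
      have : lam y = lam x0 := by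
        refine le_antisymm ?_ (hmin y hy)
        by_contra hc; exact hy' (Finset.mem_filter.mpr ⟨hy, not_le.mp hc⟩)
      rw [this]; ring
    have h5 : ∑ y ∈ A, lam y * h y =
        lam x0 * ∑ y ∈ A, h y + ∑ y ∈ A, (lam y - lam x0) * h y := by
      rw [Finset.mul_sum, ← Finset.sum_add_distrib]
      exact Finset.sum_congr rfl fun y _ => by ring
    rw [h5, ← h4]
    exact add_nonneg (mul_nonneg (h0 x0 hx0) h3) h2

section frag
variable (rk : Finset α → α → ℕ)

/-- late elements in a prefix -/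
def miss (τ : α → ℕ) (A : Finset α) (j i : ℕ) : ℕ :=
  (A.filter (fun x => rk A x < j ∧ i < τ x)).card

open Classical in
/-- largest violating prefix up to level `i` -/
noncomputable def JJ (τ : α → ℕ) (A : Finset α) (i : ℕ) : ℕ :=
  ((range (Fintype.card α + 1)).filter
    (fun j => ∃ i0 ≤ i, j ≤ 4 ^ (i0 + 1) * miss rk τ A j i0)).sup id

/-- fragment at level `i` -/
noncomputable def XX (τ : α → ℕ) (A : Finset α) (i : ℕ) : Finset α :=
  A.filter (fun x => rk A x < JJ rk τ A i ∧ i < τ x)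

open Classical in
/-- the fragment -/
noncomputable def UU (τ : α → ℕ) (A : Finset α) : Finset α :=
  A.filter (fun x => ∃ i, x ∈ XX rk τ A i)

open Classical in
/-- the reset times -/
noncomputable def tau' (τ : α → ℕ) (A : Finset α) (x : α) : ℕ :=
  if h : ∃ i, x ∈ XX rk τ A i then Nat.find h else τ x

/-- admissibility -/
def Adm (τ' : α → ℕ) (M : ℕ → ℕ) (m : ℕ) (A : Finset α) : Prop :=
  ∃ J : ℕ → ℕ, Monotone J ∧ (∀ i, J i ≤ 4 ^ (i + 1) * m) ∧
    (∀ i, ∀ x ∈ A, rk A x < J i → τ' x ≤ i) ∧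
    ∀ i j, J i < j → j ≤ Fintype.card α → 4 ^ (i + 1) * (miss rk τ' A j i + M i) < j

variable {rk}

lemma JJ_mono (τ : α → ℕ) (A : Finset α) : Monotone (JJ rk τ A) := by
  intro i i' h
  unfold JJ
  refine Finset.sup_mono fun j hj => ?_
  simp only [Finset.mem_filter] at hj ⊢
  obtain ⟨h1, i0, h2, h3⟩ := hj
  exact ⟨h1, i0, h2.trans h, h3⟩

lemma JJ_lt {τ : α → ℕ} {A : Finset α} {i j : ℕ} (h : JJ rk τ A i < j) (hj : j ≤ Fintype.card α) :
    4 ^ (i + 1) * miss rk τ A j i < j := by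
  classical
  by_contra hc
  refine absurd h (not_lt.mpr ?_)
  unfold JJ
  refine Finset.le_sup (f := id) ?_
  simp only [Finset.mem_filter, Finset.mem_range]
  exact ⟨by omega, i, le_rfl, not_lt.mp hc⟩

lemma JJ_le_of {τ : α → ℕ} {A : Finset α} {J : ℕ → ℕ} (hJ : Monotone J)
    (h : ∀ i j, J i < j → j ≤ Fintype.card α → 4 ^ (i + 1) * miss rk τ A j i < j) (i : ℕ) :
    JJ rk τ A i ≤ J i := by
  unfold JJ
  refine Finset.sup_le fun j hj => ?_
  simp only [Finset.mem_filter, Finset.mem_range] at hj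
  obtain ⟨h1, i0, h2, h3⟩ := hj
  by_contra hc
  have := h i0 j ((hJ h2).trans_lt (not_le.mp hc)) (by omega)
  omega

lemma mem_XX {τ : α → ℕ} {A : Finset α} {i : ℕ} {x : α} :
    x ∈ XX rk τ A i ↔ x ∈ A ∧ rk A x < JJ rk τ A i ∧ i < τ x := Finset.mem_filter

lemma mem_UU {τ : α → ℕ} {A : Finset α} {x : α} :
    x ∈ UU rk τ A ↔ ∃ i, x ∈ XX rk τ A i := by
  classical
  unfold UU
  rw [Finset.mem_filter]
  exact ⟨fun h => h.2, fun ⟨i, h⟩ => ⟨(mem_XX.mp h).1, i, h⟩⟩

lemma UU_subset (τ : α → ℕ) (A : Finset α) : UU rk τ A ⊆ A := by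
  classical
  exact Finset.filter_subset _ _

lemma JJ_le (τ : α → ℕ) (A : Finset α) (i : ℕ) :
    JJ rk τ A i ≤ 4 ^ (i + 1) * (UU rk τ A).card := by
  classical
  conv_lhs => unfold JJ
  refine Finset.sup_le fun j hj => ?_
  have hj' := hj
  simp only [Finset.mem_filter, Finset.mem_range] at hj
  obtain ⟨h1, i0, h2, h3⟩ := hj
  have h4 : j ≤ JJ rk τ A i0 := by
    unfold JJ
    refine Finset.le_sup (f := id) ?_
    simp only [Finset.mem_filter, Finset.mem_range]
    exact ⟨h1, i0, le_rfl, h3⟩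
  refine h3.trans (Nat.mul_le_mul (Nat.pow_le_pow_right (by norm_num) (by omega)) ?_)
  refine Finset.card_le_card fun x hx => ?_
  simp only [Finset.mem_filter] at hx
  exact mem_UU.mpr ⟨i0, mem_XX.mpr ⟨hx.1, hx.2.1.trans_le h4, hx.2.2⟩⟩

lemma tau'_of_notMem {τ : α → ℕ} {A : Finset α} {x : α} (h : x ∉ UU rk τ A) :
    tau' rk τ A x = τ x := by
  unfold tau'; rw [dif_neg (fun h' => h (mem_UU.mpr h'))]

lemma mem_XX_tau' {τ : α → ℕ} {A : Finset α} {x : α} (h : x ∈ UU rk τ A) :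
    x ∈ XX rk τ A (tau' rk τ A x) := by
  classical
  unfold tau'; rw [dif_pos (mem_UU.mp h)]; exact Nat.find_spec (mem_UU.mp h)

lemma tau'_le_of_mem {τ : α → ℕ} {A : Finset α} {x : α} {i : ℕ} (h : x ∈ XX rk τ A i) :
    tau' rk τ A x ≤ i := by
  classical
  unfold tau'; rw [dif_pos ⟨i, h⟩]; exact Nat.find_min' _ h

lemma tau'_lt {τ : α → ℕ} {A : Finset α} {x : α} (h : x ∈ UU rk τ A) : tau' rk τ A x < τ x :=
  (mem_XX.mp (mem_XX_tau' h)).2.2

lemma tau'_le (τ : α → ℕ) (A : Finset α) (x : α) : tau' rk τ A x ≤ τ x := by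
  by_cases h : x ∈ UU rk τ A
  · exact (tau'_lt h).le
  · exact (tau'_of_notMem h).le

lemma mem_XX_iff {τ : α → ℕ} {A : Finset α} {x : α} {i : ℕ} :
    x ∈ XX rk τ A i ↔ tau' rk τ A x ≤ i ∧ i < τ x := by
  refine ⟨fun h => ⟨tau'_le_of_mem h, (mem_XX.mp h).2.2⟩, fun h => ?_⟩
  have hU : x ∈ UU rk τ A := by
    by_contra hc; rw [tau'_of_notMem hc] at h; omega
  have := mem_XX.mp (mem_XX_tau' hU)
  exact mem_XX.mpr ⟨this.1, this.2.1.trans_le (JJ_mono τ A h.1), h.2⟩

lemma adm_self (τ : α → ℕ) (A : Finset α) :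
    Adm rk (tau' rk τ A) (fun i => (XX rk τ A i).card) (UU rk τ A).card A := by
  refine ⟨JJ rk τ A, JJ_mono τ A, JJ_le τ A, ?_, ?_⟩
  · intro i x hx h
    by_cases h' : i < τ x
    · exact tau'_le_of_mem (mem_XX.mpr ⟨hx, h, h'⟩)
    · exact (tau'_le τ A x).trans (not_lt.mp h')
  · intro i j h hj
    refine lt_of_le_of_lt (Nat.mul_le_mul_left _ ?_) (JJ_lt h hj)
    unfold miss
    rw [← Finset.card_union_of_disjoint]
    · refine Finset.card_le_card fun x hx => ?_
      rw [Finset.mem_union, Finset.mem_filter] at hx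
      rw [Finset.mem_filter]
      rcases hx with hx | hx
      · exact ⟨hx.1, hx.2.1, hx.2.2.trans_le (tau'_le τ A x)⟩
      · have := mem_XX.mp hx
        exact ⟨this.1, this.2.1.trans h, this.2.2⟩
    · rw [Finset.disjoint_left]
      intro x hx hx'
      have := tau'_le_of_mem hx'
      have := (Finset.mem_filter.mp hx).2.2
      omega

lemma adm_sub {τ : α → ℕ} {A A'' : Finset α}
    (h : Adm rk (tau' rk τ A) (fun i => (XX rk τ A i).card) (UU rk τ A).card A'') (i : ℕ) :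
    XX rk τ A'' i ⊆ XX rk τ A i ∧
      ∀ x ∈ XX rk τ A'' i, rk A'' x < 4 ^ (i + 1) * (UU rk τ A).card := by
  obtain ⟨J, hJ, h1, h2, h3⟩ := h
  have h4 : ∀ i, JJ rk τ A'' i ≤ J i := by
    refine JJ_le_of hJ fun i j hij hj => lt_of_le_of_lt (Nat.mul_le_mul_left _ ?_) (h3 i j hij hj)
    unfold miss
    refine le_trans (Finset.card_le_card fun x hx => ?_) (Finset.card_union_le _ _)
    rw [Finset.mem_filter] at hx
    rw [Finset.mem_union, Finset.mem_filter]
    by_cases hc : i < tau' rk τ A x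
    · exact Or.inl ⟨hx.1, hx.2.1, hc⟩
    · exact Or.inr (mem_XX_iff.mpr ⟨not_lt.mp hc, hx.2.2⟩)
  constructor
  · intro x hx
    have := mem_XX.mp hx
    exact mem_XX_iff.mpr ⟨h2 i x this.1 (this.2.1.trans_le (h4 i)), this.2.2⟩
  · intro x hx
    exact ((mem_XX.mp hx).2.1.trans_le (h4 i)).trans_le (h1 i)

end frag

/-- coding triples -/
def Tri (R m : ℕ) : Finset (Σ _ : ℕ, ℕ × ℕ) :=
  (range R).sigma fun a => (range (4 ^ (a + 1) * m)) ×ˢ (range (R + 1))

lemma geom_le (x : ℝ) (h0 : 0 ≤ x) (h1 : x < 1) (n : ℕ) : ∑ a ∈ range n, x ^ a ≤ 1 / (1 - x) := by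
  have h := geom_sum_mul x n
  rw [le_div_iff₀ (by linarith)]
  have : 0 ≤ x ^ n := pow_nonneg h0 n
  nlinarith

lemma sum_Tri (R m : ℕ) (P : ℕ → ℝ) (hP : ∑ a ∈ range (R + 1), P a = 1) :
    ∑ e ∈ Tri R m, P e.2.2 / (256 * 8 ^ e.1) ≤ m / 32 := by
  unfold Tri
  rw [Finset.sum_sigma]
  have h1 : ∀ a ∈ range R, ∑ s ∈ (range (4 ^ (a + 1) * m)) ×ˢ (range (R + 1)),
      P s.2 / (256 * 8 ^ a) = m / 64 * (1 / 2) ^ a := by
    intro a _
    rw [Finset.sum_product]
    simp only [← Finset.sum_div, hP, Finset.sum_const, Finset.card_range, nsmul_eq_mul]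
    push_cast
    have : (8 : ℝ) ^ a = 4 ^ a * 2 ^ a := by rw [← mul_pow]; norm_num
    rw [this, one_div_pow]; field_simp; ring
  rw [Finset.sum_congr rfl h1, ← Finset.mul_sum]
  have := geom_le (1 / 2) (by norm_num) (by norm_num) R
  have h2 : (0 : ℝ) ≤ m / 64 := by positivity
  nlinarith

lemma sum_powersetCard_le {β : Type*} [DecidableEq β] (T : Finset β) (w : β → ℝ)
    (hw : ∀ e, 0 ≤ w e) (m : ℕ) (h : ∑ e ∈ T, w e ≤ m / 32) :
    ∑ E ∈ T.powersetCard m, ∏ e ∈ E, w e ≤ (3 / 32) ^ m := by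
  have h1 : ∑ E ∈ T.powersetCard m, ∏ e ∈ E, (32 * w e) ≤ ∏ e ∈ T, (1 + 32 * w e) := by
    rw [Finset.prod_one_add]
    refine Finset.sum_le_sum_of_subset_of_nonneg (fun E hE => ?_) fun E _ _ =>
      Finset.prod_nonneg fun e _ => by have := hw e; positivity
    exact Finset.mem_powerset.mpr (Finset.mem_powersetCard.mp hE).1
  have h2 : ∏ e ∈ T, (1 + 32 * w e) ≤ Real.exp (∑ e ∈ T, 32 * w e) := by
    rw [Real.exp_sum]
    refine Finset.prod_le_prod (fun e _ => by have := hw e; positivity) fun e _ => ?_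
    linarith [Real.add_one_le_exp (32 * w e)]
  have h3 : Real.exp (∑ e ∈ T, 32 * w e) ≤ 3 ^ m := by
    rw [← Finset.mul_sum]
    calc Real.exp (32 * ∑ e ∈ T, w e) ≤ Real.exp (m * 1) := Real.exp_le_exp.mpr (by linarith)
      _ = Real.exp 1 ^ m := Real.exp_nat_mul 1 m
      _ ≤ 3 ^ m := pow_le_pow_left₀ (Real.exp_pos _).le
          (by have := Real.exp_one_lt_d9; linarith) m
  have h4 : ∑ E ∈ T.powersetCard m, ∏ e ∈ E, (32 * w e) =
      32 ^ m * ∑ E ∈ T.powersetCard m, ∏ e ∈ E, w e := by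
    rw [Finset.mul_sum]
    refine Finset.sum_congr rfl fun E hE => ?_
    rw [Finset.prod_mul_distrib, Finset.prod_const, (Finset.mem_powersetCard.mp hE).2]
  rw [div_pow, le_div_iff₀ (by positivity)]
  linarith

/-- The multi-scale lemma. -/
lemma multiscale (rk : Finset α → α → ℕ) (F : Finset (Finset α))
    (hrk : ∀ A ∈ F, Set.InjOn (rk A) A) (p : ℝ) (hp : 0 < p) (R : ℕ) (P : ℕ → ℝ)
    (hP0 : ∀ a, 0 ≤ P a) (hP : ∑ a ∈ range (R + 1), P a = 1)
    (hPa : ∀ a < R, P a = 256 * 8 ^ a * p)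
    (hns : ∀ G : Finset (Finset α), (∀ A ∈ F, ∃ S ∈ G, S ⊆ A) → 1 / 2 < ∑ S ∈ G, p ^ S.card) :
    ∑ τ ∈ Fintype.piFinset (fun _ : α => range (R + 1)),
      (∏ x, P (τ x)) * ind (∀ A ∈ F, (UU rk τ A).Nonempty) ≤ 1 / 4 := by
  classical
  set Ω := Fintype.piFinset (fun _ : α => range (R + 1)) with hΩ
  have hsel : ∀ (τ : α → ℕ) (A : Finset α), ∃ A', A ∈ F → (A' ∈ F ∧ UU rk τ A' ⊆ A ∧
      ∀ A'' ∈ F, UU rk τ A'' ⊆ A → ∑ i ∈ range R, (XX rk τ A' i).card ≤
        ∑ i ∈ range R, (XX rk τ A'' i).card) := by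
    intro τ A
    by_cases hA : A ∈ F
    · obtain ⟨A', h1, h2⟩ := Finset.exists_min_image (F.filter fun A' => UU rk τ A' ⊆ A)
        (fun A' => ∑ i ∈ range R, (XX rk τ A' i).card)
        ⟨A, Finset.mem_filter.mpr ⟨hA, UU_subset τ A⟩⟩
      exact ⟨A', fun _ => ⟨(Finset.mem_filter.mp h1).1, (Finset.mem_filter.mp h1).2,
        fun A'' h3 h4 => h2 A'' (Finset.mem_filter.mpr ⟨h3, h4⟩)⟩⟩
    · exact ⟨A, fun h => absurd h hA⟩
  choose sel hsel using hsel
  set bad : Finset (α → ℕ) := Ω.filter (fun τ => ∀ A ∈ F, (UU rk τ A).Nonempty) with hbad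
  set cov : (α → ℕ) → Finset (Finset α) := fun τ => F.image (fun A => UU rk τ (sel τ A)) with hcov
  have hcov1 : ∀ τ, 1 / 2 < ∑ S ∈ cov τ, p ^ S.card := fun τ => hns _ fun A hA =>
    ⟨_, Finset.mem_image_of_mem _ hA, (hsel τ A hA).2.1⟩
  -- witnesses
  have hwit : ∀ (τ : α → ℕ) (U : Finset α), ∃ A', U ∈ cov τ → (A' ∈ F ∧ UU rk τ A' = U ∧
      ∀ A'' ∈ F, UU rk τ A'' ⊆ U → ∑ i ∈ range R, (XX rk τ A' i).card ≤
        ∑ i ∈ range R, (XX rk τ A'' i).card) := by
    intro τ U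
    by_cases hU : U ∈ cov τ
    · obtain ⟨A, hA, rfl⟩ := Finset.mem_image.mp hU
      exact ⟨sel τ A, fun _ => ⟨(hsel τ A hA).1, rfl, fun A'' h1 h2 =>
        (hsel τ A hA).2.2 A'' h1 (h2.trans (hsel τ A hA).2.1)⟩⟩
    · exact ⟨∅, fun h => absurd h hU⟩
  choose wit hwit using hwit
  have hcan : ∀ (τ' : α → ℕ) (M : ℕ → ℕ) (m : ℕ), ∃ A'', (∃ A ∈ F, Adm rk τ' M m A) →
      (A'' ∈ F ∧ Adm rk τ' M m A'') := by
    intro τ' M m
    by_cases h : ∃ A ∈ F, Adm rk τ' M m A
    · obtain ⟨A, h1⟩ := h; exact ⟨A, fun _ => h1⟩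
    · exact ⟨∅, fun h' => absurd h' h⟩
  choose can hcan using hcan
  set s : Finset (Σ _ : α → ℕ, Finset α) := bad.sigma cov with hs
  let t' : (Σ _ : α → ℕ, Finset α) → α → ℕ := fun z => tau' rk z.1 (wit z.1 z.2)
  let MM : (Σ _ : α → ℕ, Finset α) → ℕ → ℕ := fun z i => (XX rk z.1 (wit z.1 z.2) i).card
  let cn : (Σ _ : α → ℕ, Finset α) → Finset α := fun z => can (t' z) (MM z) z.2.card
  let code : (Σ _ : α → ℕ, Finset α) → α → (Σ _ : ℕ, ℕ × ℕ) :=
    fun z x => ⟨t' z x, rk (cn z) x, z.1 x⟩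
  let EE : (Σ _ : α → ℕ, Finset α) → Finset (Σ _ : ℕ, ℕ × ℕ) := fun z => z.2.image (code z)
  have hmem : ∀ z ∈ s, z.1 ∈ Ω ∧ (∀ A ∈ F, (UU rk z.1 A).Nonempty) ∧ z.2 ∈ cov z.1 := by
    intro z hz
    rw [hs, Finset.mem_sigma, hbad, Finset.mem_filter] at hz
    exact ⟨hz.1.1, hz.1.2, hz.2⟩
  have hτR : ∀ z ∈ s, ∀ x, z.1 x ≤ R := by
    intro z hz x
    have := Fintype.mem_piFinset.mp (hmem z hz).1 x
    rw [Finset.mem_range] at this; omega
  have hkey : ∀ z ∈ s, cn z ∈ F ∧ ∀ x ∈ z.2, x ∈ cn z ∧ t' z x < z.1 x ∧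
      rk (cn z) x < 4 ^ (t' z x + 1) * z.2.card := by
    intro z hz
    obtain ⟨h1, h2, h3⟩ := hwit z.1 z.2 (hmem z hz).2.2
    have hadm := adm_self (rk := rk) z.1 (wit z.1 z.2)
    have h4 := hcan (t' z) (MM z) z.2.card ⟨wit z.1 z.2, h1, by
      have := hadm; rw [h2] at this; exact this⟩
    have h5 : Adm rk (tau' rk z.1 (wit z.1 z.2)) (fun i => (XX rk z.1 (wit z.1 z.2) i).card)
        (UU rk z.1 (wit z.1 z.2)).card (cn z) := by rw [h2]; exact h4.2
    have h6 := adm_sub h5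
    have h7 : UU rk z.1 (cn z) ⊆ z.2 := by
      intro x hx
      obtain ⟨i, hi⟩ := mem_UU.mp hx
      rw [← h2]; exact mem_UU.mpr ⟨i, (h6 i).1 hi⟩
    have h8 := h3 (cn z) h4.1 h7
    have h9 : ∀ i ∈ range R, (XX rk z.1 (cn z) i).card = (XX rk z.1 (wit z.1 z.2) i).card :=
      (Finset.sum_eq_sum_iff_of_le (fun i _ => Finset.card_le_card (h6 i).1)).mp
        (le_antisymm (Finset.sum_le_sum fun i _ => Finset.card_le_card (h6 i).1) h8)
    refine ⟨h4.1, fun x hx => ?_⟩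
    have hxU : x ∈ UU rk z.1 (wit z.1 z.2) := by rw [h2]; exact hx
    have hlt : t' z x < z.1 x := tau'_lt hxU
    have hiR : t' z x ∈ range R := Finset.mem_range.mpr (hlt.trans_le (hτR z hz x))
    have heq : XX rk z.1 (cn z) (t' z x) = XX rk z.1 (wit z.1 z.2) (t' z x) :=
      Finset.eq_of_subset_of_card_le (h6 _).1 (h9 _ hiR).ge
    have hx2 : x ∈ XX rk z.1 (cn z) (t' z x) := by rw [heq]; exact mem_XX_tau' hxU
    refine ⟨(mem_XX.mp hx2).1, hlt, ?_⟩
    have := (h6 _).2 x hx2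
    rwa [h2] at this
  have hinj : ∀ z ∈ s, Set.InjOn (code z) z.2 := by
    intro z hz x hx y hy h
    have h1 : rk (cn z) x = rk (cn z) y := congrArg (fun e : (Σ _ : ℕ, ℕ × ℕ) => e.2.1) h
    exact hrk _ (hkey z hz).1 ((hkey z hz).2 x hx).1 ((hkey z hz).2 y hy).1 h1
  have hcard : ∀ z ∈ s, (EE z).card = z.2.card := fun z hz => Finset.card_image_of_injOn (hinj z hz)
  have hMM : ∀ z ∈ s, MM z = fun i => ((EE z).filter (fun e => e.1 ≤ i ∧ i < e.2.2)).card := by
    intro z hz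
    funext i
    obtain ⟨h1, h2, h3⟩ := hwit z.1 z.2 (hmem z hz).2.2
    simp only [EE, MM]
    rw [Finset.filter_image, Finset.card_image_of_injOn
      ((hinj z hz).mono (Finset.coe_subset.mpr (Finset.filter_subset _ _)))]
    congr 1
    ext x
    rw [Finset.mem_filter]
    constructor
    · intro hx
      refine ⟨?_, mem_XX_iff.mp hx⟩
      rw [← h2]; exact mem_UU.mpr ⟨i, hx⟩
    · intro hx; exact mem_XX_iff.mpr hx.2
  have hoff : ∀ z ∈ s, ∀ x, x ∉ z.2 → t' z x = z.1 x := by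
    intro z hz x hx
    obtain ⟨h1, h2, h3⟩ := hwit z.1 z.2 (hmem z hz).2.2
    exact tau'_of_notMem (by rw [h2]; exact hx)
  let t : Finset ((α → ℕ) × (Σ _ : ℕ, Finset (Σ _ : ℕ, ℕ × ℕ))) :=
    Ω ×ˢ (range (Fintype.card α)).sigma (fun m => (Tri R (m + 1)).powersetCard (m + 1))
  have hmain := sum_le_of_inj s t (fun z => (t' z, ⟨z.2.card - 1, EE z⟩))
    (fun z => (∏ x, P (z.1 x)) * p ^ z.2.card)
    (fun y => (∏ x, P (y.1 x)) * ∏ e ∈ y.2.2, P e.2.2 / (256 * 8 ^ e.1)) (by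
      intro z hz
      obtain ⟨h1, h2, h3⟩ := hwit z.1 z.2 (hmem z hz).2.2
      have hpos : 0 < z.2.card := by
        rw [← h2]; exact ((hmem z hz).2.1 _ h1).card_pos
      have hle : z.2.card ≤ Fintype.card α := Finset.card_le_univ _
      rw [Finset.mem_product, Finset.mem_sigma, Finset.mem_powersetCard]
      refine ⟨Fintype.mem_piFinset.mpr fun x => Finset.mem_range.mpr ?_,
        Finset.mem_range.mpr (by show z.2.card - 1 < _; omega), ?_, ?_⟩
      · exact Nat.lt_succ_of_le ((tau'_le _ _ x).trans (hτR z hz x))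
      · intro e he
        obtain ⟨x, hx, rfl⟩ := Finset.mem_image.mp he
        obtain ⟨h4, h5, h6⟩ := (hkey z hz).2 x hx
        have h7 := hτR z hz x
        have h8 : z.2.card - 1 + 1 = z.2.card := by omega
        simp only [Tri, code, Finset.mem_sigma, Finset.mem_range, Finset.mem_product, h8]
        exact ⟨by omega, h6, by omega⟩
      · show (EE z).card = z.2.card - 1 + 1
        rw [hcard z hz]; omega)
    (by
      intro z hz z' hz' h
      have ht : t' z = t' z' := congrArg Prod.fst h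
      have hE : EE z = EE z' :=
        congrArg (fun y : (α → ℕ) × (Σ _ : ℕ, Finset (Σ _ : ℕ, ℕ × ℕ)) => y.2.2) h
      have hcn : cn z = cn z' := by
        simp only [cn]; rw [hMM z hz, hMM z' hz', ← hcard z hz, ← hcard z' hz', ht, hE]
      have hone : ∀ z ∈ s, ∀ z' ∈ s, EE z = EE z' → cn z = cn z' → ∀ x ∈ z.2,
          x ∈ z'.2 ∧ z.1 x = z'.1 x := by
        intro z hz z' hz' hE hcn x hx
        have : code z x ∈ EE z' := hE ▸ Finset.mem_image_of_mem _ hx
        obtain ⟨y, hy, hxy⟩ := Finset.mem_image.mp this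
        have h1 : rk (cn z') y = rk (cn z) x := congrArg (fun e : (Σ _ : ℕ, ℕ × ℕ) => e.2.1) hxy
        have h2 : z'.1 y = z.1 x := congrArg (fun e : (Σ _ : ℕ, ℕ × ℕ) => e.2.2) hxy
        rw [← hcn] at h1
        have h3 : y = x := hrk _ (hkey z hz).1 (hcn ▸ ((hkey z' hz').2 y hy).1)
          ((hkey z hz).2 x hx).1 h1
        subst h3
        exact ⟨hy, h2.symm⟩
      have h2 : z.2 = z'.2 := Finset.Subset.antisymm (fun x hx => (hone z hz z' hz' hE hcn x hx).1)
        (fun x hx => (hone z' hz' z hz hE.symm hcn.symm x hx).1)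
      have h1 : z.1 = z'.1 := by
        funext x
        by_cases hx : x ∈ z.2
        · exact (hone z hz z' hz' hE hcn x hx).2
        · rw [← hoff z hz x hx, ← hoff z' hz' x (h2 ▸ hx), ht]
      obtain ⟨a, b⟩ := z
      obtain ⟨a', b'⟩ := z'
      simp only at h1 h2
      subst h1; subst h2; rfl)
    (by
      intro z hz
      apply le_of_eq
      show _ = (∏ x, P (t' z x)) * ∏ e ∈ EE z, P e.2.2 / (256 * 8 ^ e.1)
      rw [Finset.prod_image (hinj z hz), ← Finset.prod_mul_prod_compl z.2,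
        ← Finset.prod_mul_prod_compl z.2 (fun x => P (t' z x)),
        Finset.prod_congr rfl (fun x hx => by rw [hoff z hz x (Finset.mem_compl.mp hx)] :
          ∀ x ∈ z.2ᶜ, P (t' z x) = P (z.1 x)), ← Finset.prod_const, mul_right_comm,
        mul_right_comm _ (∏ x ∈ z.2ᶜ, P (z.1 x)), ← Finset.prod_mul_distrib,
        ← Finset.prod_mul_distrib]
      congr 1
      refine Finset.prod_congr rfl fun x hx => ?_
      rw [hPa _ (((hkey z hz).2 x hx).2.1.trans_le (hτR z hz x))]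
      simp only [code]; field_simp)
    (by
      intro y _
      exact mul_nonneg (Finset.prod_nonneg fun _ _ => hP0 _)
        (Finset.prod_nonneg fun e _ => div_nonneg (hP0 _) (by positivity)))
  have hW : ∑ τ ∈ Ω, ∏ x, P (τ x) = 1 := by
    rw [hΩ, ← Finset.prod_univ_sum (fun _ : α => range (R + 1)) (fun _ a => P a)]
    simp [hP]
  have hR : ∑ y ∈ t, (∏ x, P (y.1 x)) * ∏ e ∈ y.2.2, P e.2.2 / (256 * 8 ^ e.1) ≤ 1 / 8 := by
    simp only [t]
    rw [Finset.sum_product]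
    simp only [← Finset.mul_sum]
    rw [← Finset.sum_mul, hW, one_mul, Finset.sum_sigma]
    have h1 : ∀ m ∈ range (Fintype.card α), ∑ E ∈ (Tri R (m + 1)).powersetCard (m + 1),
        ∏ e ∈ E, P e.2.2 / (256 * 8 ^ e.1) ≤ 3 / 32 * (3 / 32) ^ m := by
      intro m _
      rw [← pow_succ']
      exact sum_powersetCard_le _ _ (fun e => div_nonneg (hP0 _) (by positivity)) _
        (sum_Tri R (m + 1) P hP)
    refine (Finset.sum_le_sum h1).trans ?_
    rw [← Finset.mul_sum]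
    have := geom_le (3 / 32) (by norm_num) (by norm_num) (Fintype.card α)
    linarith
  have hL : 1 / 2 * ∑ τ ∈ Ω, (∏ x, P (τ x)) * ind (∀ A ∈ F, (UU rk τ A).Nonempty) ≤
      ∑ z ∈ s, (∏ x, P (z.1 x)) * p ^ z.2.card := by
    rw [hs, Finset.sum_sigma, hbad, Finset.sum_filter, Finset.mul_sum]
    refine Finset.sum_le_sum fun τ _ => ?_
    have h0 : 0 ≤ ∏ x, P (τ x) := Finset.prod_nonneg fun _ _ => hP0 _
    split_ifs with h
    · dsimp only
      rw [ind_pos h, ← Finset.mul_sum]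
      have := hcov1 τ
      nlinarith
    · rw [ind_neg h]; simp
  linarith

end Crest.Agent.Tal
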