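import Crest.Agent.Tal.Embed

/-! Embedding star forests by sequential exposure. -/

set_option autoImplicit false
set_option linter.unnecessarySeqFocus false
set_option linter.unusedSectionVars false

namespace Crest.Agent.Tal
open Finset Crest.CombinatoricsR.RandomGraph

variable {W : Type} [DecidableEq W] {Y : Type} [Fintype Y] [DecidableEq Y]

/-- stars are found -/
def Succ (dm : W → ℕ) (k : ℕ) (A : Finset W) (Y' : Finset Y) (ω : Fin k → Y → Bool) : Prop :=
  ∃ (c : W → ℕ) (L : W → Finset Y), Set.InjOn c A ∧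
    (∀ a ∈ A, L a ⊆ Y' ∧ (L a).card = dm a ∧ ∃ h : c a < k, ∀ y ∈ L a, ω ⟨c a, h⟩ y = true) ∧
    ∀ a ∈ A, ∀ a' ∈ A, a ≠ a' → Disjoint (L a) (L a')

/-- degrees dominate demands -/
def Good (dm : W → ℕ) (k : ℕ) (A : Finset W) (δ : Fin k → ℕ) : Prop :=
  ∀ d, 1 ≤ d → (A.filter (fun a => d ≤ dm a)).card ≤ (univ.filter (fun u => d ≤ δ u)).card

lemma card_filter_cons {k : ℕ} (t : ℕ) (δ : Fin k → ℕ) (d : ℕ) :
    (univ.filter (fun u : Fin (k + 1) => d ≤ (Fin.cons t δ : Fin (k + 1) → ℕ) u)).card =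
      (if d ≤ t then 1 else 0) + (univ.filter (fun u => d ≤ δ u)).card := by
  rw [Finset.card_filter, Finset.card_filter, Fin.sum_univ_succ]
  simp

lemma good_step {dm : W → ℕ} {k : ℕ} {A : Finset W} {t : ℕ} {δ : Fin k → ℕ}
    (h : Good dm (k + 1) A (Fin.cons t δ)) (A' : Finset W) (hA : A' ⊆ A) (v : ℕ)
    (h1 : ∀ a ∈ A', dm a ≤ t → dm a ≤ v)
    (h2 : ∀ d, 1 ≤ d → d ≤ v → (A'.filter (fun a => d ≤ dm a)).card + 1 ≤
      (A.filter (fun a => d ≤ dm a)).card) : Good dm k A' δ := by
  intro d hd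
  have hmono : ∀ e, (A'.filter (fun a => e ≤ dm a)).card ≤ (A.filter (fun a => e ≤ dm a)).card :=
    fun e => Finset.card_le_card (Finset.filter_subset_filter _ hA)
  by_cases hv : d ≤ v
  · have h3 := h d hd
    rw [card_filter_cons] at h3
    have := h2 d hd hv
    split_ifs at h3 <;> omega
  by_cases ht : d ≤ t
  · have h3 := h (t + 1) (by omega)
    rw [card_filter_cons, if_neg (by omega), zero_add] at h3
    have h4 : (A'.filter (fun a => d ≤ dm a)).card ≤ (A'.filter (fun a => t + 1 ≤ dm a)).card := by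
      refine Finset.card_le_card fun a ha => ?_
      rw [Finset.mem_filter] at ha ⊢
      refine ⟨ha.1, ?_⟩
      by_contra hc
      have := h1 a ha.1 (by omega)
      omega
    have h5 : (univ.filter (fun u => t + 1 ≤ δ u)).card ≤ (univ.filter (fun u => d ≤ δ u)).card := by
      refine Finset.card_le_card fun a ha => ?_
      rw [Finset.mem_filter] at ha ⊢
      exact ⟨ha.1, by omega⟩
    have := hmono (t + 1)
    omega
  · have h3 := h d hd
    rw [card_filter_cons, if_neg ht, zero_add] at h3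
    exact (hmono d).trans h3

lemma star_seq {p : ℝ} (hp0 : 0 ≤ p) (hp1 : p ≤ 1) (dm : W → ℕ) (y0 : ℕ) (k : ℕ) :
    ∀ (A : Finset W) (Y' : Finset Y), (∀ a ∈ A, 1 ≤ dm a) → y0 + ∑ a ∈ A, dm a ≤ Y'.card →
    PE (fun _ : Fin k => rw' p) (fun x : Fin k → Fin y0 → Bool =>
      ind (Good dm k A (fun u => (toSet (x u)).card))) ≤
    PE (fun _ : Fin k => rw' p) (fun ω : Fin k → Y → Bool => ind (Succ dm k A Y' ω)) := by
  induction k with
  | zero =>
    intro A Y' hA _
    by_cases h : A = ∅
    · subst h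
      refine le_trans (PE_ind_le_one (fun _ => rw'_nonneg hp0 hp1) (fun _ => rw'_sum p) _) ?_
      rw [PE_congr _ (g := fun _ => 1), PE_const (fun _ => rw'_sum p)]
      intro ω
      exact ind_pos ⟨fun _ => 0, fun _ => ∅, by simp, by simp, by simp⟩
    · refine le_trans (le_of_eq ?_) (PE_nonneg (fun _ => rw'_nonneg hp0 hp1) fun _ => ind_nonneg _)
      rw [PE_congr _ (g := fun _ => 0), PE_const (fun _ => rw'_sum p)]
      intro x
      refine ind_neg fun hg => h ?_
      have := hg 1 le_rfl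
      rw [Finset.filter_true_of_mem hA] at this
      simpa using this
  | succ k ih =>
    intro A Y' hA hY
    obtain ⟨Y0, hY0, hY0c⟩ := Finset.exists_subset_card_eq (s := Y') (n := y0) (by omega)
    let e : Fin y0 → Y := fun i => (Y0.equivFinOfCardEq hY0c).symm i
    have he : Function.Injective e :=
      Subtype.val_injective.comp (Y0.equivFinOfCardEq hY0c).symm.injective
    have heY : ∀ i, e i ∈ Y' := fun i => hY0 ((Y0.equivFinOfCardEq hY0c).symm i).2
    rw [PE_cons, PE_cons, sum_rw', sum_rw']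
    unfold E
    rw [← PE_restrict (bw_sum p) e he]
    refine E_mono hp0 hp1 fun N0 => ?_
    set t := (toSet fun i => N0 (e i)).card with ht
    have hcons : ∀ x : Fin k → Fin y0 → Bool,
        (fun u => (toSet ((Fin.cons (fun i => N0 (e i)) x : Fin (k + 1) → Fin y0 → Bool) u)).card) =
          Fin.cons t (fun u => (toSet (x u)).card) := by
      intro x; funext u
      refine Fin.cases ?_ (fun u => ?_) u <;> simp [ht]
    simp only [hcons]
    by_cases hex : ∃ a ∈ A, dm a ≤ t
    · obtain ⟨a0, ha0, hmax⟩ := Finset.exists_max_image (A.filter (fun a => dm a ≤ t)) dm (by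
        obtain ⟨a, h1, h2⟩ := hex; exact ⟨a, Finset.mem_filter.mpr ⟨h1, h2⟩⟩)
      rw [Finset.mem_filter] at ha0
      obtain ⟨L0, hL0, hL0c⟩ := Finset.exists_subset_card_eq
        (s := (toSet fun i => N0 (e i)).image e) (n := dm a0)
        (by rw [Finset.card_image_of_injective _ he]; exact ha0.2)
      have hL0' : ∀ y ∈ L0, y ∈ Y' ∧ N0 y = true := by
        intro y hy
        obtain ⟨i, hi, rfl⟩ := Finset.mem_image.mp (hL0 hy)
        exact ⟨heY i, mem_toSet (ω := fun i => N0 (e i)).mp hi⟩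
      have hsub : L0 ⊆ Y' := fun y hy => (hL0' y hy).1
      have ih' := ih (A.erase a0) (Y' \ L0) (fun a ha => hA a (Finset.mem_of_mem_erase ha)) (by
        rw [Finset.card_sdiff_of_subset hsub, hL0c]
        have := Finset.add_sum_erase A dm ha0.1
        omega)
      refine le_trans (PE_mono (fun _ => rw'_nonneg hp0 hp1) fun x => ind_mono fun hg => ?_)
        (ih'.trans (PE_mono (fun _ => rw'_nonneg hp0 hp1) fun ω => ind_mono ?_))
      · refine good_step hg _ (Finset.erase_subset _ _) (dm a0) (fun a ha h =>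
          hmax a (Finset.mem_filter.mpr ⟨Finset.mem_of_mem_erase ha, h⟩)) fun d _ hd => ?_
        rw [Finset.filter_erase, Finset.card_erase_add_one]
        exact Finset.mem_filter.mpr ⟨ha0.1, hd⟩
      · rintro ⟨c, L, h1, h2, h3⟩
        refine ⟨fun a => if a = a0 then 0 else c a + 1, fun a => if a = a0 then L0 else L a,
          ?_, ?_, ?_⟩
        · intro a ha b hb h
          by_cases h4 : a = a0 <;> by_cases h5 : b = a0
          · rw [h4, h5]
          · simp [h4, h5] at h
          · simp [h4, h5] at h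
          · simp only [if_neg h4, if_neg h5, add_left_inj] at h
            exact h1 (Finset.mem_coe.mpr (Finset.mem_erase.mpr ⟨h4, ha⟩))
              (Finset.mem_coe.mpr (Finset.mem_erase.mpr ⟨h5, hb⟩)) h
        · intro a ha
          by_cases h4 : a = a0
          · simp only [if_pos h4]
            exact ⟨hsub, h4 ▸ hL0c, by omega, fun y hy => by simpa using (hL0' y hy).2⟩
          · simp only [if_neg h4]
            obtain ⟨h5, h6, h7, h8⟩ := h2 a (Finset.mem_erase.mpr ⟨h4, ha⟩)
            exact ⟨h5.trans Finset.sdiff_subset, h6, by omega, fun y hy => h8 y hy⟩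
        · intro a ha b hb hab
          by_cases h4 : a = a0 <;> by_cases h5 : b = a0
          · exact absurd (h4.trans h5.symm) hab
          · simp only [if_pos h4, if_neg h5]
            exact Finset.disjoint_of_subset_right (h2 b (Finset.mem_erase.mpr ⟨h5, hb⟩)).1
              Finset.disjoint_sdiff
          · simp only [if_neg h4, if_pos h5]
            exact Finset.disjoint_of_subset_left (h2 a (Finset.mem_erase.mpr ⟨h4, ha⟩)).1
              Finset.sdiff_disjoint
          · simp only [if_neg h4, if_neg h5]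
            exact h3 a (Finset.mem_erase.mpr ⟨h4, ha⟩) b (Finset.mem_erase.mpr ⟨h5, hb⟩) hab
    · push Not at hex
      have ih' := ih A Y' hA hY
      refine le_trans (PE_mono (fun _ => rw'_nonneg hp0 hp1) fun x => ind_mono fun hg => ?_)
        (ih'.trans (PE_mono (fun _ => rw'_nonneg hp0 hp1) fun ω => ind_mono ?_))
      · exact good_step hg _ (Finset.Subset.refl _) 0 (fun a ha h => absurd h (not_le.mpr (hex a ha)))
          fun d h1 h2 => by omega
      · rintro ⟨c, L, h1, h2, h3⟩
        refine ⟨fun a => c a + 1, L, fun a ha b hb h => h1 ha hb (by simpa using h), ?_, h3⟩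
        intro a ha
        obtain ⟨h5, h6, h7, h8⟩ := h2 a ha
        exact ⟨h5, h6, Nat.succ_lt_succ h7, fun y hy => h8 y hy⟩

lemma good_prob {p : ℝ} (hp0 : 0 ≤ p) (hp1 : p ≤ 1) (dm : W → ℕ) (y0 k : ℕ) (A : Finset W)
    (h : ∀ d : ℕ, 1 ≤ d → 8 * ((A.filter (fun a => d ≤ dm a)).card : ℝ) * d ≤
      k * E p (fun x : Fin y0 → Bool => ind (d ≤ (toSet x).card))) :
    1 / 2 ≤ PE (fun _ : Fin k => rw' p) (fun x : Fin k → Fin y0 → Bool =>
      ind (Good dm k A (fun u => (toSet (x u)).card))) := by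
  have hw0 : ∀ (_ : Fin k) (x : Fin y0 → Bool), 0 ≤ rw' p x := fun _ => rw'_nonneg hp0 hp1
  have h1 := PE_ind_not (w := fun _ : Fin k => rw' p) (fun _ => rw'_sum _)
    (fun x : Fin k → Fin y0 → Bool => Good dm k A (fun u => (toSet (x u)).card))
  suffices h2 : PE (fun _ : Fin k => rw' p) (fun x : Fin k → Fin y0 → Bool =>
      ind (¬ Good dm k A (fun u => (toSet (x u)).card))) ≤ 1 / 2 by linarith
  have h3 : ∀ x : Fin k → Fin y0 → Bool, ind (¬ Good dm k A (fun u => (toSet (x u)).card)) ≤
      ∑ d ∈ range (∑ a ∈ A, dm a), ind (∑ u, ind (d + 1 ≤ (toSet (x u)).card) <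
        ((A.filter (fun a => d + 1 ≤ dm a)).card : ℝ)) := by
    intro x
    refine le_trans (ind_mono fun hg => ?_) (ind_exists_le _ _)
    unfold Good at hg
    push Not at hg
    obtain ⟨d, hd, hg⟩ := hg
    obtain ⟨a, ha⟩ := Finset.card_pos.mp (lt_of_le_of_lt (Nat.zero_le _) hg)
    rw [Finset.mem_filter] at ha
    have := Finset.single_le_sum (f := dm) (fun _ _ => Nat.zero_le _) ha.1
    refine ⟨d - 1, Finset.mem_range.mpr (by omega), ?_⟩
    rw [Nat.sub_add_cancel hd, sum_ind_eq_card]
    exact_mod_cast hg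
  refine (PE_mono hw0 h3).trans ?_
  rw [PE_sum]
  have h4 : ∀ d ∈ range (∑ a ∈ A, dm a), PE (fun _ : Fin k => rw' p)
      (fun x : Fin k → Fin y0 → Bool => ind (∑ u, ind (d + 1 ≤ (toSet (x u)).card) <
        ((A.filter (fun a => d + 1 ≤ dm a)).card : ℝ))) ≤ 1 / 4 * (1 / 4) ^ d := by
    intro d _
    rcases Nat.eq_zero_or_pos (A.filter (fun a => d + 1 ≤ dm a)).card with h0 | h0
    · rw [h0, PE_congr _ (g := fun _ => 0), PE_const (fun _ => rw'_sum p)]
      · positivity
      · intro x
        exact ind_neg (not_lt.mpr (by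
          push_cast; exact Finset.sum_nonneg fun _ _ => ind_nonneg _))
    refine (PE_lower hw0 (fun _ => rw'_sum _) (fun _ x => d + 1 ≤ (toSet x).card) _).trans ?_
    simp only [sum_rw', Finset.sum_const, Finset.card_univ, Fintype.card_fin, nsmul_eq_mul]
    have h5 := h (d + 1) (by omega)
    have h6 : (1 : ℝ) ≤ (A.filter (fun a => d + 1 ≤ dm a)).card := by exact_mod_cast h0
    have h7 : (0 : ℝ) ≤ d := by positivity
    push_cast at h5
    have h8 : Real.exp (-3) ≤ 1 / 4 := by
      rw [Real.exp_neg, one_div]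
      exact inv_anti₀ (by norm_num) (by linarith [Real.add_one_le_exp 3])
    calc _ ≤ Real.exp (((d + 1 : ℕ) : ℝ) * (-3)) := Real.exp_le_exp.mpr (by push_cast; nlinarith)
      _ = Real.exp (-3) ^ (d + 1) := Real.exp_nat_mul _ _
      _ ≤ (1 / 4) ^ (d + 1) := pow_le_pow_left₀ (Real.exp_pos _).le h8 _
      _ = _ := by ring
  refine (Finset.sum_le_sum h4).trans ?_
  rw [← Finset.mul_sum]
  have := geom_le (1 / 4) (by norm_num) (by norm_num) (∑ a ∈ A, dm a)
  linarith

lemma pi_lower1 {p : ℝ} (hp0 : 0 ≤ p) (hp1 : p ≤ 1) (y0 d : ℕ) :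
    (y0.choose d : ℝ) * p ^ d * (1 - p) ^ y0 ≤
      E p (fun x : Fin y0 → Bool => ind (d ≤ (toSet x).card)) := by
  rw [E_eq_sum p (fun S => ind (d ≤ S.card))]
  have h0 : 0 ≤ 1 - p := by linarith
  refine le_trans ?_ (Finset.sum_le_sum_of_subset_of_nonneg
    (Finset.subset_univ ((univ : Finset (Fin y0)).powersetCard d))
    fun S _ _ => mul_nonneg (by positivity) (ind_nonneg _))
  have h1 : ∀ S ∈ (univ : Finset (Fin y0)).powersetCard d, p ^ d * (1 - p) ^ y0 ≤
      p ^ S.card * (1 - p) ^ (Fintype.card (Fin y0) - S.card) * ind (d ≤ S.card) := by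
    intro S hS
    rw [(Finset.mem_powersetCard.mp hS).2, ind_pos le_rfl, mul_one, Fintype.card_fin]
    exact mul_le_mul_of_nonneg_left (pow_le_pow_of_le_one h0 (by linarith) (by omega))
      (by positivity)
  refine le_trans (le_of_eq ?_) (Finset.sum_le_sum h1)
  simp [mul_assoc]

lemma pi_lower2 {p : ℝ} (hp0 : 0 ≤ p) (hp1 : p ≤ 1) (y0 d : ℕ) (hd : 1 ≤ d)
    (h : 16 * (d : ℝ) ≤ y0 * p) :
    1 / 2 ≤ E p (fun x : Fin y0 → Bool => ind (d ≤ (toSet x).card)) := by
  have h1 := PE_lower (w := fun _ : Fin y0 => bw p) (fun _ => bw_nonneg hp0 hp1)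
    (fun _ => bw_sum p) (fun _ a => a = true) d
  have h2 := PE_ind_not (w := fun _ : Fin y0 => bw p) (fun _ => bw_sum p)
    (fun x => d ≤ (toSet x).card)
  have h3 : PE (fun _ : Fin y0 => bw p) (fun x => ind (¬ d ≤ (toSet x).card)) =
      PE (fun _ : Fin y0 => bw p) (fun x => ind (∑ i, ind (x i = true) < (d : ℝ))) := by
    refine PE_congr _ fun x => ind_congr ?_
    rw [sum_ind_eq_card, not_le]
    exact Nat.cast_lt.symm
  have h4 : ∑ _i : Fin y0, ∑ a, bw p a * ind (a = true) = y0 * p := by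
    simp [ind_eq_ite]
  rw [h4] at h1
  have hd' : (1 : ℝ) ≤ d := by exact_mod_cast hd
  have h5 : Real.exp (d - y0 * p / 2) ≤ 1 / 2 := by
    calc _ ≤ Real.exp (-1) := Real.exp_le_exp.mpr (by linarith)
      _ ≤ 1 / 2 := by
        rw [Real.exp_neg, one_div]
        exact inv_anti₀ (by norm_num) (by linarith [Real.add_one_le_exp 1])
  unfold E; linarith

variable {n : ℕ} [Fintype W]

lemma star_embed (d0 : EdgeSlot n) (hW : Fintype.card W ≤ n) {p : ℝ} (hp0 : 0 ≤ p) (hp1 : p ≤ 1)
    (R : W → W → Prop) [DecidableRel R] (huniq : ∀ b a a', R b a → R b a' → a = a')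
    (hbip : ∀ b a a', R b a → ¬ R a a') (k y0 : ℕ) (hk : k < n)
    (hsize : y0 + (univ.filter (fun b => ∃ a, R b a)).card ≤ n - k)
    (h : ∀ d : ℕ, 1 ≤ d → 8 * ((univ.filter (fun a =>
      d ≤ (univ.filter (fun b => R b a)).card)).card : ℝ) * d ≤
      k * E p (fun x : Fin y0 → Bool => ind (d ≤ (toSet x).card))) :
    1 / 2 ≤ E p (fun ω : EdgeSlot n → Bool => ind (Contains R ω)) := by
  classical
  set dm : W → ℕ := fun a => (univ.filter (fun b => R b a)).card with hdm
  set A : Finset W := univ.filter (fun a => 1 ≤ dm a) with hA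
  have h1 := good_prob hp0 hp1 dm y0 k A (by
    intro d hd
    have : A.filter (fun a => d ≤ dm a) = univ.filter (fun a => d ≤ dm a) := by
      ext a; simp only [hA, Finset.mem_filter, Finset.mem_univ, true_and]; omega
    rw [this]; exact h d hd)
  have hsum : ∑ a ∈ A, dm a ≤ (univ.filter (fun b => ∃ a, R b a)).card := by
    rw [← Finset.card_biUnion]
    · refine Finset.card_le_card fun b hb => ?_
      obtain ⟨a, _, ha⟩ := Finset.mem_biUnion.mp hb
      exact Finset.mem_filter.mpr ⟨Finset.mem_univ _, a, (Finset.mem_filter.mp ha).2⟩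
    · intro a _ a' _ haa
      refine Finset.disjoint_left.mpr fun b hb hb' => haa ?_
      exact huniq b a a' (Finset.mem_filter.mp hb).2 (Finset.mem_filter.mp hb').2
  have h2 := star_seq (Y := Fin (n - k)) hp0 hp1 dm y0 k A univ
    (fun a ha => (Finset.mem_filter.mp ha).2) (by simp; omega)
  refine (h1.trans h2).trans ?_
  let posC : Fin k → Fin n := fun u => ⟨u.val, by have := u.2; omega⟩
  let posL : Fin (n - k) → Fin n := fun y => ⟨k + y.val, by have := y.2; omega⟩
  have hne : ∀ y u, posL y ≠ posC u := by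
    intro y u h
    have := congrArg Fin.val h
    have := u.2
    simp only [posL, posC] at *; omega
  have hcur := PE_curry (κ := Fin k) (ι := Fin (n - k)) (bw p)
    (fun ω : Fin k → Fin (n - k) → Bool => ind (Succ dm k A univ ω))
  have hres := PE_restrict (ι := EdgeSlot n) (bw_sum p)
    (fun z : Fin k × Fin (n - k) => slot d0 (posL z.2) (posC z.1)) (by
      intro z z' h
      rcases slot_inj d0 (hne _ _) (hne _ _) h with h3 | h3
      · refine Prod.ext (Fin.ext ?_) (Fin.ext ?_)
        · have := congrArg Fin.val h3.2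
          exact this
        · have := congrArg Fin.val h3.1
          simp only [posL] at this; omega
      · exact absurd h3.1 (hne _ _))
    (fun x => ind (Succ dm k A univ (fun u y => x (u, y))))
  refine le_trans (le_of_eq (hcur.symm.trans hres.symm)) ?_
  refine E_mono hp0 hp1 fun ω => ind_mono ?_
  rintro ⟨c, L, hc, hL, hdis⟩
  have hf : ∀ a, ∃ f : W → Fin (n - k), a ∈ A → (Set.InjOn f (univ.filter (fun b => R b a)) ∧
      ∀ b, R b a → f b ∈ L a) := by
    intro a
    by_cases ha : a ∈ A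
    · let e := Finset.equivOfCardEq (hL a ha).2.1.symm
      refine ⟨fun b => if hb : b ∈ univ.filter (fun b => R b a) then (e ⟨b, hb⟩).1
        else ⟨0, by omega⟩, fun _ => ⟨?_, ?_⟩⟩
      · intro b hb b' hb' h
        have hb1 : b ∈ univ.filter (fun b => R b a) := hb
        have hb2 : b' ∈ univ.filter (fun b => R b a) := hb'
        simp only [dif_pos hb1, dif_pos hb2] at h
        exact congrArg Subtype.val (e.injective (Subtype.ext h))
      · intro b hb
        have hb1 : b ∈ univ.filter (fun b => R b a) := Finset.mem_filter.mpr ⟨Finset.mem_univ _, hb⟩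
        simp only [dif_pos hb1]; exact (e ⟨b, hb1⟩).2
    · exact ⟨fun _ => ⟨0, by omega⟩, fun h => absurd h ha⟩
  choose f hf using hf
  have hRA : ∀ b a, R b a → a ∈ A := fun b a h => Finset.mem_filter.mpr ⟨Finset.mem_univ _,
    Finset.card_pos.mpr ⟨b, Finset.mem_filter.mpr ⟨Finset.mem_univ _, h⟩⟩⟩
  let φ : W → Fin n := fun w => if h : ∃ a, R w a then posL (f h.choose w) else
    if h' : w ∈ A then posC ⟨c w, (hL w h').2.2.1⟩ else ⟨0, by omega⟩
  have hφL : ∀ b a, R b a → φ b = posL (f a b) := by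
    intro b a h
    have h' : ∃ a, R b a := ⟨a, h⟩
    simp only [φ, dif_pos h']
    rw [huniq b _ a h'.choose_spec h]
  have hφC : ∀ a (ha : a ∈ A), φ a = posC ⟨c a, (hL a ha).2.2.1⟩ := by
    intro a ha
    obtain ⟨b, hb⟩ := Finset.card_pos.mp (Finset.mem_filter.mp ha).2
    have h' : ¬ ∃ a', R a a' := fun ⟨a', h⟩ => hbip b a a' (Finset.mem_filter.mp hb).2 h
    simp only [φ, dif_neg h', dif_pos ha]
  refine contains_of d0 hW φ (A ∪ univ.filter (fun b => ∃ a, R b a)) ?_ ?_
  · intro x hx y hy hxy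
    rcases Finset.mem_union.mp hx with hx | hx <;> rcases Finset.mem_union.mp hy with hy | hy
    · rw [hφC x hx, hφC y hy] at hxy
      exact hc hx hy (congrArg Fin.val hxy)
    · obtain ⟨a, ha⟩ := (Finset.mem_filter.mp hy).2
      rw [hφC x hx, hφL y a ha] at hxy
      exact absurd hxy.symm (hne _ _)
    · obtain ⟨a, ha⟩ := (Finset.mem_filter.mp hx).2
      rw [hφC y hy, hφL x a ha] at hxy
      exact absurd hxy (hne _ _)
    · obtain ⟨a, ha⟩ := (Finset.mem_filter.mp hx).2
      obtain ⟨a', ha'⟩ := (Finset.mem_filter.mp hy).2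
      rw [hφL x a ha, hφL y a' ha'] at hxy
      have h3 : f a x = f a' y := by
        have := congrArg Fin.val hxy
        simp only [posL] at this; exact Fin.ext (by omega)
      have h4 := (hf a (hRA _ _ ha)).2 x ha
      have h5 := (hf a' (hRA _ _ ha')).2 y ha'
      by_cases haa : a = a'
      · subst haa
        exact (hf a (hRA _ _ ha)).1 (Finset.mem_coe.mpr (Finset.mem_filter.mpr ⟨Finset.mem_univ _, ha⟩))
          (Finset.mem_coe.mpr (Finset.mem_filter.mpr ⟨Finset.mem_univ _, ha'⟩)) h3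
      · exact absurd (h3 ▸ h5) (Finset.disjoint_left.mp
          (hdis a (hRA _ _ ha) a' (hRA _ _ ha') haa) h4)
  · intro b a hR _
    refine ⟨Finset.mem_union_right _ (Finset.mem_filter.mpr ⟨Finset.mem_univ _, a, hR⟩),
      Finset.mem_union_left _ (hRA b a hR), ?_⟩
    rw [hφL b a hR, hφC a (hRA b a hR)]
    exact (hL a (hRA b a hR)).2.2.2 _ ((hf a (hRA b a hR)).2 b hR)

end Crest.Agent.Tal
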